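import Mathlib

/-!
Basic tools: evaluating a polynomial in the coefficient variables of a form, and its
first order variation along a direction.
-/

namespace Vale.Agent.Lib.P181

open MvPolynomial

/-- The polynomial ring in the coefficient variables `X_m` of a form in the letters `σ`. -/
abbrev RR (σ : Type) := MvPolynomial (σ →₀ ℕ) ℂ

section evF

variable {σ : Type} {S : Type} [CommRing S] [Algebra ℂ S]

/-- Evaluate `P` at the coefficient vector of the form `F`. -/
noncomputable def evF (P : RR σ) (F : MvPolynomial σ S) : S :=
  aeval (fun m => coeff m F) P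

@[simp] lemma evF_C (c : ℂ) (F : MvPolynomial σ S) :
    evF (C c : RR σ) F = algebraMap ℂ S c := by
  simp [evF]

@[simp] lemma evF_X (m : σ →₀ ℕ) (F : MvPolynomial σ S) :
    evF (X m : RR σ) F = coeff m F := by
  simp [evF]

@[simp] lemma evF_zero (F : MvPolynomial σ S) : evF (0 : RR σ) F = 0 := by
  simp [evF]

@[simp] lemma evF_one (F : MvPolynomial σ S) : evF (1 : RR σ) F = 1 := by
  simp [evF]

@[simp] lemma evF_add (P Q : RR σ) (F : MvPolynomial σ S) :
    evF (P + Q) F = evF P F + evF Q F := by
  simp [evF]

@[simp] lemma evF_mul (P Q : RR σ) (F : MvPolynomial σ S) :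
    evF (P * Q) F = evF P F * evF Q F := by
  simp [evF]

lemma evF_map {S' : Type} [CommRing S'] [Algebra ℂ S'] (ψ : S →ₐ[ℂ] S') (P : RR σ)
    (F : MvPolynomial σ S) :
    ψ (evF P F) = evF P (map (ψ : S →+* S') F) := by
  induction P using MvPolynomial.induction_on with
  | C a => simp
  | add p q hp hq => simp [hp, hq]
  | mul_X p n hp => simp [hp, coeff_map]

/-- The polynomial in `w` obtained by evaluating `P` along the line `F + w h`. -/
noncomputable def lineP (P : RR σ) (F h : MvPolynomial σ S) : Polynomial S :=
  aeval (fun m => Polynomial.C (coeff m F) + Polynomial.X * Polynomial.C (coeff m h)) P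

/-- The first order variation of `P` at `F` in the direction `h`. -/
noncomputable def grad (P : RR σ) (F h : MvPolynomial σ S) : S :=
  (lineP P F h).coeff 1

lemma lineP_coeff_zero (P : RR σ) (F h : MvPolynomial σ S) :
    (lineP P F h).coeff 0 = evF P F := by
  induction P using MvPolynomial.induction_on with
  | C a => simp [lineP, evF, Polynomial.algebraMap_apply]
  | add p q hp hq =>
    have : lineP (p + q) F h = lineP p F h + lineP q F h := by simp [lineP]
    rw [this, Polynomial.coeff_add, hp, hq]; simp
  | mul_X p n hp =>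
    have : lineP (p * X n) F h = lineP p F h *
        (Polynomial.C (coeff n F) + Polynomial.X * Polynomial.C (coeff n h)) := by simp [lineP]
    rw [this, Polynomial.mul_coeff_zero, hp]; simp

lemma lineP_mul (P Q : RR σ) (F h : MvPolynomial σ S) :
    lineP (P * Q) F h = lineP P F h * lineP Q F h := by simp [lineP]

lemma lineP_add (P Q : RR σ) (F h : MvPolynomial σ S) :
    lineP (P + Q) F h = lineP P F h + lineP Q F h := by simp [lineP]

lemma grad_mul (P Q : RR σ) (F h : MvPolynomial σ S) :
    grad (P * Q) F h = evF P F * grad Q F h + grad P F h * evF Q F := by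
  simp only [grad, lineP_mul, Polynomial.mul_coeff_one, lineP_coeff_zero]

lemma grad_add (P Q : RR σ) (F h : MvPolynomial σ S) :
    grad (P + Q) F h = grad P F h + grad Q F h := by
  simp only [grad, lineP_add, Polynomial.coeff_add]

@[simp] lemma grad_C (c : ℂ) (F h : MvPolynomial σ S) : grad (C c : RR σ) F h = 0 := by
  simp [grad, lineP, Polynomial.algebraMap_apply]

@[simp] lemma grad_X (m : σ →₀ ℕ) (F h : MvPolynomial σ S) :
    grad (X m : RR σ) F h = coeff m h := by
  simp [grad, lineP]

lemma grad_add_right (P : RR σ) (F h h' : MvPolynomial σ S) :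
    grad P F (h + h') = grad P F h + grad P F h' := by
  induction P using MvPolynomial.induction_on with
  | C a => simp
  | add p q hp hq => simp only [grad_add, hp, hq]; ring
  | mul_X p n hp =>
    simp only [grad_mul, hp, grad_X, coeff_add]; ring

@[simp] lemma grad_zero_right (P : RR σ) (F : MvPolynomial σ S) : grad P F 0 = 0 := by
  have := grad_add_right P F (0 : MvPolynomial σ S) 0
  simpa using this

lemma grad_C_mul_right (P : RR σ) (F : MvPolynomial σ S) (b : S) (h : MvPolynomial σ S) :
    grad P F (C b * h) = b * grad P F h := by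
  induction P using MvPolynomial.induction_on with
  | C a => simp
  | add p q hp hq => simp only [grad_add, hp, hq]; ring
  | mul_X p n hp =>
    simp only [grad_mul, hp, grad_X, coeff_C_mul]; ring

lemma grad_neg_right (P : RR σ) (F h : MvPolynomial σ S) :
    grad P F (-h) = - grad P F h := by
  have := grad_C_mul_right P F (-1 : S) h
  simpa using this

lemma grad_sum_right {ι : Type*} (s : Finset ι) (P : RR σ) (F : MvPolynomial σ S)
    (h : ι → MvPolynomial σ S) :
    grad P F (∑ i ∈ s, h i) = ∑ i ∈ s, grad P F (h i) := by
  classical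
  induction s using Finset.induction_on with
  | empty => simp
  | insert a s ha ih => simp [Finset.sum_insert ha, grad_add_right, ih]

lemma grad_monomial (P : RR σ) (F : MvPolynomial σ S) (m : σ →₀ ℕ) (b : S) :
    grad P F (monomial m b) = b * evF (pderiv m P) F := by
  classical
  induction P using MvPolynomial.induction_on with
  | C a => simp
  | add p q hp hq => simp only [grad_add, hp, hq, map_add, evF_add]; ring
  | mul_X p n hp =>
    simp only [grad_mul, hp, grad_X, coeff_monomial, Derivation.leibniz, pderiv_X, smul_eq_mul,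
      evF_add, evF_mul, evF_X, Pi.single_apply]
    by_cases h : m = n
    · subst h; simp; ring
    · have h' : n ≠ m := fun e => h e.symm
      simp [h, h']; ring

/-- The value of `P` along the line at a numerical parameter. -/
lemma lineP_eval (P : RR σ) (F h : MvPolynomial σ S) (s : S) :
    (lineP P F h).eval s = evF P (F + C s * h) := by
  induction P using MvPolynomial.induction_on with
  | C a => simp [lineP, Polynomial.algebraMap_apply]
  | add p q hp hq => rw [lineP_add, Polynomial.eval_add, hp, hq, evF_add]
  | mul_X p n hp =>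
    have : lineP (p * X n) F h = lineP p F h *
        (Polynomial.C (coeff n F) + Polynomial.X * Polynomial.C (coeff n h)) := by simp [lineP]
    rw [this, Polynomial.eval_mul, hp, evF_mul]
    simp [coeff_add, coeff_C_mul]
    ring

lemma grad_congr (P : RR σ) (F h h' : MvPolynomial σ S)
    (H : ∀ m ∈ P.vars, coeff m h = coeff m h') : grad P F h = grad P F h' := by
  have : lineP P F h = lineP P F h' := by
    unfold lineP aeval
    apply eval₂Hom_congr' rfl _ rfl
    intro m hm _
    rw [H m hm]
  simp [grad, this]

end evF

section mono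

variable {ι : Type*}

/-- Induction on exponent vectors, adding one variable at a time. -/
theorem mono_induction {motive : (ι →₀ ℕ) → Prop} (h0 : motive 0)
    (hs : ∀ d a, motive d → motive (d + Finsupp.single a 1)) (d : ι →₀ ℕ) : motive d := by
  classical
  induction d using Finsupp.induction with
  | zero => exact h0
  | single_add a b f ha hb ih =>
    clear hb ha
    induction b with
    | zero => simpa using ih
    | succ b ihb =>
      have : Finsupp.single a (b + 1) + f = (Finsupp.single a b + f) + Finsupp.single a 1 := by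
        rw [Finsupp.single_add]; abel
      rw [this]
      exact hs _ _ ihb

end mono

section degree

variable {σ : Type} {S : Type} [CommRing S] [Algebra ℂ S]

/-- All monomials of `P` have degree `a`. -/
def Hm (P : RR σ) (a : ℕ) : Prop := ∀ d, coeff d P ≠ 0 → Finsupp.degree d = a

lemma monomial_succ (d : (σ →₀ ℕ) →₀ ℕ) (a : σ →₀ ℕ) (c : ℂ) :
    (monomial (d + Finsupp.single a 1) c : RR σ) = monomial d c * X a := by
  simp [X, monomial_mul]

lemma eq_sum_monomial (P : RR σ) : P = ∑ d ∈ P.support, monomial d (coeff d P) :=
  (support_sum_monomial_coeff P).symm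

/-- Degree bound and top coefficient for a monomial along a family of degree one in `X`. -/
lemma aeval_monomial_line (φ : (σ →₀ ℕ) → Polynomial S) (hφ : ∀ m, (φ m).natDegree ≤ 1)
    (d : (σ →₀ ℕ) →₀ ℕ) (c : ℂ) :
    (aeval φ (monomial d c : RR σ)).natDegree ≤ Finsupp.degree d ∧
      (aeval φ (monomial d c : RR σ)).coeff (Finsupp.degree d) =
        aeval (fun m => (φ m).coeff 1) (monomial d c : RR σ) := by
  induction d using mono_induction with
  | h0 =>
    simp only [map_zero, monomial_zero', aeval_C]
    constructor
    · simp [Polynomial.algebraMap_apply]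
    · simp [Polynomial.algebraMap_apply]
  | hs d a ih =>
    rw [monomial_succ, map_mul, aeval_X, map_mul, aeval_X, map_add, Finsupp.degree_single]
    obtain ⟨h1, h2⟩ := ih
    constructor
    · exact (Polynomial.natDegree_mul_le).trans (by have := hφ a; omega)
    · rw [Polynomial.coeff_mul_add_eq_of_natDegree_le h1 (hφ a), h2]

lemma natDegree_aeval_le (φ : (σ →₀ ℕ) → Polynomial S) (hφ : ∀ m, (φ m).natDegree ≤ 1)
    {P : RR σ} {a : ℕ} (hP : Hm P a) : (aeval φ P).natDegree ≤ a := by
  rw [eq_sum_monomial P, map_sum]
  apply Polynomial.natDegree_sum_le_of_forall_le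
  intro d hd
  have := (aeval_monomial_line φ hφ d (coeff d P)).1
  rwa [hP d (mem_support_iff.1 hd)] at this

lemma coeff_aeval_top (φ : (σ →₀ ℕ) → Polynomial S) (hφ : ∀ m, (φ m).natDegree ≤ 1)
    {P : RR σ} {a : ℕ} (hP : Hm P a) :
    (aeval φ P).coeff a = aeval (fun m => (φ m).coeff 1) P := by
  conv_lhs => rw [eq_sum_monomial P, map_sum, Polynomial.finsetSum_coeff]
  conv_rhs => rw [eq_sum_monomial P, map_sum]
  apply Finset.sum_congr rfl
  intro d hd
  have := (aeval_monomial_line φ hφ d (coeff d P)).2
  rwa [hP d (mem_support_iff.1 hd)] at this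

omit [Algebra ℂ S] in
lemma natDegree_line_le (F h : MvPolynomial σ S) (m : σ →₀ ℕ) :
    (Polynomial.C (coeff m F) + Polynomial.X * Polynomial.C (coeff m h)).natDegree ≤ 1 := by
  apply (Polynomial.natDegree_add_le _ _).trans
  simp only [Polynomial.natDegree_C, zero_le, sup_of_le_right]
  apply Polynomial.natDegree_mul_le.trans
  simpa using Polynomial.natDegree_X_le

/-- The top coefficient along a line is the value at the direction. -/
lemma lineP_top {P : RR σ} {a : ℕ} (hP : Hm P a) (F h : MvPolynomial σ S) :
    (lineP P F h).coeff a = evF P h := by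
  unfold lineP evF
  rw [coeff_aeval_top _ (natDegree_line_le F h) hP]
  congr 2
  funext m
  simp

lemma lineP_natDegree_le {P : RR σ} {a : ℕ} (hP : Hm P a) (F h : MvPolynomial σ S) :
    (lineP P F h).natDegree ≤ a :=
  natDegree_aeval_le _ (natDegree_line_le F h) hP

/-- Homogeneity of the evaluation under scaling of the form. -/
lemma evF_C_mul {P : RR σ} {a : ℕ} (hP : Hm P a) (c : S) (F : MvPolynomial σ S) :
    evF P (C c * F) = c ^ a * evF P F := by
  have key : ∀ (d : (σ →₀ ℕ) →₀ ℕ) (e : ℂ), evF (monomial d e : RR σ) (C c * F) =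
      c ^ (Finsupp.degree d) * evF (monomial d e : RR σ) F := by
    intro d e
    induction d using mono_induction with
    | h0 => simp
    | hs d a' ih =>
      rw [monomial_succ, evF_mul, evF_mul, ih, evF_X, evF_X, coeff_C_mul, map_add,
        Finsupp.degree_single]
      ring
  conv_lhs => rw [eq_sum_monomial P]
  conv_rhs => rw [eq_sum_monomial P]
  have hsum : ∀ (s : Finset ((σ →₀ ℕ) →₀ ℕ)) (G : MvPolynomial σ S),
      evF (∑ d ∈ s, monomial d (coeff d P) : RR σ) G =
        ∑ d ∈ s, evF (monomial d (coeff d P) : RR σ) G := by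
    intro s G
    simp [evF]
  rw [hsum, hsum, Finset.mul_sum]
  apply Finset.sum_congr rfl
  intro d hd
  rw [key, hP d (mem_support_iff.1 hd)]

lemma grad_map {S' : Type} [CommRing S'] [Algebra ℂ S'] (ψ : S →ₐ[ℂ] S') (P : RR σ)
    (F h : MvPolynomial σ S) :
    ψ (grad P F h) = grad P (map (ψ : S →+* S') F) (map (ψ : S →+* S') h) := by
  induction P using MvPolynomial.induction_on with
  | C a => simp
  | add p q hp hq => simp [grad_add, hp, hq]
  | mul_X p n hp =>
    simp only [grad_mul, map_add, map_mul, hp, evF_map, grad_X, evF_X, coeff_map]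
    rfl

/-- Degree bound for the first variation over a polynomial ring. -/
lemma natDegree_grad_le {P : RR σ} {a : ℕ} (hP : Hm P a)
    (F h : MvPolynomial σ (Polynomial S))
    (hF : ∀ m, (coeff m F).natDegree ≤ 1) (hh : ∀ m, (coeff m h).natDegree = 0) :
    (grad P F h).natDegree ≤ a - 1 := by
  have key : ∀ (d : (σ →₀ ℕ) →₀ ℕ) (e : ℂ),
      (Finsupp.degree d = 0 → grad (monomial d e : RR σ) F h = 0) ∧
      (grad (monomial d e : RR σ) F h).natDegree ≤ Finsupp.degree d - 1 ∧
      (evF (monomial d e : RR σ) F).natDegree ≤ Finsupp.degree d := by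
    intro d e
    induction d using mono_induction with
    | h0 => simp [Polynomial.algebraMap_apply]
    | hs d a' ih =>
      obtain ⟨h0, h1, h2⟩ := ih
      rw [monomial_succ, grad_mul, evF_mul, grad_X, evF_X, map_add, Finsupp.degree_single]
      refine ⟨by omega, ?_, ?_⟩
      · apply (Polynomial.natDegree_add_le _ _).trans
        apply max_le
        · apply Polynomial.natDegree_mul_le.trans
          rw [hh a']
          omega
        · by_cases hd : Finsupp.degree d = 0
          · rw [h0 hd]; simp
          · apply Polynomial.natDegree_mul_le.trans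
            have := hF a'
            omega
      · apply Polynomial.natDegree_mul_le.trans
        have := hF a'
        omega
  have hsum : ∀ (s : Finset ((σ →₀ ℕ) →₀ ℕ)),
      grad (∑ d ∈ s, monomial d (coeff d P) : RR σ) F h =
        ∑ d ∈ s, grad (monomial d (coeff d P) : RR σ) F h := by
    intro s
    classical
    induction s using Finset.induction_on with
    | empty =>
      have : grad (C 0 : RR σ) F h = 0 := grad_C 0 F h
      simpa using this
    | insert b s hb ih => rw [Finset.sum_insert hb, Finset.sum_insert hb, grad_add, ih]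
  rw [eq_sum_monomial P, hsum]
  apply Polynomial.natDegree_sum_le_of_forall_le
  intro d hd
  have := (key d (coeff d P)).2.1
  rwa [hP d (mem_support_iff.1 hd)] at this

end degree

section nil

variable {σ : Type} [Fintype σ]

/-- The linear form with constant term `ε` and linear coefficients `ℓ`. -/
noncomputable def lin {S : Type} [CommRing S] (ε : S) (ℓ : σ → S) : MvPolynomial σ S :=
  C ε + ∑ j, C (ℓ j) * X j

lemma map_lin {S S' : Type} [CommRing S] [CommRing S'] (ψ : S →+* S') (ε : S) (ℓ : σ → S) :
    map ψ (lin ε ℓ) = lin (ψ ε) (fun j => ψ (ℓ j)) := by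
  simp [lin, map_sum]

omit [Fintype σ] in
lemma totalDegree_map_le' {S S' : Type} [CommRing S] [CommRing S'] (ψ : S →+* S')
    (p : MvPolynomial σ S) : (map ψ p).totalDegree ≤ p.totalDegree :=
  Finset.sup_mono (support_map_subset ..)

lemma totalDegree_lin_le {S : Type} [CommRing S] (ε : S) (ℓ : σ → S) :
    (lin ε ℓ).totalDegree ≤ 1 := by
  unfold lin
  apply (totalDegree_add _ _).trans
  simp only [totalDegree_C, zero_le, sup_of_le_right]
  apply totalDegree_finsetSum_le
  intro j _
  apply (totalDegree_mul _ _).trans
  simp only [totalDegree_C, zero_add]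
  by_cases hS : Nontrivial S
  · rw [totalDegree_X]
  · have : Subsingleton S := not_nontrivial_iff_subsingleton.1 hS
    have hz : (X j : MvPolynomial σ S) = 0 := Subsingleton.elim _ _
    rw [hz]; simp

/-- `P` vanishes on all products `(ε + ℓ) g` with `g` of degree at most `D` and `ε ^ r = 0`,
over every coefficient algebra. -/
def Nil (D r : ℕ) (P : RR σ) : Prop :=
  ∀ (S : Type) [CommRing S] [Algebra ℂ S] (ε : S) (_ : ε ^ r = 0) (ℓ : σ → S)
    (g : MvPolynomial σ S), g.totalDegree ≤ D → evF P (lin ε ℓ * g) = 0

omit [Fintype σ] in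
lemma lineP_eq_evF {S : Type} [CommRing S] [Algebra ℂ S] (P : RR σ) (F h : MvPolynomial σ S) :
    lineP P F h = evF P (map Polynomial.C F + C Polynomial.X * map Polynomial.C h) := by
  unfold lineP evF
  congr 2
  funext m
  simp [coeff_add, coeff_map, coeff_C_mul]

/-- The first variation vanishes in directions tangent to the family. -/
lemma Nil.grad_lin_mul {D r : ℕ} {P : RR σ} (h : Nil D r P) {S : Type} [CommRing S] [Algebra ℂ S]
    (ε : S) (hε : ε ^ r = 0) (ℓ : σ → S) (g h' : MvPolynomial σ S) (hg : g.totalDegree ≤ D)
    (hh' : h'.totalDegree ≤ D) : grad P (lin ε ℓ * g) (lin ε ℓ * h') = 0 := by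
  have e : map Polynomial.C (lin ε ℓ * g) + C Polynomial.X * map Polynomial.C (lin ε ℓ * h') =
      lin (Polynomial.C ε) (fun j => Polynomial.C (ℓ j)) *
        (map Polynomial.C g + C Polynomial.X * map Polynomial.C h') := by
    rw [map_mul, map_mul, map_lin]
    ring
  have : lineP P (lin ε ℓ * g) (lin ε ℓ * h') = 0 := by
    rw [lineP_eq_evF, e]
    apply h (Polynomial S) _ _ _ _
    · apply (totalDegree_add _ _).trans
      apply max_le ((totalDegree_map_le' _ _).trans hg)
      apply (totalDegree_mul _ _).trans
      simp only [totalDegree_C, zero_add]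
      exact (totalDegree_map_le' _ _).trans hh'
    · rw [← map_pow, hε, map_zero]
  simp [grad, this]

end nil

end Vale.Agent.Lib.P181
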