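import Vale.Agent.Lib.P181.Pull

/-!
Relations in homogeneous coordinates, the passage to the affine chart and the vanishing of the
form of a relation on forms of small degree in the letters other than the distinguished one.
-/

namespace Vale.Agent.Lib.P181

open MvPolynomial

set_option linter.unusedSimpArgs false
set_option linter.unusedVariables false
set_option linter.unusedSectionVars false

section rel

variable {α : Type} [Fintype α] [DecidableEq α]

/-- The product of the linear forms of a list of coefficient vectors. -/
noncomputable def prodL (l : List (α → ℂ)) : MvPolynomial α ℂ := (l.map lf).prod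

@[simp] lemma prodL_nil : prodL ([] : List (α → ℂ)) = 1 := rfl

@[simp] lemma prodL_cons (y : α → ℂ) (l : List (α → ℂ)) : prodL (y :: l) = lf y * prodL l := by
  simp [prodL]

lemma prodL_append (l l' : List (α → ℂ)) : prodL (l ++ l') = prodL l * prodL l' := by
  simp [prodL]

lemma isHomogeneous_lf (c : α → ℂ) : (lf c).IsHomogeneous 1 := by
  apply IsHomogeneous.sum
  intro j _
  exact isHomogeneous_C_mul_X _ _

lemma isHomogeneous_prodL (l : List (α → ℂ)) : (prodL l).IsHomogeneous l.length := by
  induction l with
  | nil => simpa using isHomogeneous_one (σ := α) (R := ℂ)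
  | cons y l ih =>
    rw [prodL_cons, List.length_cons, add_comm]
    exact (isHomogeneous_lf y).mul ih

/-- `P` vanishes on all products of `N` linear forms. -/
def RelH (N : ℕ) (P : RR α) : Prop :=
  ∀ l : List (α → ℂ), l.length = N → evF P (prodL l) = 0

end rel

section chart

variable {σ : Type} [Fintype σ] [DecidableEq σ]

/-- The homogeneous coordinates of a point of the chart. -/
def homPt (y : σ → ℂ) : Option σ → ℂ := fun o => o.elim 1 y

lemma lf_homPt (y : σ → ℂ) :
    lf (homPt y) = X none + ∑ j, C (y j) * X (some j) := by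
  unfold lf
  rw [Fintype.sum_option]
  simp [homPt]

lemma degree_some (m : Option σ →₀ ℕ) : Finsupp.degree (Finsupp.some m) = ylev m := by
  rw [Finsupp.degree_eq_sum]
  rfl

lemma some_sub_none (m : Option σ →₀ ℕ) :
    Finsupp.some (m - Finsupp.single none 1) = Finsupp.some m := by
  ext j
  simp [Finsupp.some_apply]

lemma some_sub_some (m : Option σ →₀ ℕ) (j : σ) :
    Finsupp.some (m - Finsupp.single (some j) 1) = Finsupp.some m - Finsupp.single j 1 := by
  ext i
  simp only [Finsupp.some_apply, Finsupp.coe_tsub, Pi.sub_apply]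
  by_cases h : i = j
  · subst h
    simp
  · have h' : some j ≠ some i := fun e => h (Option.some.inj e).symm
    have h'' : j ≠ i := fun e => h e.symm
    simp [Finsupp.single_apply, h', h'']

lemma degree_sub_single' {m : Option σ →₀ ℕ} {o : Option σ} (h : m o ≠ 0) :
    Finsupp.degree (m - Finsupp.single o 1) + 1 = Finsupp.degree m := degree_sub_single h

lemma coeff_prodL_hom (l : List (σ → ℂ)) :
    ∀ m : Option σ →₀ ℕ, Finsupp.degree m = l.length →
      coeff m (prodL (l.map homPt)) = coeff (Finsupp.some m) (prodForm l) := by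
  induction l with
  | nil =>
    intro m hm
    have h0 : m = 0 := (Finsupp.degree_eq_zero_iff m).1 (by simpa using hm)
    subst h0
    simp [prodForm]
  | cons y l ih =>
    intro m hm
    rw [List.map_cons, prodL_cons, lf_homPt, add_mul, coeff_add, Finset.sum_mul, coeff_sum]
    simp only [prodForm]
    rw [coeff_lin_mul, one_mul]
    congr 1
    · rw [coeff_X_mul']
      simp only [Finsupp.mem_support_iff]
      by_cases h : m none = 0
      · rw [if_neg (not_not.2 h)]
        symm
        apply coeff_eq_zero_of_totalDegree_lt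
        have h1 := totalDegree_prodForm_le l
        have h2 := degree_eq_none_add_ylev m
        rw [hm, h] at h2
        simp only [List.length_cons] at h2
        have h3 : ∑ i ∈ (Finsupp.some m).support, (Finsupp.some m) i =
            Finsupp.degree (Finsupp.some m) := rfl
        rw [h3, degree_some]
        omega
      · rw [if_pos h, ih, some_sub_none]
        have := degree_sub_single' h
        simp only [List.length_cons] at hm
        omega
    · apply Finset.sum_congr rfl
      intro j _
      rw [mul_assoc, coeff_C_mul, coeff_X_mul']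
      simp only [Finsupp.mem_support_iff, Finsupp.some_apply]
      by_cases h : m (some j) = 0
      · simp [h]
      · have hdeg : Finsupp.degree (m - Finsupp.single (some j) 1) = l.length := by
          have := degree_sub_single' h
          simp only [List.length_cons] at hm
          omega
        rw [if_pos h, ih _ hdeg, some_sub_some]
        simp [h]

lemma evF_rename_some (P : RR (Option σ)) (F : MvPolynomial σ ℂ) :
    evF (rename Finsupp.some P) F = eval (fun m => coeff (Finsupp.some m) F) P := by
  unfold evF
  rw [aeval_rename, aeval_eq_eval]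
  rfl

/-- The relation in homogeneous coordinates gives the relation in the chart. -/
lemma rel_chart {N a : ℕ} {P : RR (Option σ)} (hP : HomP N a P) (hR : RelH N P) :
    Rel N (rename Finsupp.some P) := by
  intro l hl
  rw [evF_rename_some]
  have h1 := hR (l.map homPt) (by simpa using hl)
  rw [evF_congr (prodL (l.map homPt)) (fun m => coeff (Finsupp.some m) (prodForm l))] at h1
  · exact h1
  · intro m hm
    apply coeff_prodL_hom
    rw [hl]
    obtain ⟨d, hd, hmd⟩ := (mem_vars_iff_mem_support m).1 hm
    exact (hP d (mem_support_iff.1 hd)).2 m hmd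

lemma ylev_le_degree (m : Option σ →₀ ℕ) : ylev m ≤ Finsupp.degree m := by
  have := degree_eq_none_add_ylev m
  omega

/-- The level of a monomial in homogeneous coordinates. -/
noncomputable def wtH (d : (Option σ →₀ ℕ) →₀ ℕ) : ℕ := Finsupp.weight (fun m => ylev m) d

lemma wtH_add (d d' : (Option σ →₀ ℕ) →₀ ℕ) : wtH (d + d') = wtH d + wtH d' := by
  simp [wtH]

lemma wtH_single (m : Option σ →₀ ℕ) (k : ℕ) : wtH (Finsupp.single m k) = k * ylev m := by
  simp [wtH, Finsupp.weight_single]

lemma wt_mapDomain_some (d : (Option σ →₀ ℕ) →₀ ℕ) :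
    wt (d.mapDomain Finsupp.some) = wtH d := by
  induction d using mono_induction with
  | h0 => simp [wtH]
  | hs d a ih =>
    rw [Finsupp.mapDomain_add, wt_add, wtH_add, ih, Finsupp.mapDomain_single, wt_single, wtH_single,
      degree_some]

/-- **Level bound.** All monomials of a relation in homogeneous coordinates have level larger than
the number of linear factors. -/
theorem level_gt {N a : ℕ} {P : RR (Option σ)} (hP : HomP N a P) (hR : RelH N P)
    (d : (Option σ →₀ ℕ) →₀ ℕ) (hd : coeff d P ≠ 0) : N < wtH d := by
  by_contra hlt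
  push Not at hlt
  -- `P` is a renaming of a polynomial in the variables of degree `N`
  let val : {m : Option σ →₀ ℕ // Finsupp.degree m = N} → (Option σ →₀ ℕ) := Subtype.val
  have hval : Function.Injective val := Subtype.val_injective
  obtain ⟨P₃, hP₃⟩ := exists_rename_eq_of_vars_subset_range P val hval (by
    intro m hm
    obtain ⟨d', hd', hmd⟩ := (mem_vars_iff_mem_support m).1 hm
    exact ⟨⟨m, (hP d' (mem_support_iff.1 hd')).2 m hmd⟩, rfl⟩)
  have hinj : Function.Injective ((Finsupp.some : (Option σ →₀ ℕ) → (σ →₀ ℕ)) ∘ val) := by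
    intro x y hxy
    apply Subtype.ext
    have h1 : Finsupp.some x.1 = Finsupp.some y.1 := hxy
    ext o
    cases o with
    | none =>
      have h2 := degree_eq_none_add_ylev x.1
      have h3 := degree_eq_none_add_ylev y.1
      have h4 : ylev x.1 = ylev y.1 := by
        rw [← degree_some, ← degree_some, h1]
      rw [x.2] at h2
      rw [y.2] at h3
      omega
    | some j =>
      have := DFunLike.congr_fun h1 j
      simpa [Finsupp.some_apply] using this
  set E := rename Finsupp.some P with hE
  have hE2 : E = rename ((Finsupp.some : (Option σ →₀ ℕ) → (σ →₀ ℕ)) ∘ val) P₃ := by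
    rw [hE, ← hP₃, rename_rename]
  have hR' : Rel N E := rel_chart hP hR
  obtain ⟨u, hu, hu2⟩ := by
    rw [← hP₃] at hd
    exact coeff_rename_ne_zero _ _ _ hd
  set d' := d.mapDomain Finsupp.some with hd'
  have hcoeff : coeff d' E ≠ 0 := by
    have e1 : d' = u.mapDomain ((Finsupp.some : (Option σ →₀ ℕ) → (σ →₀ ℕ)) ∘ val) := by
      rw [hd', ← hu, Finsupp.mapDomain_comp]
    rw [e1, hE2, coeff_rename_mapDomain _ hinj]
    exact hu2
  have hlv : wt d' = wtH d := wt_mapDomain_some d
  have hC := rel_component hR' (wt d')
  have hBi : Bi N a 0 (wt d')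
      (weightedHomogeneousComponent (fun m : σ →₀ ℕ => Finsupp.degree m) (wt d') E) := by
    intro d'' hd''
    rw [coeff_weightedHomogeneousComponent] at hd''
    by_cases hw : (Finsupp.weight (fun m : σ →₀ ℕ => Finsupp.degree m)) d'' = wt d'
    · rw [if_pos hw] at hd''
      obtain ⟨d₃, hd₃, hd₃2⟩ := coeff_rename_ne_zero _ _ _ hd''
      obtain ⟨h1, h2⟩ := hP d₃ hd₃2
      subst hd₃
      refine ⟨by rw [Finsupp.degree_mapDomain, h1], by simpa [wt] using hw, ?_⟩
      intro m hm
      have h3 := Finsupp.mapDomain_support hm
      obtain ⟨m₃, hm₃, rfl⟩ := Finset.mem_image.1 h3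
      rw [degree_some, ← h2 m₃ hm₃]
      exact ylev_le_degree m₃
    · rw [if_neg hw] at hd''
      exact absurd rfl hd''
  have h0 := claim0 N (wt d') a _ hBi (by omega) hC
  have h1 := congrArg (coeff d') h0
  have hw : (Finsupp.weight (fun m : σ →₀ ℕ => Finsupp.degree m)) d' = wt d' := rfl
  rw [coeff_weightedHomogeneousComponent, if_pos hw, coeff_zero] at h1
  exact hcoeff h1

/-- All monomials have level at least `k`. -/
def LW (k : ℕ) (Q : RR (Option σ)) : Prop := ∀ d, coeff d Q ≠ 0 → k ≤ wtH d

lemma LW_dL {k g : ℕ} {Q : RR (Option σ)} (hQ : LW k Q) {G : MvPolynomial (Option σ) ℂ}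
    (hG : ∀ m ∈ G.support, ylev m ≤ g) : LW (k - g) (dL G Q) := by
  intro d hd
  rw [dL_as_sum, coeff_sum] at hd
  obtain ⟨m, hm, hm2⟩ := Finset.exists_ne_zero_of_sum_ne_zero hd
  rw [coeff_smul, smul_eq_mul] at hm2
  have h1 := coeff_pderiv_ne (right_ne_zero_of_mul hm2)
  have h2 := hQ _ h1
  rw [wtH_add, wtH_single, one_mul] at h2
  have := hG m hm
  omega

lemma LW_DD : ∀ (a : ℕ) (G : Fin a → MvPolynomial (Option σ) ℂ) (g : Fin a → ℕ)
    (hG : ∀ i, ∀ m ∈ (G i).support, ylev m ≤ g i) (k : ℕ) (Q : RR (Option σ)),
    LW k Q → LW (k - ∑ i, g i) (DD G Q) := by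
  intro a
  induction a with
  | zero =>
    intro G g _ k Q hQ
    simpa using hQ
  | succ a ih =>
    intro G g hG k Q hQ
    rw [DD_succ, Fin.sum_univ_succ]
    have h1 := ih (fun i => G i.succ) (fun i => g i.succ) (fun i => hG i.succ) k Q hQ
    have h2 := LW_dL h1 (hG 0)
    have e : k - (g 0 + ∑ i : Fin a, g i.succ) = k - ∑ i : Fin a, g i.succ - g 0 := by omega
    rw [e]
    exact h2

/-- The form of a polynomial of large level vanishes on forms of small degree in the letters
other than the distinguished one. -/
lemma Tf_of_LW {a k : ℕ} {P : RR (Option σ)} (hP : LW k P) (G : Fin a → MvPolynomial (Option σ) ℂ)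
    (g : Fin a → ℕ) (hG : ∀ i, ∀ m ∈ (G i).support, ylev m ≤ g i) (hk : ∑ i, g i < k) :
    Tf P a G = 0 := by
  rw [Tf_apply, constantCoeff_eq]
  by_contra h
  have := LW_DD a G g hG k P hP 0 h
  simp [wtH] at this
  omega

end chart

end Vale.Agent.Lib.P181
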