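import Vale.Agent.Lib.P181.Chart

/-!
The core theorem in homogeneous coordinates: no nonzero polynomial of degree `a` in the
coefficients of forms of degree `N` vanishes on all products of `N` linear forms, once
`a * (a - 1) ^ 2 ≤ 2 * N`.
-/

namespace Vale.Agent.Lib.P181

open MvPolynomial

set_option linter.unusedSimpArgs false
set_option linter.unusedVariables false
set_option linter.unusedSectionVars false

variable {σ : Type} [Fintype σ] [DecidableEq σ]

/-- The linear substitution sending the distinguished letter to `lf c`. -/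
noncomputable def subA (c : Option σ → ℂ) :
    MvPolynomial (Option σ) ℂ →ₐ[ℂ] MvPolynomial (Option σ) ℂ :=
  aeval (fun o => o.elim (lf c) (fun j => X (some j)))

/-- The inverse of the substitution `subA`. -/
noncomputable def subB (c : Option σ → ℂ) :
    MvPolynomial (Option σ) ℂ →ₐ[ℂ] MvPolynomial (Option σ) ℂ :=
  aeval (fun o => o.elim (C (c none)⁻¹ * (X none - ∑ j, C (c (some j)) * X (some j)))
    (fun j => X (some j)))

lemma subA_none (c : Option σ → ℂ) : subA c (X none) = lf c := by
  simp [subA]

lemma subA_some (c : Option σ → ℂ) (j : σ) : subA c (X (some j)) = X (some j) := by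
  simp [subA]

lemma lf_option (c : Option σ → ℂ) :
    lf c = C (c none) * X none + ∑ j, C (c (some j)) * X (some j) := by
  unfold lf
  rw [Fintype.sum_option]

lemma subA_subB (c : Option σ → ℂ) (hc : c none ≠ 0) (G : MvPolynomial (Option σ) ℂ) :
    subA c (subB c G) = G := by
  have h : (subA c).comp (subB c) = AlgHom.id ℂ _ := by
    apply MvPolynomial.algHom_ext
    intro o
    cases o with
    | none =>
      simp only [AlgHom.comp_apply, subB, aeval_X, Option.elim, AlgHom.id_apply]
      rw [map_mul, map_sub, map_sum, subA_none, lf_option]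
      simp only [map_mul, subA_some, algHom_C, algebraMap_eq]
      rw [add_sub_cancel_right, ← mul_assoc, ← C_mul, inv_mul_cancel₀ hc]
      simp
    | some j =>
      simp only [AlgHom.comp_apply, subB, aeval_X, Option.elim, AlgHom.id_apply]
      exact subA_some c j
  exact DFunLike.congr_fun h G

lemma subB_hom (c : Option σ → ℂ) {G : MvPolynomial (Option σ) ℂ} {g : ℕ}
    (hG : G.IsHomogeneous g) : (subB c G).IsHomogeneous g := by
  have h := IsHomogeneous.aeval hG (fun o => o.elim
    (C (c none)⁻¹ * (X none - ∑ j, C (c (some j)) * X (some j)) : MvPolynomial (Option σ) ℂ)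
    (fun j => X (some j))) (n := 1) (by
      intro o
      cases o with
      | none =>
        simp only [Option.elim]
        have h1 : (X none - ∑ j, C (c (some j)) * X (some j) :
            MvPolynomial (Option σ) ℂ).IsHomogeneous 1 := by
          apply IsHomogeneous.sub (isHomogeneous_X ℂ _)
          apply IsHomogeneous.sum
          intro j _
          exact isHomogeneous_C_mul_X _ _
        have h2 := (isHomogeneous_C (Option σ) ((c none)⁻¹)).mul h1
        simpa using h2
      | some j => exact isHomogeneous_X ℂ _)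
  rw [one_mul] at h
  exact h

lemma subA_lf (c y : Option σ → ℂ) : ∃ y', subA c (lf y) = lf y' := by
  refine ⟨fun o => y none * c o + o.elim 0 (fun j => y (some j)), ?_⟩
  rw [lf, map_sum, Fintype.sum_option, lf_option]
  simp only [map_mul, subA_none, subA_some, algHom_C, algebraMap_eq, Option.elim, add_zero,
    C_add]
  rw [lf_option, mul_add, add_assoc]
  congr 1
  · simp only [mul_assoc]
  · simp only [add_mul, Finset.sum_add_distrib, map_mul, Finset.mul_sum, mul_assoc]

lemma subA_prodL (c : Option σ → ℂ) :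
    ∀ l : List (Option σ → ℂ), ∃ l' : List (Option σ → ℂ), l'.length = l.length ∧
      subA c (prodL l) = prodL l' := by
  intro l
  induction l with
  | nil => exact ⟨[], rfl, by simp⟩
  | cons y l ih =>
    obtain ⟨l', h1, h2⟩ := ih
    obtain ⟨y', hy'⟩ := subA_lf c y
    refine ⟨y' :: l', by simp [h1], ?_⟩
    rw [prodL_cons, map_mul, h2, hy', prodL_cons]

/-- The base of the descent. -/
theorem base_vanish {N M a : ℕ} {P : RR (Option σ)} (hP : HomP N a P) (hR : RelH N P)
    (c : Option σ → ℂ) (hc : c none ≠ 0) (lH : List (Option σ → ℂ)) (hlH : lH.length + M = N)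
    (g τ : Fin a → ℕ) (hτ : ∀ i, τ i + g i = M) (hg : ∑ i, g i ≤ M)
    (G : Fin a → MvPolynomial (Option σ) ℂ) (hG : ∀ i, (G i).IsHomogeneous (g i)) :
    Tf P a (fun i => prodL lH * (lf c) ^ (τ i) * G i) = 0 := by
  set L : MvPolynomial (Option σ) ℂ →ₗ[ℂ] MvPolynomial (Option σ) ℂ :=
    (LinearMap.mulLeft ℂ (prodL lH)).comp (subA c).toLinearMap with hL
  have hLa : ∀ x, L x = prodL lH * subA c x := fun x => rfl
  have hP2 : HomP M a (pull M L P) := homP_pull M L hP.hm
  have hR2 : RelH M (pull M L P) := by
    intro l hl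
    have hl' := isHomogeneous_prodL l
    rw [hl] at hl'
    rw [evF_pull L P hl', hLa]
    obtain ⟨l', h1, h2⟩ := subA_prodL c l
    rw [h2, ← prodL_append]
    apply hR
    simp [h1, hl, hlH]
  let Gh : Fin a → MvPolynomial (Option σ) ℂ := fun i => (X none) ^ (τ i) * subB c (G i)
  have hGh : ∀ i, (Gh i).IsHomogeneous M := by
    intro i
    have h1 := ((isHomogeneous_X ℂ (none : Option σ)).pow (τ i)).mul (subB_hom c (hG i))
    rw [one_mul, hτ i] at h1
    exact h1
  have e1 : (fun i => prodL lH * (lf c) ^ (τ i) * G i) = fun i => L (Gh i) := by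
    funext i
    simp only [hLa, Gh, map_mul, map_pow, subA_none, subA_subB c hc, mul_assoc]
  rw [e1, ← Tf_pull L P a Gh hGh]
  apply Tf_of_LW (k := M + 1) (fun d hd => level_gt hP2 hR2 d hd) Gh g _ (by omega)
  intro i m hm
  have hm' : coeff m (Gh i) ≠ 0 := mem_support_iff.1 hm
  simp only [Gh] at hm'
  rw [X_pow_eq_monomial, coeff_monomial_mul'] at hm'
  by_cases hs : Finsupp.single none (τ i) ≤ m
  · rw [if_pos hs, one_mul] at hm'
    have h1 := degree_of_coeff_ne (subB_hom c (hG i)) hm'
    have h2 : m = (m - Finsupp.single none (τ i)) + Finsupp.single none (τ i) :=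
      (tsub_add_cancel_of_le hs).symm
    rw [h2, ylev_add]
    have h3 : ylev (Finsupp.single (none : Option σ) (τ i)) = 0 := by
      simp [ylev]
    rw [h3, add_zero, ← h1]
    exact ylev_le_degree _
  · rw [if_neg hs] at hm'
    exact absurd rfl hm'

lemma sum_ite_le {a : ℕ} (j : Fin a) :
    ∑ i : Fin a, (if i ≤ j then 1 else 0) = (j : ℕ) + 1 := by
  rw [Finset.sum_boole]
  have e : (Finset.univ.filter (fun x : Fin a => x ≤ j)) = Finset.Iic j := by
    ext x
    simp
  rw [e, Fin.card_Iic]
  simp

/-- The form in the constant polynomials. -/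
noncomputable def Tc {a : ℕ}
    (T : MultilinearMap ℂ (fun _ : Fin a => MvPolynomial (Option σ) ℂ) ℂ) :
    MultilinearMap ℂ (fun _ : Fin a => MvPolynomial (Option σ) ℂ) (MvPolynomial (Option σ) ℂ) :=
  (Algebra.linearMap ℂ (MvPolynomial (Option σ) ℂ)).compMultilinearMap T

lemma Tc_apply {a : ℕ} (T : MultilinearMap ℂ (fun _ : Fin a => MvPolynomial (Option σ) ℂ) ℂ)
    (G : Fin a → MvPolynomial (Option σ) ℂ) : Tc T G = C (T G) := rfl

/-- The descent on the degree. -/
theorem chain {N a M0 : ℕ} {P : RR (Option σ)} (hP : HomP N a P) (hR : RelH N P)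
    (g : Fin a → ℕ) (hg : ∀ j : Fin a, (j : ℕ) ≤ g j) (hgM : ∑ i, g i ≤ M0) (hgi : ∀ i, g i ≤ M0)
    (hN : M0 ≤ N) (c : Option σ → ℂ) (hc : c none ≠ 0) :
    ∀ s, s ≤ N - M0 → ∀ lH : List (Option σ → ℂ), lH.length = N - M0 - s →
      ∀ G : Fin a → MvPolynomial (Option σ) ℂ, (∀ i, (G i).IsHomogeneous (g i + s)) →
        Tf P a (fun i => prodL lH * (lf c) ^ (M0 - g i) * G i) = 0 := by
  intro s
  induction s with
  | zero =>
    intro _ lH hl G hG
    exact base_vanish hP hR c hc lH (by omega) g (fun i => M0 - g i)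
      (fun i => by have := hgi i; omega) hgM G (by simpa using hG)
  | succ s ih =>
    intro hs lH hl G hG
    let T₂ : MultilinearMap ℂ (fun _ : Fin a => MvPolynomial (Option σ) ℂ) ℂ :=
      (Tf P a).compLinearMap (fun i => LinearMap.mulLeft ℂ (prodL lH * (lf c) ^ (M0 - g i)))
    have hT₂ : ∀ G' : Fin a → MvPolynomial (Option σ) ℂ,
        T₂ G' = Tf P a (fun i => prodL lH * (lf c) ^ (M0 - g i) * G' i) := fun G' => rfl
    have h0 := genC (none : Option σ) a (Tc T₂) 0 (fun i => g i + s) (fun _ => 1)
      (by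
        intro G' _
        rw [Tc_apply]
        exact isHomogeneous_C _ _)
      (by
        intro j
        rw [sum_ite_le]
        have := hg j
        omega)
      (by
        intro c' hc' F hF
        rw [Tc_apply, eval_C, hT₂]
        have h1 := ih (by omega) (c' :: lH) (by simp [hl]; omega) F hF
        rw [← h1]
        congr 1
        funext i
        rw [prodL_cons]
        ring)
      G (fun i => by simpa [add_assoc] using hG i)
    rw [Tc_apply] at h0
    exact C_injective _ _ (h0.trans (map_zero _).symm)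

/-- **Core theorem**, with a general choice of the degrees. -/
theorem core_gen {N a M0 : ℕ} {P : RR (Option σ)} (hP : HomP N a P) (hR : RelH N P)
    (g : Fin a → ℕ) (hg : ∀ j : Fin a, (j : ℕ) ≤ g j) (hgM : ∑ i, g i ≤ M0) (hgi : ∀ i, g i ≤ M0)
    (hN : M0 ≤ N) (hS : ∑ i, (M0 - g i) ≤ N) : P = 0 := by
  apply eq_zero_of_Tf hP
  intro G hG
  have h0 := genC (none : Option σ) a (Tc (Tf P a)) 0 (fun i => g i + (N - M0)) (fun i => M0 - g i)
    (by
      intro G' _
      rw [Tc_apply]
      exact isHomogeneous_C _ _)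
    (by
      intro j
      have h1 : ∑ i, (if i ≤ j then M0 - g i else 0) ≤ ∑ i, (M0 - g i) := by
        apply Finset.sum_le_sum
        intro i _
        split_ifs <;> omega
      have := hgi j
      omega)
    (by
      intro c hc F hF
      rw [Tc_apply, eval_C]
      have h1 := chain hP hR g hg hgM hgi hN c hc (N - M0) le_rfl [] (by simp) F hF
      rw [← h1]
      congr 1
      funext i
      simp)
    G (fun i => by
      have e : g i + (N - M0) + (M0 - g i) = N := by
        have := hgi i
        omega
      rw [e]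
      exact hG i)
  rw [Tc_apply] at h0
  exact C_injective _ _ (h0.trans (map_zero _).symm)

/-- **Core theorem.** -/
theorem core_main {N a : ℕ} {P : RR (Option σ)} (hP : HomP N a P) (hR : RelH N P)
    (h : a * (a - 1) ^ 2 ≤ 2 * N) : P = 0 := by
  have hsum : ∑ i : Fin a, (i : ℕ) = a * (a - 1) / 2 := by
    rw [Fin.sum_univ_eq_sum_range (fun i => i) a, Finset.sum_range_id]
  set M0 := a * (a - 1) / 2 with hM0
  have h2 : 2 * M0 = a * (a - 1) := by
    have := Nat.even_mul_pred_self a
    rw [hM0]
    exact Nat.mul_div_cancel' this.two_dvd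
  have hgi : ∀ i : Fin a, (i : ℕ) ≤ M0 := by
    intro i
    rw [← hsum]
    exact Finset.single_le_sum (f := fun i : Fin a => (i : ℕ)) (fun _ _ => Nat.zero_le _)
      (Finset.mem_univ i)
  have hS1 : ∑ i : Fin a, (M0 - (i : ℕ)) + ∑ i : Fin a, (i : ℕ) = a * M0 := by
    rw [← Finset.sum_add_distrib]
    rw [Finset.sum_congr rfl (fun i _ => Nat.sub_add_cancel (hgi i))]
    simp
  have hmain : (a - 1) * M0 ≤ N := by
    have e : 2 * ((a - 1) * M0) = a * (a - 1) ^ 2 := by
      calc 2 * ((a - 1) * M0) = (a - 1) * (2 * M0) := by ring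
        _ = (a - 1) * (a * (a - 1)) := by rw [h2]
        _ = a * (a - 1) ^ 2 := by ring
    omega
  have hN : M0 ≤ N := by
    by_cases ha : a ≤ 1
    · have : a * (a - 1) = 0 := by
        interval_cases a <;> simp
      have : M0 = 0 := by omega
      omega
    · have : M0 ≤ (a - 1) * M0 := Nat.le_mul_of_pos_left M0 (by omega)
      omega
  apply core_gen hP hR (fun i => (i : ℕ)) (fun _ => le_rfl) (by rw [hsum]) hgi hN
  have e : a * M0 = (a - 1) * M0 + M0 := by
    by_cases ha : a = 0
    · have h0 : M0 = 0 := by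
        have : a * (a - 1) = 0 := by simp [ha]
        omega
      simp [ha, h0]
    · obtain ⟨b, hb⟩ := Nat.exists_eq_succ_of_ne_zero ha
      rw [hb]
      simp
      ring
  rw [hsum] at hS1
  omega

end Vale.Agent.Lib.P181
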