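import Mathlib

/-!
The Foulkes-Howe map in coordinates.  With `V = ℂ ^ n`, the space `Sym ^ b V` has as basis the
multisets of `b` letters from `Fin n`, so `Sym ^ a (Sym ^ b V)` is the space of homogeneous
polynomials of degree `a` in variables indexed by `Sym (Fin n) b`.
-/

namespace Vale.Agent.Lib.P181

open MvPolynomial

/-- The multiset of letters of a word of length `b`, that is the basis vector of `Sym ^ b (ℂ ^ n)`
given by the product of the letters of the word. -/
def symOf {n b : ℕ} (w : Fin b → Fin n) : Sym (Fin n) b :=
  ⟨Finset.univ.val.map w, by simp⟩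

/-- The element `∏ i, (v i 0 * ... * v i (b - 1))` of `Sym ^ a (Sym ^ b (ℂ ^ n))` for an array
`v` of letters with `a` rows of length `b`. -/
noncomputable def rowProd {n a b : ℕ} (v : Fin a → Fin b → Fin n) :
    homogeneousSubmodule (Sym (Fin n) b) ℂ a :=
  ⟨∏ i, X (symOf (v i)), by
    rw [mem_homogeneousSubmodule]
    have := IsHomogeneous.prod (Finset.univ : Finset (Fin a)) (fun i => (X (symOf (v i)) :
      MvPolynomial (Sym (Fin n) b) ℂ)) (fun _ => 1) (fun i _ => isHomogeneous_X ℂ _)
    simpa using this⟩

/-- The sum over all ways of permuting within each row of the product along the columns: the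
right side of the formula defining the Foulkes-Howe map, in `Sym ^ b (Sym ^ a (ℂ ^ n))`. -/
noncomputable def colSum {n a b : ℕ} (v : Fin a → Fin b → Fin n) :
    homogeneousSubmodule (Sym (Fin n) a) ℂ b :=
  ⟨∑ s : Fin a → Equiv.Perm (Fin b), ∏ j, X (symOf (fun i => v i (s i j))), by
    rw [mem_homogeneousSubmodule]
    apply IsHomogeneous.sum
    intro s _
    have := IsHomogeneous.prod (Finset.univ : Finset (Fin b)) (fun j => (X (symOf (fun i => v i (s i j))) :
      MvPolynomial (Sym (Fin n) a) ℂ)) (fun _ => 1) (fun i _ => isHomogeneous_X ℂ _)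
    simpa using this⟩

end Vale.Agent.Lib.P181
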