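import Vale.Agent.Lib.P181.Transfer

/-!
The Foulkes-Howe map: existence and injectivity.
-/

namespace Vale.Agent.Lib.P181

open MvPolynomial

set_option linter.unusedSectionVars false
set_option linter.unusedSimpArgs false

section points

variable {d a b : ℕ}

/-- Homogeneous coordinates of the `k`-th point. -/
def yh (y : Fin b → Fin d → ℂ) (k : Fin b) (x : Fin (d + 1)) : ℂ := Fin.cases 1 (y k) x

lemma prodForm_ofFn {σ : Type} [Fintype σ] [DecidableEq σ] {b : ℕ} (y : Fin b → σ → ℂ) :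
    prodForm (List.ofFn y) = ∏ k, lin (1 : ℂ) (y k) := by
  induction b with
  | zero => simp [prodForm]
  | succ b ih =>
    rw [List.ofFn_succ, Fin.prod_univ_succ]
    simp only [prodForm]
    rw [ih]

lemma lin_eq_sum (yv : Fin d → ℂ) :
    lin (1 : ℂ) yv = ∑ x : Fin (d + 1), monomial (eL x) (Fin.cases 1 yv x : ℂ) := by
  rw [Fin.sum_univ_succ]
  simp only [lin, eL, Fin.cases_zero, Fin.cases_succ, C_mul_X_eq_monomial]
  rfl

lemma prod_monomial {τ : Type} {ι : Type*} (s : Finset ι) (e : ι → τ →₀ ℕ) (α : ι → ℂ) :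
    ∏ k ∈ s, (monomial (e k) (α k) : MvPolynomial τ ℂ) =
      monomial (∑ k ∈ s, e k) (∏ k ∈ s, α k) := by
  classical
  induction s using Finset.induction_on with
  | empty => simp
  | insert a s ha ih =>
    rw [Finset.prod_insert ha, Finset.prod_insert ha, Finset.sum_insert ha, ih, monomial_mul]

lemma prodForm_expand (y : Fin b → Fin d → ℂ) :
    prodForm (List.ofFn y) =
      ∑ π : Fin b → Fin (d + 1), monomial (monoW π) (∏ k, yh y k (π k)) := by
  rw [prodForm_ofFn]
  simp_rw [lin_eq_sum]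
  rw [Finset.prod_univ_sum, Fintype.piFinset_univ]
  apply Finset.sum_congr rfl
  intro π _
  rw [prod_monomial]
  rfl

lemma coeff_prodForm_expand (y : Fin b → Fin d → ℂ) (m : Fin d →₀ ℕ) :
    coeff m (prodForm (List.ofFn y)) =
      ∑ π : Fin b → Fin (d + 1), if monoW π = m then ∏ k, yh y k (π k) else 0 := by
  rw [prodForm_expand, coeff_sum]
  apply Finset.sum_congr rfl
  intro π _
  rw [coeff_monomial]

/-- The permanent attached to a word and a tuple of points. -/
noncomputable def permV (y : Fin b → Fin d → ℂ) (w : Fin b → Fin (d + 1)) : ℂ :=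
  ∑ τ : Equiv.Perm (Fin b), ∏ k, yh y k (w (τ k))

lemma permV_eq (y : Fin b → Fin d → ℂ) (w : Fin b → Fin (d + 1)) :
    permV y w = (thetaS (symOf w) : ℂ) * coeff (monoW w) (prodForm (List.ofFn y)) := by
  have h0 : permV y w = ∑ τ : Equiv.Perm (Fin b), (fun π : Fin b → Fin (d + 1) => ∏ k, yh y k (π k)) (w ∘ τ) := rfl
  rw [h0, ← Finset.sum_fiberwise Finset.univ (fun τ : Equiv.Perm (Fin b) => w ∘ τ), coeff_prodForm_expand,
    Finset.mul_sum]
  apply Finset.sum_congr rfl
  intro π _
  have h1 : ∀ τ ∈ Finset.univ.filter (fun τ : Equiv.Perm (Fin b) => w ∘ τ = π),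
      (fun π : Fin b → Fin (d + 1) => ∏ k, yh y k (π k)) (w ∘ τ) = ∏ k, yh y k (π k) := by
    intro τ hτ
    rw [(Finset.mem_filter.1 hτ).2]
  rw [Finset.sum_congr rfl h1, Finset.sum_const, card_perm_fiber, nsmul_eq_mul]
  by_cases h : monoW π = monoW w
  · simp [h]
  · simp [h]

/-- The exponent vector with all entries one. -/
noncomputable def ones (b : ℕ) : Fin b →₀ ℕ := rowExp (id : Fin b → Fin b)

lemma ones_apply (b : ℕ) (k : Fin b) : ones b k = 1 := by
  simp [ones, rowExp, Finsupp.finsetSum_apply, Finsupp.single_apply]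

lemma coeff_ones_prod_sum (α : Fin b → Fin b → ℂ) :
    coeff (ones b) (∏ j, ∑ k, C (α j k) * X k) = ∑ π : Equiv.Perm (Fin b), ∏ j, α j (π j) := by
  classical
  have h1 : (∏ j, ∑ k, C (α j k) * X k : MvPolynomial (Fin b) ℂ) =
      ∑ f : Fin b → Fin b, monomial (rowExp f) (∏ j, α j (f j)) := by
    rw [Finset.prod_univ_sum, Fintype.piFinset_univ]
    apply Finset.sum_congr rfl
    intro f _
    simp_rw [C_mul_X_eq_monomial]
    rw [prod_monomial]
    rfl
  rw [h1, coeff_sum]
  simp_rw [coeff_monomial]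
  rw [← Finset.sum_filter]
  symm
  apply Finset.sum_bij (fun (π : Equiv.Perm (Fin b)) _ => (π : Fin b → Fin b))
  · intro π _
    rw [Finset.mem_filter]
    refine ⟨Finset.mem_univ _, ?_⟩
    unfold rowExp ones rowExp
    exact Equiv.sum_comp π (fun k => Finsupp.single (id k) 1)
  · intro π _ π' _ h
    exact DFunLike.coe_injective h
  · intro f hf
    have hf2 := (Finset.mem_filter.1 hf).2
    have hsurj : Function.Surjective f := by
      intro k
      have h2 : rowExp f k = 1 := by rw [hf2, ones_apply]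
      rw [rowExp_apply] at h2
      have : 0 < Fintype.card {i // f i = k} := by omega
      obtain ⟨⟨j, hj⟩⟩ := Fintype.card_pos_iff.1 this
      exact ⟨j, hj⟩
    have hbij : Function.Bijective f := ⟨Finite.injective_iff_surjective.2 hsurj, hsurj⟩
    exact ⟨Equiv.ofBijective f hbij, Finset.mem_univ _, rfl⟩
  · intro π _
    rfl

/-- The value of a monomial of letters at a point. -/
noncomputable def pw (c : Fin (d + 1) → ℂ) (t : Sym (Fin (d + 1)) a) : ℂ := (t.1.map c).prod

lemma pw_symOf (c : Fin (d + 1) → ℂ) (u : Fin a → Fin (d + 1)) :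
    pw c (symOf u) = ∏ i, c (u i) := by
  simp only [pw, symOf, Multiset.map_map, Function.comp_def]
  rfl

/-- Evaluation of the target polynomial at a sum of Veronese points. -/
noncomputable def Ey (y : Fin b → Fin d → ℂ) :
    MvPolynomial (Sym (Fin (d + 1)) a) ℂ →ₐ[ℂ] MvPolynomial (Fin b) ℂ :=
  aeval (fun t => ∑ k, C (pw (yh y k) t) * X k)

lemma permV_reindex (y : Fin b → Fin d → ℂ) (w : Fin b → Fin (d + 1)) (π : Equiv.Perm (Fin b)) :
    ∑ τ : Equiv.Perm (Fin b), ∏ j, yh y (π j) (w (τ j)) = permV y w := by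
  unfold permV
  apply Fintype.sum_equiv (Equiv.mulRight π⁻¹)
  intro τ
  rw [← Equiv.prod_comp π (fun k => yh y k (w (((Equiv.mulRight π⁻¹) τ) k)))]
  simp

lemma By_colSum (y : Fin b → Fin d → ℂ) (v : Fin a → Fin b → Fin (d + 1)) :
    coeff (ones b) (Ey y (colSum v : MvPolynomial (Sym (Fin (d + 1)) a) ℂ)) =
      (b.factorial : ℂ) * ∏ i, permV y (v i) := by
  have e0 : (colSum v : MvPolynomial (Sym (Fin (d + 1)) a) ℂ) =
      ∑ s : Fin a → Equiv.Perm (Fin b), ∏ j, X (symOf (fun i => v i (s i j))) := rfl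
  rw [e0, map_sum, coeff_sum]
  have h1 : ∀ s : Fin a → Equiv.Perm (Fin b),
      coeff (ones b) (Ey y (∏ j, X (symOf (fun i => v i (s i j))) :
        MvPolynomial (Sym (Fin (d + 1)) a) ℂ)) =
      ∑ π : Equiv.Perm (Fin b), ∏ i, ∏ j, yh y (π j) (v i (s i j)) := by
    intro s
    rw [map_prod]
    simp only [Ey, aeval_X]
    rw [coeff_ones_prod_sum]
    apply Finset.sum_congr rfl
    intro π _
    simp_rw [pw_symOf]
    rw [Finset.prod_comm]
  simp_rw [h1]
  rw [Finset.sum_comm]
  have h2 : ∀ π : Equiv.Perm (Fin b),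
      ∑ s : Fin a → Equiv.Perm (Fin b), ∏ i, ∏ j, yh y (π j) (v i (s i j)) =
        ∏ i, permV y (v i) := by
    intro π
    have h3 : (∏ i, ∑ τ : Equiv.Perm (Fin b), ∏ j, yh y (π j) (v i (τ j))) =
        ∑ s : Fin a → Equiv.Perm (Fin b), ∏ i, ∏ j, yh y (π j) (v i (s i j)) := by
      rw [Finset.prod_univ_sum, Fintype.piFinset_univ]
    rw [← h3]
    apply Finset.prod_congr rfl
    intro i _
    exact permV_reindex y (v i) π
  simp_rw [h2]
  rw [Finset.sum_const, Finset.card_univ, Fintype.card_perm, Fintype.card_fin, nsmul_eq_mul]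

/-- The algebra map attached to a tuple of points on the source. -/
noncomputable def Ay (y : Fin b → Fin d → ℂ) : MvPolynomial (Sym (Fin (d + 1)) b) ℂ →ₐ[ℂ] ℂ :=
  aeval (fun s => (thetaS s : ℂ) * coeff (mbar s) (prodForm (List.ofFn y)))

lemma Ay_rowProd (y : Fin b → Fin d → ℂ) (v : Fin a → Fin b → Fin (d + 1)) :
    Ay y (rowProd v : MvPolynomial (Sym (Fin (d + 1)) b) ℂ) = ∏ i, permV y (v i) := by
  have e0 : (rowProd v : MvPolynomial (Sym (Fin (d + 1)) b) ℂ) = ∏ i, X (symOf (v i)) := rfl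
  rw [e0, map_prod]
  apply Finset.prod_congr rfl
  intro i _
  simp only [Ay, aeval_X]
  rw [mbar_symOf, permV_eq]

lemma key_identity (y : Fin b → Fin d → ℂ) (v : Fin a → Fin b → Fin (d + 1)) :
    coeff (ones b) (Ey y (colSum v : MvPolynomial (Sym (Fin (d + 1)) a) ℂ)) =
      (b.factorial : ℂ) * Ay y (rowProd v : MvPolynomial (Sym (Fin (d + 1)) b) ℂ) := by
  rw [By_colSum, Ay_rowProd]

/-- The scaled renaming from the source into the coefficient ring. -/
noncomputable def Pol : MvPolynomial (Sym (Fin (d + 1)) b) ℂ →ₐ[ℂ] RR (Fin d) :=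
  aeval (fun s => C (thetaS s : ℂ) * X (mbar s))

lemma evF_Pol (T : MvPolynomial (Sym (Fin (d + 1)) b) ℂ) (F : MvPolynomial (Fin d) ℂ) :
    evF (Pol T) F = aeval (fun s => (thetaS s : ℂ) * coeff (mbar s) F) T := by
  induction T using MvPolynomial.induction_on with
  | C c => simp [Pol]
  | add p q hp hq => simp only [map_add, evF_add, hp, hq]
  | mul_X p s hp =>
    have e : Pol (X s : MvPolynomial (Sym (Fin (d + 1)) b) ℂ) = C (thetaS s : ℂ) * X (mbar s) := by
      simp only [Pol, aeval_X]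
    rw [map_mul, evF_mul, hp, e, evF_mul, evF_C, evF_X, map_mul, aeval_X]
    rfl

lemma rel_Pol (T : MvPolynomial (Sym (Fin (d + 1)) b) ℂ) (h : ∀ y, Ay y T = 0) :
    Rel b (Pol T) := by
  intro l hl
  subst hl
  have := h l.get
  simp only [Ay, List.ofFn_get] at this
  rw [evF_Pol]
  exact this

lemma Pol_eq_rename (T : MvPolynomial (Sym (Fin (d + 1)) b) ℂ) :
    Pol T = rename mbar (aeval (fun s => (C (thetaS s : ℂ) * X s : MvPolynomial (Sym (Fin (d + 1)) b) ℂ)) T) := by
  induction T using MvPolynomial.induction_on with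
  | C c => simp [Pol]
  | add p q hp hq => simp only [map_add, hp, hq]
  | mul_X p s hp =>
    have e : Pol (X s : MvPolynomial (Sym (Fin (d + 1)) b) ℂ) = C (thetaS s : ℂ) * X (mbar s) := by
      simp only [Pol, aeval_X]
    rw [map_mul, hp, e, map_mul, map_mul, aeval_X, map_mul, rename_C, rename_X]

lemma eq_zero_of_Pol (T : MvPolynomial (Sym (Fin (d + 1)) b) ℂ) (h : Pol T = 0) : T = 0 := by
  rw [Pol_eq_rename] at h
  have h1 := (rename_injective _ mbar_injective) (h.trans (map_zero _).symm)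
  have h2 : (aeval (fun s => (C (thetaS s : ℂ)⁻¹ * X s : MvPolynomial (Sym (Fin (d + 1)) b) ℂ))).comp
      (aeval (fun s => (C (thetaS s : ℂ) * X s : MvPolynomial (Sym (Fin (d + 1)) b) ℂ))) =
      AlgHom.id ℂ _ := by
    apply MvPolynomial.algHom_ext
    intro s
    simp only [AlgHom.comp_apply, aeval_X, map_mul, algHom_C, AlgHom.id_apply, algebraMap_eq]
    rw [← mul_assoc, ← C_mul, mul_inv_cancel₀ (thetaS_ne_zero s)]
    simp
  have h3 := DFunLike.congr_fun h2 T
  simp only [AlgHom.comp_apply, AlgHom.id_apply] at h3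
  rw [← h3, h1, map_zero]

theorem inj_core (ha : 1 ≤ a) (hab : 2 ^ (a - 1) * (a * (a - 1)) ≤ b)
    (T : MvPolynomial (Sym (Fin (d + 1)) b) ℂ) (hT : T.IsHomogeneous a) (h : ∀ y, Ay y T = 0) :
    T = 0 := by
  apply eq_zero_of_Pol
  apply eq_zero_of_rel ha hab _ (rel_Pol T h)
  intro d' hd'
  rw [Pol_eq_rename] at hd'
  obtain ⟨u, hu, hc⟩ := coeff_rename_ne_zero _ _ _ hd'
  have hT' : (aeval (fun s => (C (thetaS s : ℂ) * X s : MvPolynomial (Sym (Fin (d + 1)) b) ℂ)) T).IsHomogeneous
      (1 * a) := by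
    apply IsHomogeneous.aeval hT
    intro s
    exact isHomogeneous_C_mul_X _ _
  have h1 : Finsupp.degree u = a := by
    have := hT' hc
    rw [one_mul] at this
    rw [Finsupp.degree_eq_weight_one]
    exact this
  subst hu
  refine ⟨by rw [Finsupp.degree_mapDomain, h1], ?_⟩
  intro m hm
  have h2 := Finsupp.mapDomain_support hm
  obtain ⟨s, _, rfl⟩ := Finset.mem_image.1 h2
  exact degree_mbar_le s

end points

section final

variable {n a b : ℕ}

open Classical in
/-- The values of the map on the monomial basis. -/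
noncomputable def PsiF (n a b : ℕ) (e : Sym (Fin n) b →₀ ℕ) : MvPolynomial (Sym (Fin n) a) ℂ :=
  if h : ∃ v : Fin a → Fin b → Fin n, (rowProd v : MvPolynomial (Sym (Fin n) b) ℂ) = monomial e 1
  then (colSum (Classical.choose h) : MvPolynomial (Sym (Fin n) a) ℂ) else 0

/-- The linear map on the full polynomial ring extending the values on monomials. -/
noncomputable def Psi0 (n a b : ℕ) :
    MvPolynomial (Sym (Fin n) b) ℂ →ₗ[ℂ] MvPolynomial (Sym (Fin n) a) ℂ :=
  (basisMonomials (Sym (Fin n) b) ℂ).constr ℂ (PsiF n a b)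

lemma Psi0_monomial (e : Sym (Fin n) b →₀ ℕ) :
    Psi0 n a b (monomial e 1) = PsiF n a b e := by
  have := (basisMonomials (Sym (Fin n) b) ℂ).constr_basis ℂ (PsiF n a b) e
  simpa [Psi0, coe_basisMonomials] using this

lemma rowProd_eq_monomial (v : Fin a → Fin b → Fin n) :
    (rowProd v : MvPolynomial (Sym (Fin n) b) ℂ) =
      monomial (rowExp (fun i => symOf (v i))) 1 :=
  prod_X_eq_monomial _

lemma Psi0_rowProd (v : Fin a → Fin b → Fin n) :
    Psi0 n a b (rowProd v) = colSum v := by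
  rw [rowProd_eq_monomial, Psi0_monomial]
  unfold PsiF
  have h : ∃ v' : Fin a → Fin b → Fin n, (rowProd v' : MvPolynomial (Sym (Fin n) b) ℂ) =
      monomial (rowExp (fun i => symOf (v i))) 1 := ⟨v, rowProd_eq_monomial v⟩
  rw [dif_pos h]
  have h2 := (Classical.choose_spec h).trans (rowProd_eq_monomial v).symm
  rw [colSum_eq_of_rowProd_eq _ _ h2]

lemma PsiF_mem (e : Sym (Fin n) b →₀ ℕ) : PsiF n a b e ∈ homogeneousSubmodule (Sym (Fin n) a) ℂ b := by
  unfold PsiF
  split_ifs with h
  · exact (colSum (Classical.choose h)).2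
  · exact Submodule.zero_mem _

lemma eq_sum_smul_monomial {τ : Type} (T : MvPolynomial τ ℂ) :
    T = ∑ e ∈ T.support, (coeff e T) • monomial e (1 : ℂ) := by
  conv_lhs => rw [← support_sum_monomial_coeff T]
  apply Finset.sum_congr rfl
  intro e _
  rw [smul_monomial]
  simp

lemma Psi0_mem (T : MvPolynomial (Sym (Fin n) b) ℂ) :
    Psi0 n a b T ∈ homogeneousSubmodule (Sym (Fin n) a) ℂ b := by
  rw [eq_sum_smul_monomial T, map_sum]
  apply Submodule.sum_mem
  intro e _
  rw [map_smul, Psi0_monomial]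
  exact Submodule.smul_mem _ _ (PsiF_mem e)

lemma exists_array (e : Sym (Fin n) b →₀ ℕ) (he : Finsupp.degree e = a) :
    ∃ v : Fin a → Fin b → Fin n, (rowProd v : MvPolynomial (Sym (Fin n) b) ℂ) = monomial e 1 := by
  obtain ⟨f, hf⟩ := exists_prod_X e a he
  choose w hw using fun i => exists_word (f i)
  refine ⟨w, ?_⟩
  rw [← hf]
  show (∏ i, X (symOf (w i)) : MvPolynomial (Sym (Fin n) b) ℂ) = _
  simp_rw [hw]

theorem inj_Psi0 {d : ℕ} (ha : 1 ≤ a) (hab : 2 ^ (a - 1) * (a * (a - 1)) ≤ b)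
    (T : MvPolynomial (Sym (Fin (d + 1)) b) ℂ) (hT : T.IsHomogeneous a)
    (h : Psi0 (d + 1) a b T = 0) : T = 0 := by
  apply inj_core ha hab T hT
  intro y
  have hb : (b.factorial : ℂ) ≠ 0 := by
    exact_mod_cast Nat.factorial_ne_zero b
  have key : coeff (ones b) (Ey y (Psi0 (d + 1) a b T)) = (b.factorial : ℂ) * Ay y T := by
    conv_lhs => rw [eq_sum_smul_monomial T]
    conv_rhs => rw [eq_sum_smul_monomial T]
    rw [map_sum, map_sum, coeff_sum, map_sum, Finset.mul_sum]
    apply Finset.sum_congr rfl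
    intro e he
    rw [map_smul, map_smul, coeff_smul, map_smul, smul_eq_mul, smul_eq_mul]
    have he' : Finsupp.degree e = a := by
      rw [Finsupp.degree_eq_weight_one]
      exact hT (mem_support_iff.1 he)
    obtain ⟨v, hv⟩ := exists_array e he'
    rw [← hv, Psi0_rowProd, key_identity]
    ring
  rw [h, map_zero, coeff_zero] at key
  exact (mul_eq_zero.1 key.symm).resolve_left hb

/-- **Main theorem**, in terms of the auxiliary map. -/
theorem main_exists (a b n : ℕ) (ha : 1 ≤ a) (hb : 1 ≤ b)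
    (hab : 2 ^ (a - 1) * (a * (a - 1)) ≤ b) :
    ∃ Ψ : homogeneousSubmodule (Sym (Fin n) b) ℂ a →ₗ[ℂ] homogeneousSubmodule (Sym (Fin n) a) ℂ b,
      (∀ v : Fin a → Fin b → Fin n, Ψ (rowProd v) = colSum v) ∧ Function.Injective Ψ := by
  refine ⟨(Psi0 n a b).restrict (fun x _ => Psi0_mem x), ?_, ?_⟩
  · intro v
    apply Subtype.ext
    exact Psi0_rowProd v
  · rw [injective_iff_map_eq_zero]
    rintro ⟨T, hT⟩ h
    have hT' : T.IsHomogeneous a := (mem_homogeneousSubmodule _ _).1 hT
    have h' : Psi0 n a b T = 0 := congrArg Subtype.val h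
    apply Subtype.ext
    show T = 0
    cases n with
    | zero =>
      ext e
      rw [coeff_zero]
      by_contra he
      have hempty : IsEmpty (Sym (Fin 0) b) := by
        constructor
        intro s
        obtain ⟨w, _⟩ := exists_word s
        exact (w ⟨0, hb⟩).elim0
      have h0 : e = 0 := Subsingleton.elim _ _
      subst h0
      have := hT' he
      simp at this
      omega
    | succ d => exact inj_Psi0 ha hab T hT' h'

end final

end Vale.Agent.Lib.P181
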