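import Vale.Agent.Lib.P181.Core2
import Vale.Agent.Lib.P181.Final

/-!
The Foulkes-Howe map is injective for `a * (a - 1) ^ 2 ≤ 2 * b`: the passage from the kernel of the
map to relations in homogeneous coordinates.
-/

namespace Vale.Agent.Lib.P181

open MvPolynomial

set_option linter.unusedSectionVars false
set_option linter.unusedSimpArgs false
set_option linter.unusedVariables false

section words

variable {d a b : ℕ}

/-- The exponent vector of a letter. -/
noncomputable def eH (x : Fin (d + 1)) : Option (Fin d) →₀ ℕ :=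
  Finsupp.single (finSuccEquiv d x) 1

/-- The exponent vector of a word. -/
noncomputable def monoH (w : Fin b → Fin (d + 1)) : Option (Fin d) →₀ ℕ := ∑ k, eH (w k)

/-- The exponent vector of a basis element of `Sym ^ b`. -/
noncomputable def mbarH (s : Sym (Fin (d + 1)) b) : Option (Fin d) →₀ ℕ := (s.1.map eH).sum

lemma mbarH_symOf (w : Fin b → Fin (d + 1)) : mbarH (symOf w) = monoH w := by
  simp only [mbarH, symOf, monoH, Multiset.map_map, Function.comp_def]
  rfl

lemma monoH_comp_perm (w : Fin b → Fin (d + 1)) (τ : Equiv.Perm (Fin b)) :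
    monoH (w ∘ τ) = monoH w := by
  simp only [monoH, Function.comp]
  exact Equiv.sum_comp τ (fun k => eH (w k))

lemma monoH_apply (w : Fin b → Fin (d + 1)) (x : Fin (d + 1)) :
    monoH w (finSuccEquiv d x) = Fintype.card {k // w k = x} := by
  unfold monoH
  rw [Finsupp.finsetSum_apply, Fintype.card_subtype]
  simp only [eH, Finsupp.single_apply, EmbeddingLike.apply_eq_iff_eq]
  rw [Finset.card_eq_sum_ones, Finset.sum_filter]

lemma exists_perm_of_monoH_eq {w w' : Fin b → Fin (d + 1)} (h : monoH w = monoH w') :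
    ∃ τ : Equiv.Perm (Fin b), w = w' ∘ τ := by
  apply exists_perm_of_card_fiber
  intro x
  rw [← monoH_apply, ← monoH_apply, h]

lemma mbarH_injective : Function.Injective (mbarH : Sym (Fin (d + 1)) b → Option (Fin d) →₀ ℕ) := by
  intro s s' h
  obtain ⟨w, rfl⟩ := exists_word s
  obtain ⟨w', rfl⟩ := exists_word s'
  rw [mbarH_symOf, mbarH_symOf] at h
  exact (symOf_eq_iff _ _).2 (exists_perm_of_monoH_eq h)

lemma degree_mbarH (s : Sym (Fin (d + 1)) b) : Finsupp.degree (mbarH s) = b := by
  obtain ⟨w, rfl⟩ := exists_word s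
  rw [mbarH_symOf]
  unfold monoH
  rw [map_sum]
  simp [eH]

lemma card_perm_fiberH (w π : Fin b → Fin (d + 1)) :
    (Finset.univ.filter (fun τ : Equiv.Perm (Fin b) => w ∘ τ = π)).card =
      if monoH π = monoH w then thetaS (symOf w) else 0 := by
  by_cases h : monoH π = monoH w
  · rw [if_pos h]
    obtain ⟨τ₀, rfl⟩ := exists_perm_of_monoH_eq h
    rw [← card_stab, ← Fintype.card_subtype]
    apply Fintype.card_congr
    apply Equiv.subtypeEquiv (Equiv.mulRight τ₀⁻¹)
    intro τ
    simp only [Equiv.coe_mulRight]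
    constructor
    · intro hτ
      funext k
      have := congrFun hτ (τ₀⁻¹ k)
      simpa using this
    · intro hτ
      funext k
      have := congrFun hτ (τ₀ k)
      simpa using this
  · rw [if_neg h, Finset.card_eq_zero, Finset.filter_eq_empty_iff]
    intro τ _ hτ
    apply h
    rw [← hτ, monoH_comp_perm]

end words

section points

variable {d a b : ℕ}

lemma prodL_ofFn {σ : Type} [Fintype σ] [DecidableEq σ] {b : ℕ} (y : Fin b → σ → ℂ) :
    prodL (List.ofFn y) = ∏ k, lf (y k) := by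
  induction b with
  | zero => simp
  | succ b ih =>
    rw [List.ofFn_succ, Fin.prod_univ_succ, prodL_cons, ih]

lemma lf_eq_sumH (c : Option (Fin d) → ℂ) :
    lf c = ∑ x : Fin (d + 1), monomial (eH x) (c (finSuccEquiv d x)) := by
  unfold lf
  rw [← Equiv.sum_comp (finSuccEquiv d)]
  apply Finset.sum_congr rfl
  intro x _
  rw [C_mul_X_eq_monomial]
  rfl

lemma prodL_expand (y : Fin b → Option (Fin d) → ℂ) :
    prodL (List.ofFn y) =
      ∑ π : Fin b → Fin (d + 1), monomial (monoH π) (∏ k, y k (finSuccEquiv d (π k))) := by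
  rw [prodL_ofFn]
  simp_rw [lf_eq_sumH]
  rw [Finset.prod_univ_sum, Fintype.piFinset_univ]
  apply Finset.sum_congr rfl
  intro π _
  rw [prod_monomial]
  rfl

lemma coeff_prodL_expand (y : Fin b → Option (Fin d) → ℂ) (m : Option (Fin d) →₀ ℕ) :
    coeff m (prodL (List.ofFn y)) =
      ∑ π : Fin b → Fin (d + 1),
        if monoH π = m then ∏ k, y k (finSuccEquiv d (π k)) else 0 := by
  rw [prodL_expand, coeff_sum]
  apply Finset.sum_congr rfl
  intro π _
  rw [coeff_monomial]

/-- The permanent attached to a word and a tuple of linear forms. -/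
noncomputable def permH (y : Fin b → Option (Fin d) → ℂ) (w : Fin b → Fin (d + 1)) : ℂ :=
  ∑ τ : Equiv.Perm (Fin b), ∏ k, y k (finSuccEquiv d (w (τ k)))

lemma permH_eq (y : Fin b → Option (Fin d) → ℂ) (w : Fin b → Fin (d + 1)) :
    permH y w = (thetaS (symOf w) : ℂ) * coeff (monoH w) (prodL (List.ofFn y)) := by
  have h0 : permH y w = ∑ τ : Equiv.Perm (Fin b),
      (fun π : Fin b → Fin (d + 1) => ∏ k, y k (finSuccEquiv d (π k))) (w ∘ τ) := rfl
  rw [h0, ← Finset.sum_fiberwise Finset.univ (fun τ : Equiv.Perm (Fin b) => w ∘ τ),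
    coeff_prodL_expand, Finset.mul_sum]
  apply Finset.sum_congr rfl
  intro π _
  have h1 : ∀ τ ∈ Finset.univ.filter (fun τ : Equiv.Perm (Fin b) => w ∘ τ = π),
      (fun π : Fin b → Fin (d + 1) => ∏ k, y k (finSuccEquiv d (π k))) (w ∘ τ) =
        ∏ k, y k (finSuccEquiv d (π k)) := by
    intro τ hτ
    rw [(Finset.mem_filter.1 hτ).2]
  rw [Finset.sum_congr rfl h1, Finset.sum_const, card_perm_fiberH, nsmul_eq_mul]
  by_cases h : monoH π = monoH w
  · simp [h]
  · simp [h]

/-- The point with coordinates `y` in the letters of `Fin (d + 1)`. -/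
noncomputable def yhH (y : Fin b → Option (Fin d) → ℂ) (k : Fin b) (x : Fin (d + 1)) : ℂ :=
  y k (finSuccEquiv d x)

/-- Evaluation of the target polynomial at a sum of Veronese points. -/
noncomputable def EyH (y : Fin b → Option (Fin d) → ℂ) :
    MvPolynomial (Sym (Fin (d + 1)) a) ℂ →ₐ[ℂ] MvPolynomial (Fin b) ℂ :=
  aeval (fun t => ∑ k, C (pw (yhH y k) t) * X k)

lemma permH_reindex (y : Fin b → Option (Fin d) → ℂ) (w : Fin b → Fin (d + 1))
    (π : Equiv.Perm (Fin b)) :
    ∑ τ : Equiv.Perm (Fin b), ∏ j, yhH y (π j) (w (τ j)) = permH y w := by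
  unfold permH yhH
  apply Fintype.sum_equiv (Equiv.mulRight π⁻¹)
  intro τ
  rw [← Equiv.prod_comp π (fun k => y k (finSuccEquiv d (w (((Equiv.mulRight π⁻¹) τ) k))))]
  simp

lemma ByH_colSum (y : Fin b → Option (Fin d) → ℂ) (v : Fin a → Fin b → Fin (d + 1)) :
    coeff (ones b) (EyH y (colSum v : MvPolynomial (Sym (Fin (d + 1)) a) ℂ)) =
      (b.factorial : ℂ) * ∏ i, permH y (v i) := by
  have e0 : (colSum v : MvPolynomial (Sym (Fin (d + 1)) a) ℂ) =
      ∑ s : Fin a → Equiv.Perm (Fin b), ∏ j, X (symOf (fun i => v i (s i j))) := rfl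
  rw [e0, map_sum, coeff_sum]
  have h1 : ∀ s : Fin a → Equiv.Perm (Fin b),
      coeff (ones b) (EyH y (∏ j, X (symOf (fun i => v i (s i j))) :
        MvPolynomial (Sym (Fin (d + 1)) a) ℂ)) =
      ∑ π : Equiv.Perm (Fin b), ∏ i, ∏ j, yhH y (π j) (v i (s i j)) := by
    intro s
    rw [map_prod]
    simp only [EyH, aeval_X]
    rw [coeff_ones_prod_sum]
    apply Finset.sum_congr rfl
    intro π _
    simp_rw [pw_symOf]
    rw [Finset.prod_comm]
  simp_rw [h1]
  rw [Finset.sum_comm]
  have h2 : ∀ π : Equiv.Perm (Fin b),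
      ∑ s : Fin a → Equiv.Perm (Fin b), ∏ i, ∏ j, yhH y (π j) (v i (s i j)) =
        ∏ i, permH y (v i) := by
    intro π
    have h3 : (∏ i, ∑ τ : Equiv.Perm (Fin b), ∏ j, yhH y (π j) (v i (τ j))) =
        ∑ s : Fin a → Equiv.Perm (Fin b), ∏ i, ∏ j, yhH y (π j) (v i (s i j)) := by
      rw [Finset.prod_univ_sum, Fintype.piFinset_univ]
    rw [← h3]
    apply Finset.prod_congr rfl
    intro i _
    exact permH_reindex y (v i) π
  simp_rw [h2]
  rw [Finset.sum_const, Finset.card_univ, Fintype.card_perm, Fintype.card_fin, nsmul_eq_mul]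

/-- The algebra map attached to a tuple of linear forms on the source. -/
noncomputable def AyH (y : Fin b → Option (Fin d) → ℂ) :
    MvPolynomial (Sym (Fin (d + 1)) b) ℂ →ₐ[ℂ] ℂ :=
  aeval (fun s => (thetaS s : ℂ) * coeff (mbarH s) (prodL (List.ofFn y)))

lemma AyH_rowProd (y : Fin b → Option (Fin d) → ℂ) (v : Fin a → Fin b → Fin (d + 1)) :
    AyH y (rowProd v : MvPolynomial (Sym (Fin (d + 1)) b) ℂ) = ∏ i, permH y (v i) := by
  have e0 : (rowProd v : MvPolynomial (Sym (Fin (d + 1)) b) ℂ) = ∏ i, X (symOf (v i)) := rfl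
  rw [e0, map_prod]
  apply Finset.prod_congr rfl
  intro i _
  simp only [AyH, aeval_X]
  rw [mbarH_symOf, permH_eq]

lemma key_identityH (y : Fin b → Option (Fin d) → ℂ) (v : Fin a → Fin b → Fin (d + 1)) :
    coeff (ones b) (EyH y (colSum v : MvPolynomial (Sym (Fin (d + 1)) a) ℂ)) =
      (b.factorial : ℂ) * AyH y (rowProd v : MvPolynomial (Sym (Fin (d + 1)) b) ℂ) := by
  rw [ByH_colSum, AyH_rowProd]

/-- The scaled renaming from the source into the coefficient ring. -/
noncomputable def PolH : MvPolynomial (Sym (Fin (d + 1)) b) ℂ →ₐ[ℂ] RR (Option (Fin d)) :=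
  aeval (fun s => C (thetaS s : ℂ) * X (mbarH s))

lemma evF_PolH (T : MvPolynomial (Sym (Fin (d + 1)) b) ℂ) (F : MvPolynomial (Option (Fin d)) ℂ) :
    evF (PolH T) F = aeval (fun s => (thetaS s : ℂ) * coeff (mbarH s) F) T := by
  induction T using MvPolynomial.induction_on with
  | C c => simp [PolH]
  | add p q hp hq => simp only [map_add, evF_add, hp, hq]
  | mul_X p s hp =>
    have e : PolH (X s : MvPolynomial (Sym (Fin (d + 1)) b) ℂ) = C (thetaS s : ℂ) * X (mbarH s) := by
      simp only [PolH, aeval_X]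
    rw [map_mul, evF_mul, hp, e, evF_mul, evF_C, evF_X, map_mul, aeval_X]
    rfl

lemma rel_PolH (T : MvPolynomial (Sym (Fin (d + 1)) b) ℂ) (h : ∀ y, AyH y T = 0) :
    RelH b (PolH T) := by
  intro l hl
  subst hl
  have := h l.get
  simp only [AyH, List.ofFn_get] at this
  rw [evF_PolH]
  exact this

lemma PolH_eq_rename (T : MvPolynomial (Sym (Fin (d + 1)) b) ℂ) :
    PolH T = rename mbarH
      (aeval (fun s => (C (thetaS s : ℂ) * X s : MvPolynomial (Sym (Fin (d + 1)) b) ℂ)) T) := by
  induction T using MvPolynomial.induction_on with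
  | C c => simp [PolH]
  | add p q hp hq => simp only [map_add, hp, hq]
  | mul_X p s hp =>
    have e : PolH (X s : MvPolynomial (Sym (Fin (d + 1)) b) ℂ) = C (thetaS s : ℂ) * X (mbarH s) := by
      simp only [PolH, aeval_X]
    rw [map_mul, hp, e, map_mul, map_mul, aeval_X, map_mul, rename_C, rename_X]

lemma eq_zero_of_PolH (T : MvPolynomial (Sym (Fin (d + 1)) b) ℂ) (h : PolH T = 0) : T = 0 := by
  rw [PolH_eq_rename] at h
  have h1 := (rename_injective _ mbarH_injective) (h.trans (map_zero _).symm)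
  have h2 : (aeval (fun s => (C (thetaS s : ℂ)⁻¹ * X s : MvPolynomial (Sym (Fin (d + 1)) b) ℂ))).comp
      (aeval (fun s => (C (thetaS s : ℂ) * X s : MvPolynomial (Sym (Fin (d + 1)) b) ℂ))) =
      AlgHom.id ℂ _ := by
    apply MvPolynomial.algHom_ext
    intro s
    simp only [AlgHom.comp_apply, aeval_X, map_mul, algHom_C, AlgHom.id_apply, algebraMap_eq]
    rw [← mul_assoc, ← C_mul, mul_inv_cancel₀ (thetaS_ne_zero s)]
    simp
  have h3 := DFunLike.congr_fun h2 T
  simp only [AlgHom.comp_apply, AlgHom.id_apply] at h3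
  rw [← h3, h1, map_zero]

theorem inj_coreH (hab : a * (a - 1) ^ 2 ≤ 2 * b)
    (T : MvPolynomial (Sym (Fin (d + 1)) b) ℂ) (hT : T.IsHomogeneous a) (h : ∀ y, AyH y T = 0) :
    T = 0 := by
  apply eq_zero_of_PolH
  apply core_main _ (rel_PolH T h) hab
  intro d' hd'
  rw [PolH_eq_rename] at hd'
  obtain ⟨u, hu, hc⟩ := coeff_rename_ne_zero _ _ _ hd'
  have hT' : (aeval (fun s => (C (thetaS s : ℂ) * X s : MvPolynomial (Sym (Fin (d + 1)) b) ℂ)) T).IsHomogeneous
      (1 * a) := by
    apply IsHomogeneous.aeval hT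
    intro s
    exact isHomogeneous_C_mul_X _ _
  have h1 : Finsupp.degree u = a := by
    have := hT' hc
    rw [one_mul] at this
    rw [Finsupp.degree_eq_weight_one]
    exact this
  subst hu
  refine ⟨by rw [Finsupp.degree_mapDomain, h1], ?_⟩
  intro m hm
  have h2 := Finsupp.mapDomain_support hm
  obtain ⟨s, _, rfl⟩ := Finset.mem_image.1 h2
  exact degree_mbarH s

end points

section final

variable {n a b : ℕ}

theorem inj_Psi0H {d : ℕ} (hab : a * (a - 1) ^ 2 ≤ 2 * b)
    (T : MvPolynomial (Sym (Fin (d + 1)) b) ℂ) (hT : T.IsHomogeneous a)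
    (h : Psi0 (d + 1) a b T = 0) : T = 0 := by
  apply inj_coreH hab T hT
  intro y
  have hb : (b.factorial : ℂ) ≠ 0 := by
    exact_mod_cast Nat.factorial_ne_zero b
  have key : coeff (ones b) (EyH y (Psi0 (d + 1) a b T)) = (b.factorial : ℂ) * AyH y T := by
    conv_lhs => rw [eq_sum_smul_monomial T]
    conv_rhs => rw [eq_sum_smul_monomial T]
    rw [map_sum, map_sum, coeff_sum, map_sum, Finset.mul_sum]
    apply Finset.sum_congr rfl
    intro e he
    rw [map_smul, map_smul, coeff_smul, map_smul, smul_eq_mul, smul_eq_mul]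
    have he' : Finsupp.degree e = a := by
      rw [Finsupp.degree_eq_weight_one]
      exact hT (mem_support_iff.1 he)
    obtain ⟨v, hv⟩ := exists_array e he'
    rw [← hv, Psi0_rowProd, key_identityH]
    ring
  rw [h, map_zero, coeff_zero] at key
  exact (mul_eq_zero.1 key.symm).resolve_left hb

/-- **Main theorem.** For `a * (a - 1) ^ 2 ≤ 2 * b` the Foulkes-Howe map is injective. -/
theorem main_existsH (a b n : ℕ) (ha : 1 ≤ a) (hb : 1 ≤ b)
    (hab : a * (a - 1) ^ 2 ≤ 2 * b) :
    ∃ Ψ : homogeneousSubmodule (Sym (Fin n) b) ℂ a →ₗ[ℂ] homogeneousSubmodule (Sym (Fin n) a) ℂ b,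
      (∀ v : Fin a → Fin b → Fin n, Ψ (rowProd v) = colSum v) ∧ Function.Injective Ψ := by
  refine ⟨(Psi0 n a b).restrict (fun x _ => Psi0_mem x), ?_, ?_⟩
  · intro v
    apply Subtype.ext
    exact Psi0_rowProd v
  · rw [injective_iff_map_eq_zero]
    rintro ⟨T, hT⟩ h
    have hT' : T.IsHomogeneous a := (mem_homogeneousSubmodule _ _).1 hT
    have h' : Psi0 n a b T = 0 := congrArg Subtype.val h
    apply Subtype.ext
    show T = 0
    cases n with
    | zero =>
      ext e
      rw [coeff_zero]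
      by_contra he
      have hempty : IsEmpty (Sym (Fin 0) b) := by
        constructor
        intro s
        obtain ⟨w, _⟩ := exists_word s
        exact (w ⟨0, hb⟩).elim0
      have h0 : e = 0 := Subsingleton.elim _ _
      subst h0
      have := hT' he
      simp at this
      omega
    | succ d => exact inj_Psi0H hab T hT' h'

end final

end Vale.Agent.Lib.P181
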