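import Vale.Agent.Lib.P181.KeyL

/-!
The general vanishing lemma for multilinear forms: a multilinear form which vanishes on
`(λ ^ e₁ F₁, ..., λ ^ eₐ Fₐ)` for all linear forms `λ` vanishes, once the slot degrees are large
compared to the partial sums of the exponents.
-/

namespace Vale.Agent.Lib.P181

open MvPolynomial

set_option linter.unusedSimpArgs false
set_option linter.unusedVariables false
set_option linter.unusedSectionVars false

variable {α : Type} [Fintype α] [DecidableEq α]

/-- The linear form with coefficient vector `c`. -/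
noncomputable def lf (c : α → ℂ) : MvPolynomial α ℂ := ∑ j, C (c j) * X j

/-- Evaluating the iterated operator at a point: the transpose of multiplication by `lf c`. -/
lemma eval_opE_pow (c : α → ℂ) (ψ : MvPolynomial α ℂ →ₗ[ℂ] MvPolynomial α ℂ) :
    ∀ (n : ℕ) (G : MvPolynomial α ℂ),
      eval c ((opE ^ n) ψ G) = eval c (ψ ((lf c) ^ n * G)) := by
  intro n
  induction n with
  | zero =>
    intro G
    simp
  | succ n ih =>
    intro G
    rw [pow_succ', Module.End.mul_apply, opE_apply, map_sum]
    have e : (lf c) ^ (n + 1) * G = ∑ j, C (c j) * ((lf c) ^ n * (X j * G)) := by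
      rw [pow_succ, mul_assoc, lf, Finset.sum_mul, Finset.mul_sum]
      apply Finset.sum_congr rfl
      intro j _
      ring
    rw [e, map_sum, map_sum]
    apply Finset.sum_congr rfl
    intro j _
    rw [map_mul, eval_X, ih, ← smul_eq_C_mul, map_smul, smul_eval]

/-- A polynomial vanishing at all points with non-zero coordinate `o` vanishes. -/
lemma eq_zero_of_eval (o : α) {p : MvPolynomial α ℂ} (h : ∀ c : α → ℂ, c o ≠ 0 → eval c p = 0) :
    p = 0 := by
  have h1 : (X o : MvPolynomial α ℂ) * p = 0 := by
    apply MvPolynomial.funext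
    intro c
    rw [map_mul, eval_X, map_zero]
    by_cases hc : c o = 0
    · rw [hc, zero_mul]
    · rw [h c hc, mul_zero]
  exact (mul_eq_zero.1 h1).resolve_left (X_ne_zero o)

/-- The form in the first slot, with the other slots fixed. -/
noncomputable def slot {a : ℕ}
    (T : MultilinearMap ℂ (fun _ : Fin (a + 1) => MvPolynomial α ℂ) (MvPolynomial α ℂ))
    (G' : Fin a → MvPolynomial α ℂ) : MvPolynomial α ℂ →ₗ[ℂ] MvPolynomial α ℂ where
  toFun G := T (Fin.cons G G')
  map_add' G₁ G₂ := T.cons_add G' G₁ G₂
  map_smul' c G := T.cons_smul G' c G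

lemma slot_apply {a : ℕ}
    (T : MultilinearMap ℂ (fun _ : Fin (a + 1) => MvPolynomial α ℂ) (MvPolynomial α ℂ))
    (G' : Fin a → MvPolynomial α ℂ) (G : MvPolynomial α ℂ) :
    slot T G' G = T (Fin.cons G G') := rfl

/-- The operator applied in the first slot, as a multilinear form in the remaining slots. -/
noncomputable def Ecomp {a : ℕ}
    (T : MultilinearMap ℂ (fun _ : Fin (a + 1) => MvPolynomial α ℂ) (MvPolynomial α ℂ)) :
    ℕ → MvPolynomial α ℂ → MultilinearMap ℂ (fun _ : Fin a => MvPolynomial α ℂ) (MvPolynomial α ℂ)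
  | 0, F => T.curryLeft F
  | n + 1, F => ∑ j, (X j : MvPolynomial α ℂ) • Ecomp T n (X j * F)

lemma Ecomp_apply {a : ℕ}
    (T : MultilinearMap ℂ (fun _ : Fin (a + 1) => MvPolynomial α ℂ) (MvPolynomial α ℂ))
    (G' : Fin a → MvPolynomial α ℂ) :
    ∀ (n : ℕ) (F : MvPolynomial α ℂ), Ecomp T n F G' = (opE ^ n) (slot T G') F := by
  intro n
  induction n with
  | zero =>
    intro F
    simp [Ecomp, slot_apply]
  | succ n ih =>
    intro F
    rw [pow_succ', Module.End.mul_apply, opE_apply]
    simp only [Ecomp, _root_.sum_apply, _root_.smul_apply, smul_eq_mul, ih]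

/-- **The general vanishing lemma.** -/
theorem genC (o : α) : ∀ (a : ℕ)
    (T : MultilinearMap ℂ (fun _ : Fin a => MvPolynomial α ℂ) (MvPolynomial α ℂ)) (K : ℕ)
    (r e : Fin a → ℕ),
    (∀ G : Fin a → MvPolynomial α ℂ, (∀ i, (G i).IsHomogeneous (r i + e i)) →
      (T G).IsHomogeneous K) →
    (∀ j, K + ∑ i, (if i ≤ j then e i else 0) ≤ r j + e j) →
    (∀ c : α → ℂ, c o ≠ 0 → ∀ F : Fin a → MvPolynomial α ℂ, (∀ i, (F i).IsHomogeneous (r i)) →
      eval c (T (fun i => (lf c) ^ (e i) * F i)) = 0) →
    ∀ G : Fin a → MvPolynomial α ℂ, (∀ i, (G i).IsHomogeneous (r i + e i)) → T G = 0 := by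
  intro a
  induction a with
  | zero =>
    intro T K r e _ _ hZ G _
    apply eq_zero_of_eval o
    intro c hc
    have := hZ c hc G (fun i => i.elim0)
    have e1 : (fun i : Fin 0 => (lf c) ^ (e i) * G i) = G := funext (fun i => i.elim0)
    rwa [e1] at this
  | succ a ih =>
    intro T K r e hT hS hZ G hG
    -- the form in the first slot, for fixed other slots
    have hBd : ∀ G' : Fin a → MvPolynomial α ℂ,
        (∀ i, (G' i).IsHomogeneous (r i.succ + e i.succ)) →
        Bd K (r 0 + e 0) (slot T G') := by
      intro G' hG' G₀ hG₀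
      rw [slot_apply]
      apply hT
      intro i
      induction i using Fin.cases with
      | zero => simpa using hG₀
      | succ i => simpa using hG' i
    have hS0 : K ≤ r 0 := by
      have := hS 0
      rw [Fin.sum_univ_succ] at this
      simp only [Fin.zero_le, if_true, Fin.succ_ne_zero, Fin.le_zero_iff, if_false,
        Finset.sum_const_zero, add_zero] at this
      omega
    have hvan : ∀ (F₀ : MvPolynomial α ℂ), F₀.IsHomogeneous (r 0) →
        ∀ G' : Fin a → MvPolynomial α ℂ, (∀ i, (G' i).IsHomogeneous (r i.succ + e i.succ)) →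
        Ecomp T (e 0) F₀ G' = 0 := by
      intro F₀ hF₀
      apply ih (Ecomp T (e 0) F₀) (K + e 0) (fun i => r i.succ) (fun i => e i.succ)
      · intro G' hG'
        rw [Ecomp_apply]
        exact Bd_opE_pow (e 0) (r 0) (hBd G' hG') F₀ hF₀
      · intro j
        have := hS j.succ
        rw [Fin.sum_univ_succ] at this
        simp only [Fin.zero_le, if_true, Fin.succ_le_succ_iff] at this
        omega
      · intro c hc F' hF'
        rw [Ecomp_apply, eval_opE_pow, slot_apply]
        have h1 := hZ c hc (Fin.cons F₀ F') (by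
          intro i
          induction i using Fin.cases with
          | zero => simpa using hF₀
          | succ i => simpa using hF' i)
        have e1 : (fun i : Fin (a + 1) => (lf c) ^ (e i) * (Fin.cons F₀ F' : Fin (a + 1) → MvPolynomial α ℂ) i) =
            Fin.cons ((lf c) ^ (e 0) * F₀) (fun i : Fin a => (lf c) ^ (e i.succ) * F' i) := by
          funext i
          induction i using Fin.cases with
          | zero => simp
          | succ i => simp
        rw [e1] at h1
        exact h1
    have hfin := keyL K (e 0) (r 0) (hBd (Fin.tail G) (fun i => hG i.succ)) hS0 (by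
      intro F₀ hF₀
      rw [← Ecomp_apply]
      rw [hvan F₀ hF₀ (Fin.tail G) (fun i => hG i.succ)]) (G 0) (hG 0)
    rw [slot_apply, Fin.cons_self_tail] at hfin
    exact hfin

end Vale.Agent.Lib.P181
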