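import Vale.Agent.Lib.P181.Struct

/-!
Consequences of the structure lemma: vanishing statements, invariance, and the fact that a
polynomial of positive level cannot be invariant.
-/

namespace Vale.Agent.Lib.P181

open MvPolynomial

variable {σ : Type} [Fintype σ]

/-- The weight of a monomial in the coefficient variables: the sum of the degrees of its parts. -/
noncomputable def wt (d : (σ →₀ ℕ) →₀ ℕ) : ℕ := Finsupp.weight (fun m : σ →₀ ℕ => Finsupp.degree m) d

omit [Fintype σ] in
lemma wt_add (d d' : (σ →₀ ℕ) →₀ ℕ) : wt (d + d') = wt d + wt d' := by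
  simp [wt]

omit [Fintype σ] in
lemma wt_single (m : σ →₀ ℕ) (k : ℕ) : wt (Finsupp.single m k) = k * Finsupp.degree m := by
  simp [wt, Finsupp.weight_single]

omit [Fintype σ] in
@[simp] lemma wt_zero : wt (0 : (σ →₀ ℕ) →₀ ℕ) = 0 := by simp [wt]

/-- All monomials of `P` have level `k`. -/
def Lv (P : RR σ) (k : ℕ) : Prop := ∀ d, coeff d P ≠ 0 → wt d = k

omit [Fintype σ] in
lemma degree_le_wt [DecidableEq σ] (d : (σ →₀ ℕ) →₀ ℕ) (m : σ →₀ ℕ) (hm : m ∈ d.support) :
    Finsupp.degree m ≤ wt d := by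
  have h1 : d = (d - Finsupp.single m 1) + Finsupp.single m 1 := by
    have : Finsupp.single m 1 ≤ d := by
      rw [Finsupp.single_le_iff]
      exact Nat.one_le_iff_ne_zero.2 (Finsupp.mem_support_iff.1 hm)
    exact (tsub_add_cancel_of_le this).symm
  rw [h1, wt_add, wt_single]
  omega

omit [Fintype σ] in
lemma coeff_pderiv' [DecidableEq σ] (P : RR σ) (m : σ →₀ ℕ) (d : (σ →₀ ℕ) →₀ ℕ) :
    coeff d (pderiv m P) = coeff (d + Finsupp.single m 1) P * ((d m : ℂ) + 1) := by
  rw [coeff_pderiv]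

omit [Fintype σ] in
lemma coeff_pderiv_ne [DecidableEq σ] {P : RR σ} {m : σ →₀ ℕ} {d : (σ →₀ ℕ) →₀ ℕ}
    (h : coeff d (pderiv m P) ≠ 0) : coeff (d + Finsupp.single m 1) P ≠ 0 := by
  rw [coeff_pderiv'] at h
  exact left_ne_zero_of_mul h

omit [Fintype σ] in
lemma coeff_pderiv_ne' [DecidableEq σ] {P : RR σ} {m : σ →₀ ℕ} {d : (σ →₀ ℕ) →₀ ℕ}
    (h : coeff (d + Finsupp.single m 1) P ≠ 0) : coeff d (pderiv m P) ≠ 0 := by
  rw [coeff_pderiv']
  apply mul_ne_zero h
  exact Nat.cast_add_one_ne_zero (d m)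

omit [Fintype σ] in
lemma Hm.pderiv [DecidableEq σ] {P : RR σ} {a : ℕ} (h : Hm P a) (m : σ →₀ ℕ) :
    Hm (pderiv m P) (a - 1) := by
  intro d hd
  have := h _ (coeff_pderiv_ne hd)
  rw [map_add, Finsupp.degree_single] at this
  omega

omit [Fintype σ] in
lemma Lv.pderiv [DecidableEq σ] {P : RR σ} {k : ℕ} (h : Lv P k) (m : σ →₀ ℕ) :
    Lv (pderiv m P) (k - Finsupp.degree m) := by
  intro d hd
  have := h _ (coeff_pderiv_ne hd)
  rw [wt_add, wt_single] at this
  omega

omit [Fintype σ] in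
lemma evF_congr {P : RR σ} (f : MvPolynomial σ ℂ) (x : (σ →₀ ℕ) → ℂ)
    (h : ∀ m ∈ P.vars, coeff m f = x m) : evF P f = eval x P := by
  unfold evF
  rw [aeval_eq_eval]
  have : eval (fun m => coeff m f) P = eval₂Hom (RingHom.id ℂ) (fun m => coeff m f) P := rfl
  rw [this]
  have : eval x P = eval₂Hom (RingHom.id ℂ) x P := rfl
  rw [this]
  apply eval₂Hom_congr' rfl _ rfl
  intro m hm _
  exact h m hm

/-- `X ^ r` divides the polynomial obtained by evaluating along the line. -/
lemma Nil.dvd {D r : ℕ} {P : RR σ} (h : Nil D r P) (y : σ → ℂ) (f : MvPolynomial σ ℂ)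
    (hf : f.totalDegree ≤ D) :
    (Polynomial.X : Polynomial ℂ) ^ r ∣ lineP P (lin 0 y * f) f := by
  classical
  let I : Ideal (Polynomial ℂ) := Ideal.span {Polynomial.X ^ r}
  let S := Polynomial ℂ ⧸ I
  let mk : Polynomial ℂ →ₐ[ℂ] S := Ideal.Quotient.mkₐ ℂ I
  have hz : mk (lineP P (lin 0 y * f) f) = 0 := by
    have h1 := h S (mk Polynomial.X) (by
        rw [← map_pow]
        exact Ideal.Quotient.eq_zero_iff_mem.2 (Ideal.mem_span_singleton_self _))
      (fun j => mk (Polynomial.C (y j))) (map ((mk : Polynomial ℂ →ₐ[ℂ] S).toRingHom.comp Polynomial.C) f)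
      ((totalDegree_map_le' _ _).trans hf)
    rw [← h1]
    unfold lineP evF
    rw [← AlgHom.comp_apply, comp_aeval]
    congr 2
    funext m
    have e1 : lin (mk Polynomial.X) (fun j => mk (Polynomial.C (y j))) =
        map ((mk : Polynomial ℂ →ₐ[ℂ] S).toRingHom.comp Polynomial.C) (lin 0 y) +
          C (mk Polynomial.X) := by
      rw [map_lin]
      simp [lin]
      ring
    rw [e1, add_mul, coeff_add, ← map_mul, coeff_map, coeff_C_mul, coeff_map]
    simp
    exact mul_comm _ _
  exact Ideal.mem_span_singleton.1 (Ideal.Quotient.eq_zero_iff_mem.1 hz)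

/-- Numerical vanishing when `r` exceeds the degree. -/
lemma Nil.evF_eq_zero {D r e : ℕ} {E : RR σ} (hN : Nil D r E) (hE : Hm E e) (he : e < r)
    (f : MvPolynomial σ ℂ) (hf : f.totalDegree ≤ D) : evF E f = 0 := by
  have h1 := hN.dvd 0 f hf
  have h2 := (Polynomial.X_pow_dvd_iff.1 h1) e he
  rwa [lineP_top hE] at h2

/-- Invariance when `r` is at least the degree. -/
lemma Nil.inv {D r e : ℕ} {E : RR σ} (hN : Nil D r E) (hE : Hm E e) (he : e ≤ r)
    (y : σ → ℂ) (f : MvPolynomial σ ℂ) (hf : f.totalDegree ≤ D) :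
    evF E (lin 1 y * f) = evF E f := by
  have h1 := hN.dvd y f hf
  have h2 := Polynomial.X_pow_dvd_iff.1 h1
  have h3 : evF E (lin 1 y * f) = (lineP E (lin 0 y * f) f).eval 1 := by
    rw [lineP_eval]
    congr 1
    have : lin (1 : ℂ) y = lin 0 y + 1 := by
      simp [lin]; ring
    rw [this]
    simp
    ring
  rw [h3, Polynomial.eval_eq_sum_range' (Nat.lt_succ_of_le (lineP_natDegree_le hE _ _)) 1,
    Finset.sum_eq_single e]
  · rw [lineP_top hE]; simp
  · intro i hi hne
    have : i < e := by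
      have := Finset.mem_range.1 hi
      omega
    rw [h2 i (by omega)]; simp
  · intro hi
    exact absurd (Finset.mem_range.2 (Nat.lt_succ_self e)) hi

/-- A form with prescribed coefficients on a finite set. -/
noncomputable def formOf (s : Finset (σ →₀ ℕ)) (x : (σ →₀ ℕ) → ℂ) : MvPolynomial σ ℂ :=
  ∑ m ∈ s, monomial m (x m)

omit [Fintype σ] in
lemma coeff_formOf (s : Finset (σ →₀ ℕ)) (x : (σ →₀ ℕ) → ℂ) {m : σ →₀ ℕ} (hm : m ∈ s) :
    coeff m (formOf s x) = x m := by
  classical
  unfold formOf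
  rw [coeff_sum]
  rw [Finset.sum_eq_single m]
  · simp
  · intro b _ hb
    rw [coeff_monomial, if_neg hb]
  · intro h
    exact absurd hm h

omit [Fintype σ] in
lemma totalDegree_formOf_le (s : Finset (σ →₀ ℕ)) (x : (σ →₀ ℕ) → ℂ) {D : ℕ}
    (h : ∀ m ∈ s, Finsupp.degree m ≤ D) : (formOf s x).totalDegree ≤ D := by
  apply totalDegree_finsetSum_le
  intro m hm
  apply (totalDegree_monomial_le _ _).trans
  exact h m hm

omit [Fintype σ] in
lemma eq_zero_of_vars {E : RR σ} {D : ℕ} (hv : ∀ m ∈ E.vars, Finsupp.degree m ≤ D)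
    (h : ∀ f : MvPolynomial σ ℂ, f.totalDegree ≤ D → evF E f = 0) : E = 0 := by
  apply MvPolynomial.funext
  intro x
  rw [map_zero, ← h (formOf E.vars x) (totalDegree_formOf_le _ _ hv)]
  symm
  apply evF_congr
  intro m hm
  exact coeff_formOf _ _ hm

omit [Fintype σ] in
lemma pderiv_ne_zero_of_mem_vars [DecidableEq σ] {E : RR σ} {m : σ →₀ ℕ} (hm : m ∈ E.vars) :
    pderiv m E ≠ 0 := by
  obtain ⟨d, hd, hmd⟩ := (mem_vars_iff_mem_support m).1 hm
  have h1 : Finsupp.single m 1 ≤ d := by
    rw [Finsupp.single_le_iff]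
    exact Nat.one_le_iff_ne_zero.2 (Finsupp.mem_support_iff.1 hmd)
  intro h0
  have h2 : coeff (d - Finsupp.single m 1) (pderiv m E) ≠ 0 := by
    apply coeff_pderiv_ne'
    rw [tsub_add_cancel_of_le h1]
    exact mem_support_iff.1 hd
  rw [h0] at h2
  simp at h2

omit [Fintype σ] in
lemma vars_pderiv_sub [DecidableEq σ] {E : RR σ} {m n : σ →₀ ℕ} (hn : n ∈ (pderiv m E).vars) :
    n ∈ E.vars := by
  obtain ⟨d, hd, hnd⟩ := (mem_vars_iff_mem_support n).1 hn
  apply (mem_vars_iff_mem_support n).2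
  refine ⟨d + Finsupp.single m 1, mem_support_iff.2 (coeff_pderiv_ne (mem_support_iff.1 hd)), ?_⟩
  rw [Finsupp.mem_support_iff] at hnd ⊢
  simp only [Finsupp.coe_add, Pi.add_apply]
  omega

/-- A polynomial vanishing on the family, with large `r`, is zero. -/
theorem Nil.eq_zero [DecidableEq σ] {D r : ℕ} : ∀ (e : ℕ) {E : RR σ}, Hm E e → e < r → e ≤ D + 1 →
    (∀ m ∈ E.vars, Finsupp.degree m ≤ D + 1) → Nil D r E → E = 0 := by
  intro e
  induction e with
  | zero =>
    intro E hE he _ hv hN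
    apply eq_zero_of_vars (D := D)
    · intro m hm
      obtain ⟨d, hd, hmd⟩ := (mem_vars_iff_mem_support m).1 hm
      have h1 := hE d (mem_support_iff.1 hd)
      have h2 : d = 0 := (Finsupp.degree_eq_zero_iff d).1 h1
      subst h2
      simp at hmd
    · intro f hf
      exact hN.evF_eq_zero hE he f hf
  | succ e ih =>
    intro E hE he heD hv hN
    apply eq_zero_of_vars (D := D)
    · intro m hm
      by_contra hcon
      have h1 : e + 1 ≤ Finsupp.degree m := by omega
      have h2 : Nil D r (MvPolynomial.pderiv m E) :=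
        hN.pderiv hE le_rfl (by omega) h1 (hv m hm)
      have h3 : Hm (MvPolynomial.pderiv m E) e := by
        simpa using hE.pderiv m
      exact pderiv_ne_zero_of_mem_vars hm (ih h3 (by omega) (by omega)
        (fun n hn => hv n (vars_pderiv_sub hn)) h2)
    · intro f hf
      exact hN.evF_eq_zero hE he f hf

omit [Fintype σ] in
/-- Factorization of `1 - y ^ D` over the complex numbers. -/
lemma one_sub_pow_factor {D : ℕ} (hD : 0 < D) (y : MvPolynomial σ ℂ) :
    1 - y ^ D = ∏ ζ ∈ Polynomial.nthRootsFinset D (1 : ℂ), (1 - C ζ⁻¹ * y) := by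
  classical
  have hprim := Complex.isPrimitiveRoot_exp D hD.ne'
  have h1 := Polynomial.X_pow_sub_one_eq_prod hD hprim
  have h2 := congrArg (Polynomial.aeval y) h1
  simp only [map_sub, map_pow, Polynomial.aeval_X, map_one, map_prod, Polynomial.aeval_C] at h2
  have h3 := congrArg (Polynomial.eval (0 : ℂ)) h1
  simp only [Polynomial.eval_sub, Polynomial.eval_pow, Polynomial.eval_X, Polynomial.eval_one,
    Polynomial.eval_prod, Polynomial.eval_C, zero_sub, zero_pow hD.ne'] at h3
  have h4 : ∀ ζ ∈ Polynomial.nthRootsFinset D (1 : ℂ),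
      y - algebraMap ℂ (MvPolynomial σ ℂ) ζ = C (-ζ) * (1 - C ζ⁻¹ * y) := by
    intro ζ hζ
    have hne : ζ ≠ 0 := by
      intro h0
      have := (Polynomial.mem_nthRootsFinset hD (1 : ℂ)).1 hζ
      rw [h0, zero_pow hD.ne'] at this
      exact zero_ne_one this
    have : C (-ζ) * C ζ⁻¹ = (-1 : MvPolynomial σ ℂ) := by
      rw [← C_mul, neg_mul, mul_inv_cancel₀ hne]
      simp
    rw [mul_sub, mul_one, ← mul_assoc, this, algebraMap_eq]
    simp
    ring
  rw [Finset.prod_congr rfl h4, Finset.prod_mul_distrib, ← map_prod] at h2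
  rw [← h3] at h2
  simp only [map_neg, map_one, neg_mul, one_mul] at h2
  have h5 : y ^ D = 1 - ∏ ζ ∈ Polynomial.nthRootsFinset D (1 : ℂ), (1 - C ζ⁻¹ * y) := by
    rw [sub_eq_iff_eq_add] at h2
    rw [h2]
    ring
  rw [h5]
  ring

lemma totalDegree_prod_lin_le {ι : Type*} (s : Finset ι) (y : ι → σ → ℂ) :
    (∏ i ∈ s, lin (1 : ℂ) (y i)).totalDegree ≤ s.card := by
  apply (totalDegree_finsetProd _ _).trans
  calc ∑ i ∈ s, (lin (1 : ℂ) (y i)).totalDegree ≤ ∑ _i ∈ s, 1 :=
        Finset.sum_le_sum (fun i _ => totalDegree_lin_le _ _)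
    _ = s.card := by simp

/-- Invariance under multiplication by a single factor implies invariance under products. -/
lemma inv_prod {E : RR σ} {M : ℕ}
    (hI : ∀ (y : σ → ℂ) (f : MvPolynomial σ ℂ), f.totalDegree + 1 ≤ M →
      evF E (lin 1 y * f) = evF E f)
    {ι : Type*} (s : Finset ι) (y : ι → σ → ℂ) (f : MvPolynomial σ ℂ)
    (hf : f.totalDegree + s.card ≤ M) :
    evF E ((∏ i ∈ s, lin (1 : ℂ) (y i)) * f) = evF E f := by
  classical
  induction s using Finset.induction_on with
  | empty => simp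
  | insert a s ha ih =>
    rw [Finset.card_insert_of_notMem ha] at hf
    rw [Finset.prod_insert ha, mul_assoc, hI]
    · exact ih (by omega)
    · have h1 := totalDegree_mul (∏ i ∈ s, lin (1 : ℂ) (y i)) f
      have h2 := totalDegree_prod_lin_le s y
      omega

lemma lin_one_mul (c : ℂ) (Y : σ → ℂ) :
    lin (1 : ℂ) (fun j => c * Y j) = 1 + C c * lin 0 Y := by
  have := lin_add_mul (1 : ℂ) c (fun _ : σ => (0 : ℂ)) Y
  simp only [zero_add] at this
  rw [this]
  simp [lin]

omit [Fintype σ] in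
lemma wt_eq_zero_of {d : (σ →₀ ℕ) →₀ ℕ} (h : ∀ m ∈ d.support, Finsupp.degree m = 0) : wt d = 0 := by
  unfold wt
  rw [Finsupp.weight_apply]
  apply Finset.sum_eq_zero
  intro m hm
  simp [h m hm]

omit [Fintype σ] in
lemma wt_le_mul {d : (σ →₀ ℕ) →₀ ℕ} {B : ℕ} (h : ∀ m ∈ d.support, Finsupp.degree m ≤ B) :
    wt d ≤ Finsupp.degree d * B := by
  unfold wt
  rw [Finsupp.weight_apply, Finsupp.degree_apply, Finset.sum_mul]
  apply Finset.sum_le_sum
  intro m hm
  simp only [smul_eq_mul]
  exact Nat.mul_le_mul_left _ (h m hm)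

/-- A polynomial of positive level cannot be invariant under multiplication by linear factors. -/
theorem inv_eq_zero [DecidableEq σ] {M u : ℕ} {E : RR σ} (hL : Lv E u) (hu : 0 < u) (huM : u ≤ M)
    (hI : ∀ (y : σ → ℂ) (f : MvPolynomial σ ℂ), f.totalDegree + 1 ≤ M →
      evF E (lin 1 y * f) = evF E f) : E = 0 := by
  by_contra hE
  -- a variable of positive degree
  obtain ⟨d₀, hd₀⟩ : ∃ d, coeff d E ≠ 0 := by
    by_contra hcon
    push Not at hcon
    exact hE (MvPolynomial.ext _ _ (by simpa using hcon))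
  obtain ⟨m₀, hm₀, hm₀p⟩ : ∃ m ∈ d₀.support, Finsupp.degree m ≠ 0 := by
    by_contra hcon
    push Not at hcon
    have := wt_eq_zero_of hcon
    rw [hL d₀ hd₀] at this
    omega
  have hm₀v : m₀ ∈ E.vars := (mem_vars_iff_mem_support m₀).2 ⟨d₀, mem_support_iff.2 hd₀, hm₀⟩
  obtain ⟨m₁, hm₁, hmax⟩ := Finset.exists_max_image E.vars (fun m => Finsupp.degree m) ⟨m₀, hm₀v⟩
  set D := Finsupp.degree m₁ with hDdef
  have hD : 0 < D := by
    have : Finsupp.degree m₀ ≤ D := hmax m₀ hm₀v
    omega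
  have hDu : D ≤ u := by
    obtain ⟨d, hd, hmd⟩ := (mem_vars_iff_mem_support m₁).1 hm₁
    have := degree_le_wt d m₁ hmd
    rwa [hL d (mem_support_iff.1 hd)] at this
  -- first order invariance
  have step1 : ∀ (f : MvPolynomial σ ℂ), f.totalDegree + D ≤ M → ∀ Y : σ → ℂ,
      grad E f ((lin 0 Y) ^ D * f) = 0 := by
    intro f hf Y
    have hq : lineP E f (-((lin 0 Y) ^ D * f)) = Polynomial.C (evF E f) := by
      apply Polynomial.funext
      intro s
      rw [Polynomial.eval_C, lineP_eval]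
      obtain ⟨κ, hκ⟩ := IsAlgClosed.exists_pow_nat_eq s hD
      have hprim := Complex.isPrimitiveRoot_exp D hD.ne'
      have e1 : f + C s * (-((lin 0 Y) ^ D * f)) = (1 - (C κ * lin 0 Y) ^ D) * f := by
        rw [← hκ, mul_pow, C_pow]
        ring
      rw [e1, one_sub_pow_factor hD]
      have e2 : ∀ ζ ∈ Polynomial.nthRootsFinset D (1 : ℂ),
          (1 - C ζ⁻¹ * (C κ * lin 0 Y)) = lin (1 : ℂ) (fun j => (-(ζ⁻¹ * κ)) * Y j) := by
        intro ζ _
        rw [lin_one_mul, map_neg, C_mul]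
        ring
      rw [Finset.prod_congr rfl e2]
      apply inv_prod hI
      rw [hprim.card_nthRootsFinset]
      exact hf
    have h1 : grad E f (-((lin 0 Y) ^ D * f)) = 0 := by
      simp [grad, hq]
    rwa [grad_neg_right, neg_eq_zero] at h1
  -- polarization
  have step2 : ∀ (f : MvPolynomial σ ℂ), f.totalDegree + D ≤ M →
      grad E f (monomial m₁ 1 * f) = 0 := by
    intro f hf
    let Lam : MvPolynomial σ ℂ →ₗ[ℂ] ℂ :=
      { toFun := fun h => grad E f (h * f)
        map_add' := by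
          intro h h'
          rw [add_mul, grad_add_right]
        map_smul' := by
          intro c h
          simp only [RingHom.id_apply, smul_eq_C_mul, mul_assoc, grad_C_mul_right]
          simp }
    exact polar Lam D (fun Y => step1 f hf Y) m₁ rfl
  -- evaluation
  have step3 : ∀ (f : MvPolynomial σ ℂ), f.totalDegree + D ≤ M →
      coeff 0 f * evF (pderiv m₁ E) f = 0 := by
    intro f hf
    rw [← grad_monomial, ← step2 f hf]
    apply grad_congr
    intro m hm
    rw [coeff_monomial, coeff_monomial_mul']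
    by_cases hle : m₁ ≤ m
    · have : m₁ = m := by
        obtain ⟨k, rfl⟩ := exists_add_of_le hle
        have h2 := hmax _ hm
        simp only [map_add] at h2
        have h3 : Finsupp.degree k = 0 := by omega
        rw [(Finsupp.degree_eq_zero_iff k).1 h3, add_zero]
      subst this
      simp
    · have : m₁ ≠ m := by
        rintro rfl
        exact hle le_rfl
      simp [hle, this]
  apply pderiv_ne_zero_of_mem_vars hm₁
  have hX : (X 0 : RR σ) * pderiv m₁ E = 0 := by
    apply MvPolynomial.funext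
    intro x
    simp only [map_mul, eval_X, map_zero]
    classical
    have hv : ∀ m ∈ insert 0 (pderiv m₁ E).vars, Finsupp.degree m ≤ u - D := by
      intro m hm
      rw [Finset.mem_insert] at hm
      rcases hm with rfl | hm
      · simp
      · obtain ⟨d, hd, hmd⟩ := (mem_vars_iff_mem_support m).1 hm
        have h1 := degree_le_wt d m hmd
        have h2 := (hL.pderiv m₁) d (mem_support_iff.1 hd)
        omega
    have hf := totalDegree_formOf_le _ x hv
    have h1 := step3 (formOf (insert 0 (pderiv m₁ E).vars) x) (by omega)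
    rw [coeff_formOf _ _ (Finset.mem_insert_self _ _)] at h1
    rw [evF_congr _ x (fun m hm => coeff_formOf _ _ (Finset.mem_insert_of_mem hm))] at h1
    exact h1
  exact (mul_eq_zero.1 hX).resolve_left (X_ne_zero _)

/-- **Lemma T.** A polynomial of positive level and degree `e` in the family with `r ≥ e` is zero,
once `D` is large compared with `e`. -/
theorem Nil.eq_zero_of_level [DecidableEq σ] {D r e u : ℕ} {E : RR σ} (hH : Hm E e) (hL : Lv E u)
    (hu : 0 < u) (hr : e ≤ r) (hbig : e * (e - 1) ≤ D + 1)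
    (hv : ∀ m ∈ E.vars, Finsupp.degree m ≤ D + 1) (hN : Nil D r E) : E = 0 := by
  by_contra hE
  obtain ⟨d₀, hd₀⟩ : ∃ d, coeff d E ≠ 0 := by
    by_contra hcon
    push Not at hcon
    exact hE (MvPolynomial.ext _ _ (by simpa using hcon))
  have hpar : ∀ m ∈ E.vars, Finsupp.degree m ≤ e - 1 := by
    intro m hm
    by_contra hcon
    have he : e ≠ 0 := by
      rintro rfl
      obtain ⟨d, hd, hmd⟩ := (mem_vars_iff_mem_support m).1 hm
      have h2 : d = 0 := (Finsupp.degree_eq_zero_iff d).1 (hH d (mem_support_iff.1 hd))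
      subst h2
      simp at hmd
    have h1 : e ≤ Finsupp.degree m := by omega
    have h2 : Nil D r (MvPolynomial.pderiv m E) :=
      hN.pderiv hH le_rfl (by omega) h1 (hv m hm)
    have he1 : e - 1 ≤ D + 1 := by
      have : e - 1 ≤ e * (e - 1) := Nat.le_mul_of_pos_left _ (by omega)
      omega
    exact pderiv_ne_zero_of_mem_vars hm (Nil.eq_zero (e - 1) (hH.pderiv m) (by omega) he1
      (fun n hn => hv n (vars_pderiv_sub hn)) h2)
  have huM : u ≤ D + 1 := by
    have h1 : wt d₀ ≤ Finsupp.degree d₀ * (e - 1) := wt_le_mul (fun m hm =>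
      hpar m ((mem_vars_iff_mem_support m).2 ⟨d₀, mem_support_iff.2 hd₀, hm⟩))
    rw [hL d₀ hd₀, hH d₀ hd₀] at h1
    omega
  exact hE (inv_eq_zero hL hu huM (fun y f hf => hN.inv hH hr y f (by omega)))

end Vale.Agent.Lib.P181
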