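import Mathlib

/-!
The raising and lowering operators on linear maps from forms to polynomials in a parameter: the
commutation relation and the resulting injectivity statement.

A linear map `ψ` from forms in the letters `α` to polynomials in a parameter vector (also indexed
by `α`) plays the role of a bihomogeneous polynomial in two vectors.  The operator `opE` is the
transpose of multiplication by the generic linear form, `opF` is its partner, and together they
generate a copy of `sl₂`.
-/

namespace Vale.Agent.Lib.P181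

open MvPolynomial

set_option linter.unusedSimpArgs false
set_option linter.unusedVariables false
set_option linter.unusedSectionVars false

variable {α : Type} [Fintype α] [DecidableEq α]

/-- The raising operator: `(E ψ) G = ∑ j, X j * ψ (X j * G)`. -/
noncomputable def opE : Module.End ℂ (MvPolynomial α ℂ →ₗ[ℂ] MvPolynomial α ℂ) where
  toFun ψ :=
    { toFun := fun G => ∑ j, X j * ψ (X j * G)
      map_add' := by
        intro G G'
        simp only [mul_add, map_add, Finset.sum_add_distrib]
      map_smul' := by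
        intro c G
        simp only [RingHom.id_apply, Finset.smul_sum]
        apply Finset.sum_congr rfl
        intro j _
        rw [mul_smul_comm, map_smul, mul_smul_comm] }
  map_add' := by
    intro ψ ψ'
    refine LinearMap.ext fun G => ?_
    simp only [LinearMap.add_apply, LinearMap.coe_mk, AddHom.coe_mk, mul_add,
      Finset.sum_add_distrib]
  map_smul' := by
    intro c ψ
    refine LinearMap.ext fun G => ?_
    simp only [LinearMap.smul_apply, LinearMap.coe_mk, AddHom.coe_mk, RingHom.id_apply,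
      Finset.smul_sum, mul_smul_comm]

lemma opE_apply (ψ : MvPolynomial α ℂ →ₗ[ℂ] MvPolynomial α ℂ) (G : MvPolynomial α ℂ) :
    opE ψ G = ∑ j, X j * ψ (X j * G) := rfl

/-- The lowering operator: `(F ψ) G = ∑ j, ∂ⱼ (ψ (∂ⱼ G))`. -/
noncomputable def opF : Module.End ℂ (MvPolynomial α ℂ →ₗ[ℂ] MvPolynomial α ℂ) where
  toFun ψ :=
    { toFun := fun G => ∑ j, pderiv j (ψ (pderiv j G))
      map_add' := by
        intro G G'
        simp only [map_add, Finset.sum_add_distrib]
      map_smul' := by
        intro c G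
        simp only [RingHom.id_apply, Finset.smul_sum, Derivation.map_smul, map_smul] }
  map_add' := by
    intro ψ ψ'
    refine LinearMap.ext fun G => ?_
    simp only [LinearMap.add_apply, LinearMap.coe_mk, AddHom.coe_mk, map_add,
      Finset.sum_add_distrib]
  map_smul' := by
    intro c ψ
    refine LinearMap.ext fun G => ?_
    simp only [LinearMap.smul_apply, LinearMap.coe_mk, AddHom.coe_mk, RingHom.id_apply,
      Finset.smul_sum, Derivation.map_smul]

lemma opF_apply (ψ : MvPolynomial α ℂ →ₗ[ℂ] MvPolynomial α ℂ) (G : MvPolynomial α ℂ) :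
    opF ψ G = ∑ j, pderiv j (ψ (pderiv j G)) := rfl

/-- The commutation relation. -/
lemma comm_EF (ψ : MvPolynomial α ℂ →ₗ[ℂ] MvPolynomial α ℂ) (G : MvPolynomial α ℂ) :
    opE (opF ψ) G = opF (opE ψ) G + ∑ j, X j * pderiv j (ψ G) - ψ (∑ j, X j * pderiv j G) := by
  have h1 : opE (opF ψ) G = ∑ j, X j * pderiv j (ψ G) +
      ∑ j, ∑ i, X j * pderiv i (ψ (X j * pderiv i G)) := by
    rw [opE_apply, ← Finset.sum_add_distrib]
    apply Finset.sum_congr rfl
    intro j _
    rw [opF_apply, Finset.mul_sum]
    have : ∀ i, pderiv i (X j * G) = X j * pderiv i G + (if i = j then G else 0) := by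
      intro i
      rw [Derivation.leibniz, pderiv_X, smul_eq_mul, smul_eq_mul, Pi.single_apply]
      by_cases h : i = j
      · simp [h, add_comm]
      · have : j ≠ i := fun e => h e.symm
        simp [h, this]
    simp_rw [this, map_add, mul_add]
    rw [Finset.sum_add_distrib, add_comm]
    congr 1
    rw [Finset.sum_eq_single j]
    · simp
    · intro b _ hb
      simp [hb]
    · simp
  have h2 : opF (opE ψ) G = ψ (∑ j, X j * pderiv j G) +
      ∑ j, ∑ i, X j * pderiv i (ψ (X j * pderiv i G)) := by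
    have h3 : ∀ i, pderiv i (opE ψ (pderiv i G)) =
        ψ (X i * pderiv i G) + ∑ j, X j * pderiv i (ψ (X j * pderiv i G)) := by
      intro i
      rw [opE_apply, map_sum]
      have : ∀ j, pderiv i (X j * ψ (X j * pderiv i G)) =
          X j * pderiv i (ψ (X j * pderiv i G)) +
            (if i = j then ψ (X j * pderiv i G) else 0) := by
        intro j
        rw [Derivation.leibniz, pderiv_X, smul_eq_mul, smul_eq_mul, Pi.single_apply]
        by_cases h : i = j
        · simp [h, add_comm]
        · have : j ≠ i := fun e => h e.symm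
          simp [h, this]
      simp_rw [this]
      rw [Finset.sum_add_distrib, add_comm]
      congr 1
      rw [Finset.sum_eq_single i]
      · simp
      · intro b _ hb
        have : i ≠ b := fun e => hb e.symm
        simp [this]
      · simp
    rw [opF_apply, Finset.sum_congr rfl (fun i _ => h3 i), Finset.sum_add_distrib, map_sum,
      Finset.sum_comm]
  rw [h1, h2]
  ring

/-- `ψ` sends forms of degree `t` to polynomials of degree `K`. -/
def Bd (K t : ℕ) (ψ : MvPolynomial α ℂ →ₗ[ℂ] MvPolynomial α ℂ) : Prop :=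
  ∀ G : MvPolynomial α ℂ, G.IsHomogeneous t → (ψ G).IsHomogeneous K

lemma isHom_X_mul {G : MvPolynomial α ℂ} {t : ℕ} (hG : G.IsHomogeneous t) (j : α) :
    (X j * G : MvPolynomial α ℂ).IsHomogeneous (t + 1) := by
  have := (isHomogeneous_X ℂ j).mul hG
  rwa [add_comm] at this

lemma Bd_opE {K t : ℕ} {ψ : MvPolynomial α ℂ →ₗ[ℂ] MvPolynomial α ℂ} (h : Bd K (t + 1) ψ) :
    Bd (K + 1) t (opE ψ) := by
  intro G hG
  rw [opE_apply]
  apply IsHomogeneous.sum
  intro j _
  have := (isHomogeneous_X ℂ j).mul (h _ (isHom_X_mul hG j))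
  rwa [add_comm] at this

lemma Bd_opF {K t : ℕ} {ψ : MvPolynomial α ℂ →ₗ[ℂ] MvPolynomial α ℂ} (h : Bd (K + 1) t ψ) :
    Bd K (t + 1) (opF ψ) := by
  intro G hG
  rw [opF_apply]
  apply IsHomogeneous.sum
  intro j _
  have h1 := hG.pderiv (i := j)
  have h2 := (h _ h1).pderiv (i := j)
  simpa using h2

lemma Bd_opE_pow {K : ℕ} : ∀ (n r : ℕ) {ψ : MvPolynomial α ℂ →ₗ[ℂ] MvPolynomial α ℂ},
    Bd K (r + n) ψ → Bd (K + n) r ((opE ^ n) ψ) := by
  intro n
  induction n generalizing K with
  | zero =>
    intro r ψ h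
    simpa using h
  | succ n ih =>
    intro r ψ h
    rw [pow_succ, Module.End.mul_apply]
    have h1 : Bd (K + 1) (r + n) (opE ψ) := Bd_opE (by simpa [add_assoc] using h)
    have := ih r h1
    have e : K + 1 + n = K + (n + 1) := by ring
    rwa [e] at this

/-- The operator `E` raises vanishing from degree `t + 1` to degree `t`. -/
lemma opE_vanish {t : ℕ} {φ : MvPolynomial α ℂ →ₗ[ℂ] MvPolynomial α ℂ}
    (h : ∀ G : MvPolynomial α ℂ, G.IsHomogeneous (t + 1) → φ G = 0) :
    ∀ G : MvPolynomial α ℂ, G.IsHomogeneous t → opE φ G = 0 := by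
  intro G hG
  rw [opE_apply]
  apply Finset.sum_eq_zero
  intro j _
  rw [h _ (isHom_X_mul hG j), mul_zero]

lemma opE_pow_vanish : ∀ (n s : ℕ) {φ : MvPolynomial α ℂ →ₗ[ℂ] MvPolynomial α ℂ},
    (∀ G : MvPolynomial α ℂ, G.IsHomogeneous (s + n) → φ G = 0) →
    ∀ G : MvPolynomial α ℂ, G.IsHomogeneous s → (opE ^ n) φ G = 0 := by
  intro n
  induction n with
  | zero =>
    intro s φ h G hG
    simpa using h G (by simpa using hG)
  | succ n ih =>
    intro s φ h G hG
    rw [pow_succ, Module.End.mul_apply]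
    exact ih s (opE_vanish (t := s + n) (by simpa [add_assoc] using h)) G hG

lemma opE_pow_congr (n s : ℕ) {φ φ' : MvPolynomial α ℂ →ₗ[ℂ] MvPolynomial α ℂ}
    (h : ∀ G : MvPolynomial α ℂ, G.IsHomogeneous (s + n) → φ G = φ' G)
    (G : MvPolynomial α ℂ) (hG : G.IsHomogeneous s) : (opE ^ n) φ G = (opE ^ n) φ' G := by
  have := opE_pow_vanish n s (φ := φ - φ') (by
    intro G hG
    simp [h G hG]) G hG
  rw [map_sub, LinearMap.sub_apply] at this
  exact sub_eq_zero.1 this

/-- The weight identity on bihomogeneous maps. -/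
lemma comm_weight {K t : ℕ} {ψ : MvPolynomial α ℂ →ₗ[ℂ] MvPolynomial α ℂ} (h : Bd K t ψ)
    (G : MvPolynomial α ℂ) (hG : G.IsHomogeneous t) :
    opE (opF ψ) G = opF (opE ψ) G + ((K : ℂ) - t) • ψ G := by
  rw [comm_EF, (h G hG).sum_X_mul_pderiv, hG.sum_X_mul_pderiv]
  have e1 : ψ (t • G) = (t : ℂ) • ψ G := by
    rw [← Nat.cast_smul_eq_nsmul ℂ t G, map_smul]
  rw [e1, sub_smul, ← Nat.cast_smul_eq_nsmul ℂ K (ψ G)]
  ring

/-- The commutation relation for powers of `E`. -/
lemma comm_pow : ∀ (n K r : ℕ) {ψ : MvPolynomial α ℂ →ₗ[ℂ] MvPolynomial α ℂ},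
    Bd K (r + n) ψ → ∀ G : MvPolynomial α ℂ, G.IsHomogeneous r →
    (opE ^ (n + 1)) (opF ψ) G = opF ((opE ^ (n + 1)) ψ) G +
      (((n : ℂ) + 1) * ((K : ℂ) - r)) • (opE ^ n) ψ G := by
  intro n
  induction n with
  | zero =>
    intro K r ψ h G hG
    simpa using comm_weight (K := K) (t := r) (by simpa using h) G hG
  | succ n ih =>
    intro K r ψ h G hG
    set t := r + (n + 1) with ht
    have h0 : (opE ^ (n + 1 + 1)) (opF ψ) G =
        (opE ^ (n + 1)) (opF (opE ψ) + ((K : ℂ) - t) • ψ) G := by
      rw [pow_succ, Module.End.mul_apply]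
      apply opE_pow_congr (n + 1) r _ G hG
      intro G' hG'
      rw [comm_weight h G' hG']
      simp
    have h1 := ih (K + 1) r (ψ := opE ψ) (Bd_opE (by simpa [ht, add_assoc] using h)) G hG
    rw [h0, map_add, LinearMap.add_apply, h1, map_smul, LinearMap.smul_apply]
    have e1 : (opE ^ (n + 1)) (opE ψ) = (opE ^ (n + 1 + 1)) ψ := by
      rw [pow_succ (opE) (n + 1), Module.End.mul_apply]
    have e2 : (opE ^ n) (opE ψ) = (opE ^ (n + 1)) ψ := by
      rw [pow_succ, Module.End.mul_apply]
    rw [e1, e2, add_assoc, ← add_smul]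
    congr 2
    rw [ht]
    push_cast
    ring

lemma isHom_zero_pderiv {p : MvPolynomial α ℂ} (hp : p.IsHomogeneous 0) (j : α) :
    pderiv j p = 0 := by
  have h1 : p.totalDegree = 0 := Nat.le_zero.1 hp.totalDegree_le
  rw [totalDegree_eq_zero_iff_eq_C.1 h1]
  simp

/-- **Key lemma.** If `E ^ τ ψ` vanishes on forms of degree `r` and `ψ` has bidegree
`(K, r + τ)` with `K ≤ r`, then `ψ` vanishes on forms of degree `r + τ`. -/
theorem keyL : ∀ (K τ r : ℕ) {ψ : MvPolynomial α ℂ →ₗ[ℂ] MvPolynomial α ℂ},
    Bd K (r + τ) ψ → K ≤ r →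
    (∀ G : MvPolynomial α ℂ, G.IsHomogeneous r → (opE ^ τ) ψ G = 0) →
    ∀ G : MvPolynomial α ℂ, G.IsHomogeneous (r + τ) → ψ G = 0 := by
  intro K
  induction K with
  | zero =>
    intro τ r ψ hB _ hv
    have hF : ∀ G : MvPolynomial α ℂ, G.IsHomogeneous (r + τ + 1) → opF ψ G = 0 := by
      intro G hG
      rw [opF_apply]
      apply Finset.sum_eq_zero
      intro j _
      exact isHom_zero_pderiv (hB _ (by simpa using hG.pderiv (i := j))) j
    exact descent 0 hB hF τ r rfl (Nat.zero_le _) hv
  | succ K ih =>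
    intro τ r ψ hB hK hv
    have hF : ∀ G : MvPolynomial α ℂ, G.IsHomogeneous (r + τ + 1) → opF ψ G = 0 := by
      have hB' : Bd K (r + (τ + 1)) (opF ψ) := Bd_opF (t := r + τ) hB
      refine ih (τ + 1) r hB' (by omega) ?_
      intro G hG
      rw [comm_pow τ (K + 1) r hB G hG, hv G hG, smul_zero, add_zero, opF_apply]
      apply Finset.sum_eq_zero
      intro j _
      have e : (opE ^ (τ + 1)) ψ = opE ((opE ^ τ) ψ) := by
        rw [pow_succ', Module.End.mul_apply]
      have h1 : (pderiv j G).IsHomogeneous (r - 1) := hG.pderiv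
      have e2 : r - 1 + 1 = r := by omega
      have : opE ((opE ^ τ) ψ) (pderiv j G) = 0 := by
        apply opE_vanish (t := r - 1) _ _ h1
        rw [e2]
        exact hv
      rw [e, this, map_zero]
    exact descent (K + 1) hB hF τ r rfl hK hv
where
  /-- The descent on the exponent. -/
  descent (K : ℕ) {t : ℕ} {ψ : MvPolynomial α ℂ →ₗ[ℂ] MvPolynomial α ℂ}
      (hB : ∀ G : MvPolynomial α ℂ, G.IsHomogeneous t → (ψ G).IsHomogeneous K)
      (hF : ∀ G : MvPolynomial α ℂ, G.IsHomogeneous (t + 1) → opF ψ G = 0) :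
      ∀ (τ r : ℕ), r + τ = t → K ≤ r →
        (∀ G : MvPolynomial α ℂ, G.IsHomogeneous r → (opE ^ τ) ψ G = 0) →
        ∀ G : MvPolynomial α ℂ, G.IsHomogeneous t → ψ G = 0 := by
    intro τ
    induction τ with
    | zero =>
      intro r hr _ hv G hG
      have : r = t := by omega
      subst this
      simpa using hv G hG
    | succ τ ih =>
      intro r hr hK hv
      apply ih (r + 1) (by omega) (by omega)
      intro G hG
      have hB' : Bd K (r + 1 + τ) ψ := by
        have e : r + 1 + τ = t := by omega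
        rw [e]
        exact hB
      have h1 := comm_pow τ K (r + 1) hB' G hG
      have h2 : (opE ^ (τ + 1)) (opF ψ) G = 0 := by
        apply opE_pow_vanish (τ + 1) (r + 1) _ G hG
        have e : r + 1 + (τ + 1) = t + 1 := by omega
        rw [e]
        exact hF
      have h3 : opF ((opE ^ (τ + 1)) ψ) G = 0 := by
        rw [opF_apply]
        apply Finset.sum_eq_zero
        intro j _
        have h4 : (pderiv j G).IsHomogeneous r := by simpa using hG.pderiv (i := j)
        rw [hv _ h4, map_zero]
      rw [h2, h3, zero_add] at h1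
      have h5 : ((τ : ℂ) + 1) * ((K : ℂ) - ((r + 1 : ℕ) : ℂ)) ≠ 0 := by
        apply mul_ne_zero
        · exact Nat.cast_add_one_ne_zero τ
        · rw [sub_ne_zero]
          exact_mod_cast (by omega : K ≠ r + 1)
      exact (smul_eq_zero.1 h1.symm).resolve_left h5

end Vale.Agent.Lib.P181
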