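import Vale.Agent.Lib.P181.Theta

/-!
The lowering operators: derivations of the coefficient ring coming from translating all the
points, which preserve relations and lower the level by one.
-/

namespace Vale.Agent.Lib.P181

open MvPolynomial

set_option linter.unusedSectionVars false
set_option linter.unusedSimpArgs false

variable {σ : Type} [Fintype σ] [DecidableEq σ]

/-- The derivative of a product of linear factors with respect to the constant terms. -/
noncomputable def bForm : List (σ → ℂ) → MvPolynomial σ ℂ
  | [] => 0
  | y :: l => prodForm l + lin 1 y * bForm l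

lemma prodForm_append (l' l : List (σ → ℂ)) : prodForm (l' ++ l) = prodForm l' * prodForm l := by
  induction l' with
  | nil => simp [prodForm]
  | cons y l' ih =>
    simp only [List.cons_append, prodForm, ih]
    ring

lemma coeff_bForm (l : List (σ → ℂ)) (m : σ →₀ ℕ) :
    coeff m (bForm l) = ((l.length : ℂ) - ((Finsupp.degree m : ℕ) : ℂ)) * coeff m (prodForm l) := by
  induction l generalizing m with
  | nil =>
    simp only [bForm, prodForm, coeff_zero, List.length_nil, Nat.cast_zero, zero_sub, coeff_one]
    by_cases hm : 0 = m
    · subst hm; simp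
    · simp [hm]
  | cons y l ih =>
    simp only [bForm, prodForm, coeff_add, coeff_lin_mul, List.length_cons, one_mul,
      Nat.cast_add, Nat.cast_one]
    have h1 : ∀ j ∈ (Finset.univ : Finset σ), y j * (if m j ≠ 0 then coeff (m - Finsupp.single j 1) (bForm l) else 0) =
        ((l.length : ℂ) + 1 - ((Finsupp.degree m : ℕ) : ℂ)) *
          (y j * (if m j ≠ 0 then coeff (m - Finsupp.single j 1) (prodForm l) else 0)) := by
      intro j _
      by_cases hj : m j ≠ 0
      · simp only [hj, if_true, ne_eq, not_false_eq_true, ih]
        have := degree_sub_single hj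
        have h2 : ((Finsupp.degree m : ℕ) : ℂ) = ((Finsupp.degree (m - Finsupp.single j 1) : ℕ) : ℂ) + 1 := by
          exact_mod_cast this.symm
        rw [h2]
        ring
      · simp [hj]
    rw [Finset.sum_congr rfl h1, ← Finset.mul_sum, ih m]
    ring

/-- Moving one point in the direction of a letter is tangent to the relation. -/
lemma grad_tangent {N : ℕ} {P : RR σ} (hR : Rel N P) (a : σ) :
    ∀ (l l' : List (σ → ℂ)), l'.length + l.length = N →
      grad P (prodForm (l' ++ l)) (X a * prodForm l' * bForm l) = 0 := by
  intro l
  induction l with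
  | nil => intro l' _; simp [bForm]
  | cons y l ih =>
    intro l' hl
    have e1 : (X a : MvPolynomial σ ℂ) * prodForm l' * bForm (y :: l) =
        X a * prodForm l' * prodForm l + X a * prodForm (l' ++ [y]) * bForm l := by
      simp only [bForm, prodForm_append, prodForm]
      ring
    rw [e1, grad_add_right]
    have e2 : prodForm (l' ++ y :: l) = prodForm ((l' ++ [y]) ++ l) := by simp
    have h2 := ih (l' ++ [y]) (by simp at hl ⊢; omega)
    rw [← e2] at h2
    rw [h2, add_zero]
    -- the first term: a genuine line inside the variety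
    have hline : lineP P (prodForm (l' ++ y :: l)) (X a * prodForm l' * prodForm l) = 0 := by
      apply Polynomial.funext
      intro s
      rw [lineP_eval, Polynomial.eval_zero]
      have e3 : prodForm (l' ++ y :: l) + C s * (X a * prodForm l' * prodForm l) =
          prodForm (l' ++ (fun j => y j + s * (Pi.single a (1 : ℂ) : σ → ℂ) j) :: l) := by
        have e4 : lin (0 : ℂ) (Pi.single a (1 : ℂ) : σ → ℂ) = X a := by
          unfold lin
          rw [Finset.sum_eq_single a]
          · simp
          · intro b _ hb
            simp [Pi.single_apply, hb]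
          · simp
        simp only [prodForm_append, prodForm, lin_add_mul, e4]
        ring
      rw [e3]
      exact hR _ (by simp at hl ⊢; omega)
    simp [grad, hline]

/-- The lowering operator in the letter `a`. -/
noncomputable def Lop (N : ℕ) (a : σ) : Derivation ℂ (RR σ) (RR σ) :=
  mkDerivation ℂ (fun m => if m a ≠ 0 then
    C ((N : ℂ) + 1 - ((Finsupp.degree m : ℕ) : ℂ)) * X (m - Finsupp.single a 1) else 0)

lemma evF_derivation (D : Derivation ℂ (RR σ) (RR σ)) (F h : MvPolynomial σ ℂ)
    (H : ∀ m, evF (D (X m)) F = coeff m h) (P : RR σ) : evF (D P) F = grad P F h := by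
  induction P using MvPolynomial.induction_on with
  | C a => simp
  | add p q hp hq => simp [grad_add, hp, hq]
  | mul_X p n hp =>
    rw [Derivation.leibniz, grad_mul, grad_X]
    simp only [smul_eq_mul, evF_add, evF_mul, evF_X, hp, H]
    ring

/-- The lowering operator preserves relations. -/
theorem rel_Lop {N : ℕ} {P : RR σ} (hR : Rel N P) (a : σ) : Rel N (Lop N a P) := by
  intro l hl
  have h1 := grad_tangent hR a l [] (by simpa using hl)
  simp only [List.nil_append, prodForm, mul_one] at h1
  rw [evF_derivation _ _ (X a * bForm l) _ P, h1]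
  intro m
  rw [coeff_X_mul']
  simp only [Lop, mkDerivation_X, Finsupp.mem_support_iff]
  by_cases hm : m a ≠ 0
  · simp only [hm, if_true, ne_eq, not_false_eq_true, evF_mul, evF_C, evF_X, coeff_bForm, hl]
    have := degree_sub_single hm
    have h2 : ((Finsupp.degree m : ℕ) : ℂ) = ((Finsupp.degree (m - Finsupp.single a 1) : ℕ) : ℂ) + 1 := by
      exact_mod_cast this.symm
    rw [h2]
    simp only [algebraMap_eq, RingHom.id_apply, Algebra.algebraMap_self]
    ring
  · simp [hm]

lemma bi_Lop_X {N : ℕ} (a : σ) (m : σ →₀ ℕ) (hm : Finsupp.degree m ≤ N) :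
    Bi N 1 1 (Finsupp.degree m) (Lop N a (X m)) := by
  intro d hd
  simp only [Lop, mkDerivation_X] at hd
  by_cases hma : m a ≠ 0
  · simp only [hma, if_true, ne_eq, not_false_eq_true, coeff_C_mul] at hd
    have hd2 := right_ne_zero_of_mul hd
    have := coeff_X_ne hd2
    subst this
    have h1 := degree_sub_single hma
    refine ⟨by simp, ?_, ?_⟩
    · rw [wt_single]; omega
    · intro m' hm'
      have : m' = m - Finsupp.single a 1 := Finset.mem_singleton.1 (Finsupp.support_single_subset hm')
      subst this
      omega
  · simp [hma] at hd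

lemma bi_X {N : ℕ} (m : σ →₀ ℕ) (hm : Finsupp.degree m ≤ N) :
    Bi N 1 0 (Finsupp.degree m) (X m : RR σ) := by
  intro d hd
  have := coeff_X_ne hd
  subst this
  refine ⟨by simp, by rw [wt_single]; simp, ?_⟩
  intro m' hm'
  have : m' = m := Finset.mem_singleton.1 (Finsupp.support_single_subset hm')
  subst this
  exact hm

lemma bi_Lop_monomial {N : ℕ} (a : σ) (d : (σ →₀ ℕ) →₀ ℕ) (c : ℂ) :
    (∀ m ∈ d.support, Finsupp.degree m ≤ N) →
      Bi N (Finsupp.degree d) 1 (wt d) (Lop N a (monomial d c)) := by
  induction d using mono_induction with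
  | h0 =>
    intro _ d' hd'
    have : Lop N a (monomial 0 c : RR σ) = 0 := by
      have : (monomial 0 c : RR σ) = C c := rfl
      rw [this]
      simp
    rw [this] at hd'
    simp at hd'
  | hs d b ih =>
    intro h
    have hsub : ∀ m ∈ d.support, Finsupp.degree m ≤ N := by
      intro m hm
      apply h
      rw [Finsupp.mem_support_iff] at hm ⊢
      simp only [Finsupp.coe_add, Pi.add_apply]
      omega
    have hb : Finsupp.degree b ≤ N := by
      apply h
      rw [Finsupp.mem_support_iff]
      simp
    rw [monomial_succ, Derivation.leibniz, map_add, wt_add, wt_single, Finsupp.degree_single,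
      one_mul, smul_eq_mul, smul_eq_mul]
    apply Bi.add
    · have := (bi_monomial d c hsub).mul (bi_Lop_X a b hb)
      simpa using this
    · have := (bi_X b hb).mul (ih hsub)
      simpa [add_comm] using this

theorem bi_Lop {N a' k : ℕ} {P : RR σ} (hP : Bi N a' 0 k P) (a : σ) :
    Bi N a' 1 k (Lop N a P) := by
  rw [eq_sum_monomial P, map_sum]
  apply Bi.sum
  intro d hd
  obtain ⟨h1, h2, h3⟩ := hP d (mem_support_iff.1 hd)
  have := bi_Lop_monomial (N := N) a d (coeff d P) h3
  rw [h1] at this
  have h2' : wt d = k := by simpa using h2
  rwa [h2'] at this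

/-- The commutator of a partial derivative and a lowering operator. -/
theorem comm_Lop (N : ℕ) (a : σ) (m' : σ →₀ ℕ) (P : RR σ) :
    pderiv m' (Lop N a P) = Lop N a (pderiv m' P) +
      C ((N : ℂ) - ((Finsupp.degree m' : ℕ) : ℂ)) * pderiv (m' + Finsupp.single a 1) P := by
  have key : ⁅(pderiv m' : Derivation ℂ (RR σ) (RR σ)), Lop N a⁆ =
      ((N : ℂ) - ((Finsupp.degree m' : ℕ) : ℂ)) • pderiv (m' + Finsupp.single a 1) := by
    apply MvPolynomial.derivation_ext
    intro m
    rw [Derivation.commutator_apply]
    have h0 : Lop N a (pderiv m' (X m : RR σ)) = 0 := by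
      rw [pderiv_X]
      by_cases hm : m' = m
      · subst hm
        simp
      · simp [Pi.single_apply, Ne.symm hm]
    rw [h0, sub_zero, Derivation.coe_smul, Pi.smul_apply, pderiv_X]
    simp only [Lop, mkDerivation_X]
    by_cases hma : m a ≠ 0
    · simp only [hma, if_true, ne_eq, not_false_eq_true]
      rw [pderiv_C_mul, pderiv_X]
      by_cases he : m' = m - Finsupp.single a 1
      · have h1 : m' + Finsupp.single a 1 = m := by
          rw [he]
          apply tsub_add_cancel_of_le
          rw [Finsupp.single_le_iff]
          exact Nat.one_le_iff_ne_zero.2 hma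
        have h2 : ((Finsupp.degree m : ℕ) : ℂ) = ((Finsupp.degree m' : ℕ) : ℂ) + 1 := by
          rw [← h1, map_add, Finsupp.degree_single]
          push_cast
          ring
        rw [h1, he] at *
        simp [h2, smul_eq_C_mul]
      · have h1 : m' + Finsupp.single a 1 ≠ m := by
          intro h
          apply he
          rw [← h]
          simp
        simp [Pi.single_apply, he, Ne.symm he, h1, Ne.symm h1]
    · have h1 : m' + Finsupp.single a 1 ≠ m := by
        intro h
        apply hma
        rw [← h]
        simp
      simp [hma, Pi.single_apply, h1, Ne.symm h1]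
  have := congrArg (fun D : Derivation ℂ (RR σ) (RR σ) => D P) key
  simp only [Derivation.commutator_apply, Derivation.coe_smul, Pi.smul_apply, smul_eq_C_mul] at this
  rw [← this]
  ring

end Vale.Agent.Lib.P181
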