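import Vale.Agent.Lib.P181.Transfer
import Vale.Agent.Lib.P181.GenC

/-!
The multilinear form attached to a polynomial in the coefficient variables of a form, and the
pullback of such a polynomial along a linear map of forms.
-/

namespace Vale.Agent.Lib.P181

open MvPolynomial

set_option linter.unusedSimpArgs false
set_option linter.unusedVariables false
set_option linter.unusedSectionVars false

variable {α : Type} [Fintype α] [DecidableEq α]

/-- The directional derivative in the direction of the coefficient vector of a form. -/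
noncomputable def dL : MvPolynomial α ℂ →ₗ[ℂ] Module.End ℂ (RR α) :=
  (basisMonomials α ℂ).constr ℂ (fun m => (pderiv m).toLinearMap)

lemma dL_monomial (m : α →₀ ℕ) (c : ℂ) (Q : RR α) :
    dL (monomial m c) Q = c • pderiv m Q := by
  have h1 : (monomial m c : MvPolynomial α ℂ) = c • monomial m 1 := by
    rw [smul_monomial]
    simp
  have h2 : dL (monomial m (1 : ℂ)) = (pderiv m).toLinearMap := by
    have := (basisMonomials α ℂ).constr_basis ℂ (fun m => ((pderiv m).toLinearMap : RR α →ₗ[ℂ] RR α)) m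
    simpa [dL, coe_basisMonomials] using this
  rw [h1, map_smul, LinearMap.smul_apply, h2]
  rfl

lemma dL_as_sum (G : MvPolynomial α ℂ) (Q : RR α) :
    dL G Q = ∑ m ∈ G.support, coeff m G • pderiv m Q := by
  conv_lhs => rw [G.as_sum, map_sum, LinearMap.sum_apply]
  apply Finset.sum_congr rfl
  intro m _
  exact dL_monomial m _ Q

lemma dL_mul (G : MvPolynomial α ℂ) (p q : RR α) :
    dL G (p * q) = p * dL G q + q * dL G p := by
  simp only [dL_as_sum, Derivation.leibniz, smul_eq_mul, smul_add, Finset.sum_add_distrib,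
    Finset.mul_sum]
  congr 1
  · apply Finset.sum_congr rfl
    intro m _
    rw [mul_smul_comm]
  · apply Finset.sum_congr rfl
    intro m _
    rw [mul_smul_comm]

lemma dL_C (G : MvPolynomial α ℂ) (c : ℂ) : dL G (C c : RR α) = 0 := by
  rw [dL_as_sum]
  simp

lemma dL_X (G : MvPolynomial α ℂ) (m : α →₀ ℕ) : dL G (X m : RR α) = C (coeff m G) := by
  induction G using MvPolynomial.induction_on' with
  | monomial u a =>
    rw [dL_monomial, pderiv_X, coeff_monomial, Pi.single_apply]
    by_cases h : u = m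
    · subst h
      simp [smul_eq_C_mul]
    · have h' : m ≠ u := fun e => h e.symm
      simp [h, h']
  | add p q hp hq =>
    rw [map_add, LinearMap.add_apply, hp, hq, coeff_add, C_add]

/-- The constant coefficient, as a linear map. -/
noncomputable def c0 : RR α →ₗ[ℂ] ℂ where
  toFun := constantCoeff
  map_add' := map_add _
  map_smul' c p := by
    rw [smul_eq_C_mul, map_mul, constantCoeff_C]
    rfl

lemma c0_apply (Q : RR α) : c0 Q = constantCoeff Q := rfl

/-- The product of the directional derivatives. -/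
noncomputable def DD {a : ℕ} (G : Fin a → MvPolynomial α ℂ) : Module.End ℂ (RR α) :=
  (List.ofFn fun i => dL (G i)).prod

lemma DD_succ {a : ℕ} (G : Fin (a + 1) → MvPolynomial α ℂ) (Q : RR α) :
    DD G Q = dL (G 0) (DD (fun i : Fin a => G i.succ) Q) := by
  unfold DD
  rw [List.ofFn_succ, List.prod_cons, Module.End.mul_apply]

@[simp] lemma DD_zero (G : Fin 0 → MvPolynomial α ℂ) (Q : RR α) : DD G Q = Q := by
  simp [DD]

/-- The multilinear form attached to `P`: the constant term of the iterated directional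
derivatives of `P`. -/
noncomputable def Tf (P : RR α) (a : ℕ) :
    MultilinearMap ℂ (fun _ : Fin a => MvPolynomial α ℂ) ℂ :=
  ((c0 : RR α →ₗ[ℂ] ℂ).comp (LinearMap.applyₗ P)).compMultilinearMap
    ((MultilinearMap.mkPiAlgebraFin ℂ a (Module.End ℂ (RR α))).compLinearMap (fun _ => dL))

lemma Tf_apply (P : RR α) (a : ℕ) (G : Fin a → MvPolynomial α ℂ) :
    Tf P a G = constantCoeff (DD G P) := by
  simp [Tf, DD, c0_apply, MultilinearMap.mkPiAlgebraFin_apply]

/-- All monomials of `P` have degree `a` and all their parts have degree `N`. -/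
def HomP (N a : ℕ) (P : RR α) : Prop :=
  ∀ d, coeff d P ≠ 0 → Finsupp.degree d = a ∧ ∀ m ∈ d.support, Finsupp.degree m = N

lemma HomP.mul {N a b : ℕ} {P Q : RR α} (hP : HomP N a P) (hQ : HomP N b Q) :
    HomP N (a + b) (P * Q) := by
  intro d hd
  obtain ⟨d₁, d₂, rfl, h1, h2⟩ := exists_of_coeff_mul_ne_zero hd
  obtain ⟨a1, a2⟩ := hP d₁ h1
  obtain ⟨b1, b2⟩ := hQ d₂ h2
  refine ⟨by rw [map_add, a1, b1], ?_⟩
  intro m hm
  rcases support_add_cases hm with h | h
  · exact a2 m h
  · exact b2 m h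

lemma HomP.add {N a : ℕ} {P Q : RR α} (hP : HomP N a P) (hQ : HomP N a Q) :
    HomP N a (P + Q) := by
  intro d hd
  rw [coeff_add] at hd
  by_cases h : coeff d P = 0
  · rw [h, zero_add] at hd
    exact hQ d hd
  · exact hP d h

lemma HomP.sum {ι : Type*} {N a : ℕ} (t : Finset ι) (P : ι → RR α)
    (h : ∀ i ∈ t, HomP N a (P i)) : HomP N a (∑ i ∈ t, P i) := by
  intro d hd
  rw [coeff_sum] at hd
  obtain ⟨i, hi, hi2⟩ := Finset.exists_ne_zero_of_sum_ne_zero hd
  exact h i hi d hi2

lemma HomP.hm {N a : ℕ} {P : RR α} (h : HomP N a P) : Hm P a := fun d hd => (h d hd).1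

/-- The monomials of degree `s`. -/
noncomputable def MM (s : ℕ) : Finset (α →₀ ℕ) := (Finset.univ : Finset α).finsuppAntidiag s

lemma mem_MM {s : ℕ} {m : α →₀ ℕ} : m ∈ MM s ↔ Finsupp.degree m = s := by
  unfold MM
  rw [Finset.mem_finsuppAntidiag, Finsupp.degree_eq_sum]
  simp

lemma degree_of_coeff_ne {G : MvPolynomial α ℂ} {s : ℕ} (hG : G.IsHomogeneous s) {m : α →₀ ℕ}
    (h : coeff m G ≠ 0) : Finsupp.degree m = s := by
  rw [Finsupp.degree_eq_weight_one]
  exact hG h

/-- The image of the variable `X_m` under the pullback. -/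
noncomputable def pullG (s : ℕ) (L : MvPolynomial α ℂ →ₗ[ℂ] MvPolynomial α ℂ) (m : α →₀ ℕ) : RR α :=
  ∑ m' ∈ MM s, C (coeff m (L (monomial m' 1))) * X m'

/-- The pullback of polynomials in the coefficient variables along a linear map of forms. -/
noncomputable def pull (s : ℕ) (L : MvPolynomial α ℂ →ₗ[ℂ] MvPolynomial α ℂ) : RR α →ₐ[ℂ] RR α :=
  aeval (pullG s L)

lemma pull_X (s : ℕ) (L : MvPolynomial α ℂ →ₗ[ℂ] MvPolynomial α ℂ) (m : α →₀ ℕ) :
    pull s L (X m) = pullG s L m := by
  simp [pull]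

lemma pull_C (s : ℕ) (L : MvPolynomial α ℂ →ₗ[ℂ] MvPolynomial α ℂ) (c : ℂ) :
    pull s L (C c) = C c := by
  simp [pull, algebraMap_eq]

lemma coeff_L {s : ℕ} (L : MvPolynomial α ℂ →ₗ[ℂ] MvPolynomial α ℂ) {G : MvPolynomial α ℂ}
    (hG : G.IsHomogeneous s) (m : α →₀ ℕ) :
    coeff m (L G) = ∑ m' ∈ MM s, coeff m (L (monomial m' 1)) * coeff m' G := by
  have h1 : L G = ∑ v ∈ G.support, coeff v G • L (monomial v 1) := by
    conv_lhs => rw [G.as_sum, map_sum]
    apply Finset.sum_congr rfl
    intro v _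
    rw [← map_smul, smul_monomial]
    simp
  rw [h1, coeff_sum]
  have hsub : G.support ⊆ MM s := by
    intro v hv
    rw [mem_MM]
    exact degree_of_coeff_ne hG (mem_support_iff.1 hv)
  rw [← Finset.sum_subset hsub]
  · apply Finset.sum_congr rfl
    intro v _
    rw [coeff_smul, smul_eq_mul, mul_comm]
  · intro v _ hv
    rw [notMem_support_iff.1 hv, mul_zero]

lemma evF_pull {s : ℕ} (L : MvPolynomial α ℂ →ₗ[ℂ] MvPolynomial α ℂ) (P : RR α)
    {F : MvPolynomial α ℂ} (hF : F.IsHomogeneous s) :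
    evF (pull s L P) F = evF P (L F) := by
  induction P using MvPolynomial.induction_on with
  | C a => rw [pull_C]; simp
  | add p q hp hq => rw [map_add, evF_add, evF_add, hp, hq]
  | mul_X p n hp =>
    rw [map_mul, evF_mul, evF_mul, hp, pull_X, evF_X, coeff_L L hF, pullG]
    congr 1
    have : ∀ t : Finset (α →₀ ℕ), evF (∑ m' ∈ t, C (coeff n (L (monomial m' 1))) * X m' : RR α) F =
        ∑ m' ∈ t, coeff n (L (monomial m' 1)) * coeff m' F := by
      intro t
      simp [evF]
    exact this _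

lemma dL_pull_X {s : ℕ} (L : MvPolynomial α ℂ →ₗ[ℂ] MvPolynomial α ℂ) {G : MvPolynomial α ℂ}
    (hG : G.IsHomogeneous s) (m : α →₀ ℕ) :
    dL G (pullG s L m) = C (coeff m (L G)) := by
  rw [pullG, map_sum, coeff_L L hG, map_sum]
  apply Finset.sum_congr rfl
  intro m' _
  rw [dL_mul, dL_X, dL_C, mul_zero, add_zero, C_mul]

lemma dL_pull {s : ℕ} (L : MvPolynomial α ℂ →ₗ[ℂ] MvPolynomial α ℂ) {G : MvPolynomial α ℂ}
    (hG : G.IsHomogeneous s) (Q : RR α) :
    dL G (pull s L Q) = pull s L (dL (L G) Q) := by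
  induction Q using MvPolynomial.induction_on with
  | C a => rw [pull_C, dL_C, dL_C, map_zero]
  | add p q hp hq => rw [map_add, map_add, map_add, map_add, hp, hq]
  | mul_X p n hp =>
    rw [map_mul, dL_mul, dL_mul, map_add, map_mul, map_mul, pull_X, dL_pull_X L hG, dL_X, pull_C, hp]

lemma DD_pull {s : ℕ} (L : MvPolynomial α ℂ →ₗ[ℂ] MvPolynomial α ℂ) :
    ∀ (a : ℕ) (G : Fin a → MvPolynomial α ℂ), (∀ i, (G i).IsHomogeneous s) → ∀ Q : RR α,
      DD G (pull s L Q) = pull s L (DD (fun i => L (G i)) Q) := by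
  intro a
  induction a with
  | zero =>
    intro G _ Q
    simp
  | succ a ih =>
    intro G hG Q
    rw [DD_succ, DD_succ, ih _ (fun i => hG i.succ), dL_pull L (hG 0)]

lemma constantCoeff_pullG (s : ℕ) (L : MvPolynomial α ℂ →ₗ[ℂ] MvPolynomial α ℂ) (m : α →₀ ℕ) :
    constantCoeff (pullG s L m) = 0 := by
  simp [pullG, map_sum]

lemma constantCoeff_pull (s : ℕ) (L : MvPolynomial α ℂ →ₗ[ℂ] MvPolynomial α ℂ) (Q : RR α) :
    constantCoeff (pull s L Q) = constantCoeff Q := by
  induction Q using MvPolynomial.induction_on with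
  | C a => rw [pull_C]
  | add p q hp hq => rw [map_add, map_add, map_add, hp, hq]
  | mul_X p n hp =>
    rw [map_mul, map_mul, map_mul, pull_X, constantCoeff_pullG, constantCoeff_X, mul_zero, mul_zero]

/-- The form attached to the pullback. -/
theorem Tf_pull {s : ℕ} (L : MvPolynomial α ℂ →ₗ[ℂ] MvPolynomial α ℂ) (P : RR α) (a : ℕ)
    (G : Fin a → MvPolynomial α ℂ) (hG : ∀ i, (G i).IsHomogeneous s) :
    Tf (pull s L P) a G = Tf P a (fun i => L (G i)) := by
  rw [Tf_apply, Tf_apply, DD_pull L a G hG, constantCoeff_pull]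

lemma homP_pullG (s : ℕ) (L : MvPolynomial α ℂ →ₗ[ℂ] MvPolynomial α ℂ) (m : α →₀ ℕ) :
    HomP s 1 (pullG s L m) := by
  apply HomP.sum
  intro m' hm' d hd
  rw [C_mul', coeff_smul, smul_eq_mul] at hd
  have h1 := right_ne_zero_of_mul hd
  have h2 := coeff_X_ne h1
  subst h2
  refine ⟨by simp, ?_⟩
  intro m'' hm''
  have : m'' = m' := Finset.mem_singleton.1 (Finsupp.support_single_subset hm'')
  subst this
  exact mem_MM.1 hm'

lemma homP_pull_monomial (s : ℕ) (L : MvPolynomial α ℂ →ₗ[ℂ] MvPolynomial α ℂ)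
    (d : (α →₀ ℕ) →₀ ℕ) (c : ℂ) : HomP s (Finsupp.degree d) (pull s L (monomial d c)) := by
  induction d using mono_induction with
  | h0 =>
    have e : (monomial 0 c : RR α) = C c := rfl
    rw [e, pull_C]
    intro d hd
    rw [coeff_C] at hd
    by_cases h : 0 = d
    · subst h
      simp
    · simp [h] at hd
  | hs d a' ih =>
    rw [monomial_succ, map_mul, pull_X, map_add, Finsupp.degree_single]
    exact ih.mul (homP_pullG s L a')

theorem homP_pull {a : ℕ} (s : ℕ) (L : MvPolynomial α ℂ →ₗ[ℂ] MvPolynomial α ℂ) {P : RR α}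
    (hP : Hm P a) : HomP s a (pull s L P) := by
  rw [eq_sum_monomial P, map_sum]
  apply HomP.sum
  intro d hd
  have := homP_pull_monomial s L d (coeff d P)
  rwa [hP d (mem_support_iff.1 hd)] at this

/-- Non-vanishing of the multilinear form: iterated derivatives detect coefficients. -/
lemma coeff_DD_ne : ∀ (a : ℕ) (m : Fin a → (α →₀ ℕ)) (d : (α →₀ ℕ) →₀ ℕ) (P : RR α),
    coeff (d + ∑ i, Finsupp.single (m i) 1) P ≠ 0 →
    coeff d (DD (fun i => monomial (m i) (1 : ℂ)) P) ≠ 0 := by
  intro a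
  induction a with
  | zero =>
    intro m d P h
    simpa using h
  | succ a ih =>
    intro m d P h
    rw [DD_succ, dL_monomial, one_smul]
    apply coeff_pderiv_ne'
    apply ih
    rw [Fin.sum_univ_succ, ← add_assoc] at h
    exact h

/-- If the form of a polynomial vanishes in all slots of degree `N`, the polynomial vanishes. -/
theorem eq_zero_of_Tf {N a : ℕ} {P : RR α} (hP : HomP N a P)
    (h : ∀ G : Fin a → MvPolynomial α ℂ, (∀ i, (G i).IsHomogeneous N) → Tf P a G = 0) : P = 0 := by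
  ext d
  rw [coeff_zero]
  by_contra hd
  obtain ⟨h1, h2⟩ := hP d hd
  obtain ⟨f, hf⟩ := exists_prod_X (τ := α →₀ ℕ) d a h1
  have hd' : d = rowExp f := by
    rw [prod_X_eq_monomial] at hf
    exact ((monomial_left_injective (one_ne_zero)) hf).symm
  have hfs : ∀ i, f i ∈ d.support := by
    intro i
    rw [Finsupp.mem_support_iff, hd', rowExp_apply]
    have : 0 < Fintype.card {j // f j = f i} := Fintype.card_pos_iff.2 ⟨⟨i, rfl⟩⟩
    omega
  have h3 := h (fun i => monomial (f i) 1) (by
    intro i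
    exact isHomogeneous_monomial (R := ℂ) (1 : ℂ) (h2 _ (hfs i)))
  rw [Tf_apply, constantCoeff_eq] at h3
  refine coeff_DD_ne a f 0 P ?_ h3
  rw [zero_add]
  have : ∑ i, Finsupp.single (f i) 1 = rowExp f := rfl
  rw [this, ← hd']
  exact hd

end Vale.Agent.Lib.P181
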