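import Vale.Agent.Lib.P181.LOp

/-!
The descent from `N` points to `N - 1` points, and the resulting bound.
-/

namespace Vale.Agent.Lib.P181

open MvPolynomial

set_option linter.unusedSectionVars false
set_option linter.unusedSimpArgs false

variable {σ : Type} [Fintype σ] [DecidableEq σ]

/-- There is no nonzero relation on `N` points of degree at most `A` and level below `K`. -/
def NoRel (σ : Type) [Fintype σ] [DecidableEq σ] (A N K : ℕ) : Prop :=
  ∀ (a k : ℕ) (P : RR σ), a ≤ A → k < K → Bi N a 0 k P → Rel N P → P = 0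

lemma NoRel.mono {A N K K' : ℕ} (h : NoRel σ A N K') (hK : K ≤ K') : NoRel σ A N K :=
  fun a k P ha hk => h a k P ha (by omega)

lemma bi_lower {N a k : ℕ} {P : RR σ} (h : Bi N a 1 k P) : Bi N a 0 (k - 1) P := by
  intro d hd
  obtain ⟨h1, h2, h3⟩ := h d hd
  exact ⟨h1, by omega, h3⟩

/-- A minimal relation has level at most `(a - 1) N`. -/
theorem level_le_of_minimal {A N k a : ℕ} {P : RR σ} (h2 : NoRel σ A N k) (ha : a ≤ A)
    (hP : Bi N a 0 k P) (hR : Rel N P) (hne : P ≠ 0) : k ≤ (a - 1) * N := by
  by_cases hk : k = 0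
  · subst hk; simp
  have hL : ∀ b : σ, Lop N b P = 0 := fun b =>
    h2 a (k - 1) _ ha (by omega) (bi_lower (bi_Lop hP b)) (rel_Lop hR b)
  have h0 : pderiv (0 : σ →₀ ℕ) P ≠ 0 := by
    intro h00
    have hall : ∀ t, t ≤ N → ∀ m : σ →₀ ℕ, Finsupp.degree m = t → pderiv m P = 0 := by
      intro t
      induction t with
      | zero =>
        intro _ m hm
        rw [(Finsupp.degree_eq_zero_iff m).1 hm]
        exact h00
      | succ t ih =>
        intro ht m hm
        have hne : m ≠ 0 := by
          rintro rfl
          simp at hm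
        obtain ⟨b, hb⟩ : ∃ b, m b ≠ 0 := by
          by_contra hcon
          push Not at hcon
          exact hne (Finsupp.ext hcon)
        have h3 := degree_sub_single hb
        have h4 := ih (by omega) (m - Finsupp.single b 1) (by omega)
        have h5 := comm_Lop N b (m - Finsupp.single b 1) P
        rw [hL b, h4, map_zero, map_zero, zero_add] at h5
        have h6 : (m - Finsupp.single b 1) + Finsupp.single b 1 = m := by
          apply tsub_add_cancel_of_le
          rw [Finsupp.single_le_iff]
          exact Nat.one_le_iff_ne_zero.2 hb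
        rw [h6] at h5
        have h7 : ((N : ℂ) - ((Finsupp.degree (m - Finsupp.single b 1) : ℕ) : ℂ)) ≠ 0 := by
          rw [sub_ne_zero]
          have : (Finsupp.degree (m - Finsupp.single b 1)) ≠ N := by omega
          exact_mod_cast this.symm
        have h8 := mul_eq_zero.1 h5.symm
        rcases h8 with h8 | h8
        · exact absurd ((C_eq_zero).1 h8) h7
        · exact h8
    have hv : P.vars = ∅ := by
      by_contra hcon
      obtain ⟨m, hm⟩ := Finset.nonempty_iff_ne_empty.2 hcon
      exact pderiv_ne_zero_of_mem_vars hm (hall _ (hP.vars hm) m rfl)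
    obtain ⟨d, hd⟩ : ∃ d, coeff d P ≠ 0 := by
      by_contra hcon
      push Not at hcon
      exact hne (MvPolynomial.ext _ _ (by simpa using hcon))
    have hd0 : d = 0 := by
      ext m
      by_contra hm
      have : m ∈ P.vars := (mem_vars_iff_mem_support m).2
        ⟨d, mem_support_iff.2 hd, Finsupp.mem_support_iff.2 hm⟩
      rw [hv] at this
      simp at this
    subst hd0
    have := (hP 0 hd).2.1
    simp at this
    omega
  obtain ⟨d', hd'⟩ : ∃ d, coeff d (pderiv (0 : σ →₀ ℕ) P) ≠ 0 := by
    by_contra hcon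
    push Not at hcon
    exact h0 (MvPolynomial.ext _ _ (by simpa using hcon))
  obtain ⟨h3, h4, h5⟩ := hP _ (coeff_pderiv_ne hd')
  rw [map_add, Finsupp.degree_single] at h3
  rw [wt_add, wt_single] at h4
  have h6 : wt d' ≤ Finsupp.degree d' * N := by
    apply wt_le_mul
    intro m hm
    apply h5
    rw [Finsupp.mem_support_iff] at hm ⊢
    simp only [Finsupp.coe_add, Pi.add_apply]
    omega
  simp at h4
  have h7 : Finsupp.degree d' = a - 1 := by omega
  rw [h7] at h6
  omega

/-- The number of parts of degree at least `A`, with multiplicity. -/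
noncomputable def bigC (A : ℕ) (d : (σ →₀ ℕ) →₀ ℕ) : ℕ :=
  Finsupp.weight (fun m : σ →₀ ℕ => if A ≤ Finsupp.degree m then 1 else 0) d

lemma bigC_add_single (A : ℕ) (d : (σ →₀ ℕ) →₀ ℕ) {m : σ →₀ ℕ} (hm : A ≤ Finsupp.degree m) :
    bigC A (d + Finsupp.single m 1) = bigC A d + 1 := by
  simp [bigC, Finsupp.weight_single, hm]

lemma wt_le_bigC {A N : ℕ} (d : (σ →₀ ℕ) →₀ ℕ) (h : ∀ m ∈ d.support, Finsupp.degree m ≤ N) :
    wt d ≤ bigC A d * N + Finsupp.degree d * (A - 1) := by
  unfold wt bigC
  rw [Finsupp.weight_apply, Finsupp.weight_apply, Finsupp.degree_apply]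
  simp only [Finsupp.sum, smul_eq_mul, Finset.sum_mul]
  rw [← Finset.sum_add_distrib]
  apply Finset.sum_le_sum
  intro m hm
  by_cases hb : A ≤ Finsupp.degree m
  · simp only [hb, if_true, mul_one]
    have := Nat.mul_le_mul_left (d m) (h m hm)
    nlinarith [Nat.zero_le (d m * (A - 1))]
  · simp only [hb, if_false, mul_zero, zero_mul, zero_add]
    exact Nat.mul_le_mul_left (d m) (by omega)

lemma exists_big_of_bigC {A : ℕ} {d : (σ →₀ ℕ) →₀ ℕ} (h : 1 ≤ bigC A d) :
    ∃ m ∈ d.support, A ≤ Finsupp.degree m := by
  by_contra hcon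
  push Not at hcon
  have : bigC A d = 0 := by
    unfold bigC
    rw [Finsupp.weight_apply]
    apply Finset.sum_eq_zero
    intro m hm
    have := hcon m hm
    simp [not_le.2 this]
  omega

/-- The descent through the parts of large degree. -/
theorem desc {D r A : ℕ} (hA : A * (A - 1) ≤ D + 1) (hr : 1 ≤ r) :
    ∀ (j e u : ℕ) (E : RR σ) (d : (σ →₀ ℕ) →₀ ℕ), e = r + j → e ≤ A → Hm E e → Lv E u →
      (∀ m ∈ E.vars, Finsupp.degree m ≤ D + 1) → Nil D r E → coeff d E ≠ 0 →
      (∀ m ∈ d.support, m ≠ 0) → j ≤ bigC A d → False := by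
  intro j
  induction j with
  | zero =>
    intro e u E d he heA hH hL hv hN hd hpart _
    have hu : 0 < u := by
      rw [← hL d hd]
      have hdne : d ≠ 0 := by
        rintro rfl
        have := hH 0 hd
        simp at this
        omega
      obtain ⟨m, hm⟩ : ∃ m, d m ≠ 0 := by
        by_contra hcon
        push Not at hcon
        exact hdne (Finsupp.ext hcon)
      have hm' := Finsupp.mem_support_iff.2 hm
      have h1 := degree_le_wt d m hm'
      have h2 : Finsupp.degree m ≠ 0 := fun h => hpart m hm' ((Finsupp.degree_eq_zero_iff m).1 h)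
      omega
    have hbig : e * (e - 1) ≤ D + 1 :=
      (Nat.mul_le_mul heA (Nat.sub_le_sub_right heA 1)).trans hA
    have := Nil.eq_zero_of_level hH hL hu (by omega) hbig hv hN
    rw [this] at hd
    simp at hd
  | succ j ih =>
    intro e u E d he heA hH hL hv hN hd hpart hj
    obtain ⟨m, hm, hmA⟩ := exists_big_of_bigC (A := A) (d := d) (by omega)
    have h1 : Finsupp.single m 1 ≤ d := by
      rw [Finsupp.single_le_iff]
      exact Nat.one_le_iff_ne_zero.2 (Finsupp.mem_support_iff.1 hm)
    have h2 : (d - Finsupp.single m 1) + Finsupp.single m 1 = d := tsub_add_cancel_of_le h1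
    have hmv : m ∈ E.vars := (mem_vars_iff_mem_support m).2 ⟨d, mem_support_iff.2 hd, hm⟩
    apply ih (e - 1) (u - Finsupp.degree m) (pderiv m E) (d - Finsupp.single m 1) (by omega)
      (by omega) (hH.pderiv m) (hL.pderiv m) (fun n hn => hv n (vars_pderiv_sub hn))
      (hN.pderiv hH heA (by omega) hmA (hv m hmv))
    · apply coeff_pderiv_ne'
      rw [h2]
      exact hd
    · intro n hn
      apply hpart
      rw [Finsupp.mem_support_iff] at hn ⊢
      have := DFunLike.congr_fun h2 n
      simp only [Finsupp.coe_add, Pi.add_apply] at this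
      omega
    · have := bigC_add_single A (d - Finsupp.single m 1) hmA
      rw [h2] at this
      omega

/-- **The descent step.** -/
theorem step {A N K' k p : ℕ} (hN : 1 ≤ N) (hAN : A * (A - 1) ≤ N)
    (h1 : NoRel σ A (N - 1) K') (h2 : NoRel σ A N k) (hp0 : 1 ≤ p)
    (hp : (p - 1) * N + A * (A - 1) < k) (hk : k < K' + p + 1) :
    ∀ a, a ≤ A → ∀ P : RR σ, Bi N a 0 k P → Rel N P → P = 0 := by
  obtain ⟨D, rfl⟩ : ∃ D, N = D + 1 := ⟨N - 1, by omega⟩
  simp only [Nat.add_sub_cancel] at h1
  intro a
  induction a with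
  | zero =>
    intro ha P hP hR
    by_contra hne
    have := level_le_of_minimal h2 ha hP hR hne
    simp at this
    omega
  | succ a ih =>
    intro ha P hP hR
    by_contra hne
    have hbound := level_le_of_minimal h2 ha hP hR hne
    simp only [Nat.add_sub_cancel] at hbound
    have hpa : p < a + 1 := by
      by_contra hcon
      have : a * (D + 1) ≤ (p - 1) * (D + 1) := Nat.mul_le_mul_right _ (by omega)
      omega
    -- a monomial without the variable `X_0`
    obtain ⟨d, hd, hd0⟩ : ∃ d, coeff d P ≠ 0 ∧ d 0 = 0 := by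
      by_contra hcon
      push Not at hcon
      have hdvd : (X 0 : RR σ) ∣ P := by
        rw [X_dvd_iff_modMonomial_eq_zero]
        ext d
        rw [coeff_zero]
        by_cases hle : Finsupp.single 0 1 ≤ d
        · rw [coeff_modMonomial_of_le _ hle]
        · rw [coeff_modMonomial_of_not_le _ hle]
          by_contra hne2
          apply hle
          rw [Finsupp.single_le_iff]
          exact Nat.one_le_iff_ne_zero.2 (hcon d hne2)
      obtain ⟨P', rfl⟩ := hdvd
      have hP' : Bi (D + 1) a 0 k P' := by
        intro d' hd'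
        have : coeff (Finsupp.single 0 1 + d') (X 0 * P') ≠ 0 := by
          rw [coeff_X_mul]
          exact hd'
        obtain ⟨h3, h4, h5⟩ := hP _ this
        rw [map_add, Finsupp.degree_single] at h3
        rw [wt_add, wt_single] at h4
        refine ⟨by omega, by simpa using h4, ?_⟩
        intro m hm
        apply h5
        rw [Finsupp.mem_support_iff] at hm ⊢
        simp only [Finsupp.coe_add, Pi.add_apply]
        omega
      have hR' : Rel (D + 1) P' := by
        intro l hl
        have := hR l hl
        rwa [evF_mul, evF_X, coeff_zero_prodForm, one_mul] at this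
      have := ih (by omega) P' hP' hR'
      rw [this, mul_zero] at hne
      exact hne rfl
    -- membership in the family
    have hQ : ∀ ν : Option σ →₀ ℕ, ν none < a + 1 - p → Qn D P ν = 0 := by
      intro ν hν
      by_contra hne2
      obtain ⟨h3, h4, h5⟩ := bi_Qn hP ν hne2
      have h6 := degree_eq_none_add_ylev ν
      exact hne2 (h1 (a + 1) (k - ylev ν) _ ha (by omega) h4 (rel_Qn hP.hm hR ν))
    have hNil : Nil D (a + 1 - p) P := nil_of_Qn hQ
    have hbig : ¬ p ≤ bigC A d := fun hle =>
      desc (D := D) (r := a + 1 - p) (A := A) (by omega) (by omega) p (a + 1) k P d (by omega) ha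
        hP.hm hP.lv (fun m hm => hP.vars hm) hNil hd
        (by
          intro m hm h00
          subst h00
          exact (Finsupp.mem_support_iff.1 hm) hd0) hle
    have hw := wt_le_bigC (A := A) (N := D + 1) d (hP d hd).2.2
    have hw2 : wt d = k := hP.lv d hd
    have hw3 : Finsupp.degree d = a + 1 := (hP d hd).1
    rw [hw2, hw3] at hw
    have h8 : bigC A d * (D + 1) ≤ (p - 1) * (D + 1) := Nat.mul_le_mul_right _ (by omega)
    have h9 : (a + 1) * (A - 1) ≤ A * (A - 1) := Nat.mul_le_mul_right _ ha
    omega

lemma noRel_extend {A N K K₀ : ℕ} (h0 : NoRel σ A N K₀)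
    (hstep : ∀ k, K₀ ≤ k → k < K → NoRel σ A N k →
      ∀ a, a ≤ A → ∀ P : RR σ, Bi N a 0 k P → Rel N P → P = 0) : NoRel σ A N K := by
  induction K with
  | zero => intro a k P _ hk; omega
  | succ K ih =>
    have hK : NoRel σ A N K := ih (fun k h1 h2 h3 => hstep k h1 (by omega) h3)
    intro a k P ha hk hP hR
    by_cases hk2 : k < K
    · exact hK a k P ha hk2 hP hR
    · have : k = K := by omega
      subst this
      by_cases hk3 : k < K₀
      · exact h0 a k P ha hk3 hP hR
      · exact hstep k (by omega) (by omega) hK a ha P hP hR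

lemma noRel_base (A N : ℕ) : NoRel σ A N (N + 1) := by
  intro a k P _ hk hP hR
  exact claim0 N k a P hP (by omega) hR

lemma loop0 (A j : ℕ) : NoRel σ A (A * (A - 1) + j) (A * (A - 1) + 1 + 2 * j) := by
  induction j with
  | zero => simpa using noRel_base A (A * (A - 1))
  | succ j ih =>
    apply noRel_extend (noRel_base A _)
    intro k hk1 hk2 hk3
    exact step (N := A * (A - 1) + (j + 1)) (K' := A * (A - 1) + 1 + 2 * j) (p := 1)
      (by omega) (by omega) (by simpa [← add_assoc] using ih) hk3 (by omega) (by omega) (by omega)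

lemma A_zero (A N : ℕ) (hN : 2 * (A * (A - 1)) ≤ N) :
    NoRel σ A N (N + A * (A - 1) + 1) := by
  have h := loop0 (σ := σ) A (N - A * (A - 1))
  have e : A * (A - 1) + (N - A * (A - 1)) = N := by omega
  rw [e] at h
  exact h.mono (by omega)

/-- The bound on the level, improving with the size of `N`. -/
theorem A_i (A i : ℕ) : ∀ N, 2 ^ (i + 1) * (A * (A - 1)) ≤ N →
    NoRel σ A N ((i + 1) * N + A * (A - 1) + 1) := by
  induction i with
  | zero =>
    intro N hN
    have := A_zero (σ := σ) A N (by simpa using hN)
    simpa using this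
  | succ i ih =>
    intro N hN
    set c := A * (A - 1) with hc
    set N' := N / 2 with hN'
    have hpow : 2 ^ (i + 1 + 1) * c = 2 * (2 ^ (i + 1) * c) := by
      rw [pow_succ]; ring
    have hN'1 : 2 ^ (i + 1) * c ≤ N' := by
      rw [hN', Nat.le_div_iff_mul_le (by omega)]
      omega
    have hcle : c ≤ 2 ^ (i + 1) * c := Nat.le_mul_of_pos_left _ (by positivity)
    have hsub : ∀ j, N' + j ≤ N →
        NoRel σ A (N' + j) ((i + 1) * N' + c + 1 + (i + 3) * j) := by
      intro j
      induction j with
      | zero =>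
        intro _
        simpa using ih N' hN'1
      | succ j ihj =>
        intro hj
        have hstepN : N' + (j + 1) = (N' + j) + 1 := by omega
        apply noRel_extend (ih (N' + (j + 1)) (by omega))
        intro k hk1 hk2 hk3
        apply step (N := N' + (j + 1)) (K' := (i + 1) * N' + c + 1 + (i + 3) * j) (p := i + 2)
          (by omega) (by omega) _ hk3 (by omega)
        · simpa using hk1
        · have : (i + 3) * (j + 1) = (i + 3) * j + (i + 3) := by ring
          omega
        · have e : N' + (j + 1) - 1 = N' + j := by omega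
          rw [e]
          exact ihj (by omega)
    obtain ⟨M, hM⟩ : ∃ M, N = N' + M := ⟨N - N', by omega⟩
    have hMle : N' ≤ M := by omega
    have h := hsub M (by omega)
    rw [← hM] at h
    apply h.mono
    rw [hM]
    nlinarith

/-- **The main core theorem.** For `N ≥ 2 ^ (A - 1) * A * (A - 1)` there is no nonzero relation on
`N` points of degree at most `A`. -/
theorem noRel_all {A N : ℕ} (hA : 1 ≤ A) (hN : 2 ^ (A - 1) * (A * (A - 1)) ≤ N) :
    ∀ (a k : ℕ) (P : RR σ), a ≤ A → Bi N a 0 k P → Rel N P → P = 0 := by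
  have h1 : NoRel σ A N ((A - 1) * N + 1) := by
    by_cases hA1 : A = 1
    · subst hA1
      have := noRel_base (σ := σ) 1 N
      exact this.mono (by simp)
    · obtain ⟨i, rfl⟩ : ∃ i, A = i + 2 := ⟨A - 2, by omega⟩
      have := A_i (σ := σ) (i + 2) i N (by simpa using hN)
      apply this.mono
      simp only [Nat.add_succ_sub_one]
      omega
  intro a k P ha hP hR
  have h2 : NoRel σ A N (k + 1) := by
    apply noRel_extend h1
    intro k' hk1 _ hk3 a' ha' P' hP' hR'
    by_contra hne
    have h3 := level_le_of_minimal hk3 ha' hP' hR' hne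
    have h4 : (a' - 1) * N ≤ (A - 1) * N := Nat.mul_le_mul_right _ (by omega)
    omega
  exact h2 a k P ha (by omega) hP hR

end Vale.Agent.Lib.P181
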