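import Vale.Agent.Lib.P181.Basic

/-!
The structure lemma: if `P` vanishes on the family of products `(ε + ℓ) g` (with `ε` nilpotent of
order `r`) then so do its derivatives in the variables of large degree.
-/

namespace Vale.Agent.Lib.P181

open MvPolynomial

variable {σ : Type} [Fintype σ]

/-- Polarization: a functional killing all `n`-th powers of linear forms kills all monomials of
degree `n`. -/
theorem polar [DecidableEq σ] (lam : MvPolynomial σ ℂ →ₗ[ℂ] ℂ) (n : ℕ)
    (H : ∀ Y : σ → ℂ, lam ((lin 0 Y) ^ n) = 0) :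
    ∀ m : σ →₀ ℕ, Finsupp.degree m = n → lam (monomial m 1) = 0 := by
  have key : ∀ t, t ≤ n → ∀ m : σ →₀ ℕ, Finsupp.degree m = t → ∀ Y : σ → ℂ,
      lam ((lin 0 Y) ^ (n - t) * monomial m 1) = 0 := by
    intro t
    induction t with
    | zero =>
      intro _ m hm Y
      have : m = 0 := (Finsupp.degree_eq_zero_iff m).1 hm
      subst this
      simpa using H Y
    | succ t ih =>
      intro ht m hm Y
      have hne : m ≠ 0 := by
        rintro rfl
        simp at hm
      obtain ⟨a, ha⟩ : ∃ a, m a ≠ 0 := by
        by_contra hcon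
        push Not at hcon
        exact hne (Finsupp.ext hcon)
      set m' : σ →₀ ℕ := m - Finsupp.single a 1 with hm'
      have hmm : m = m' + Finsupp.single a 1 := by
        rw [hm']
        ext i
        by_cases hi : i = a
        · subst hi
          simp only [Finsupp.coe_add, Finsupp.coe_tsub, Pi.add_apply, Pi.sub_apply,
            Finsupp.single_eq_same]
          omega
        · simp [Ne.symm hi]
      have hdeg : Finsupp.degree m' = t := by
        have := congrArg Finsupp.degree hmm
        rw [map_add, Finsupp.degree_single] at this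
        omega
      set k := n - t with hk
      have hk1 : 1 ≤ k := by omega
      set A : MvPolynomial σ ℂ := lin 0 Y with hA
      set B : MvPolynomial σ ℂ := X a with hB
      set M : MvPolynomial σ ℂ := monomial m' 1 with hM
      have hlin : ∀ c : ℂ, lin 0 (fun j => Y j + c * (Finsupp.single a (1 : ℂ)) j) =
          C c * B + A := by
        intro c
        simp only [lin, map_zero, zero_add, hA, hB, C_add, add_mul, Finset.sum_add_distrib,
          C_mul, Finsupp.single_apply]
        rw [add_comm]
        congr 1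
        rw [Finset.sum_eq_single a]
        · simp
        · intro b _ hb
          simp [Ne.symm hb]
        · simp
      let coef : ℕ → ℂ := fun j => (k.choose j : ℂ) * lam (B ^ j * A ^ (k - j) * M)
      let q : Polynomial ℂ := ∑ j ∈ Finset.range (k + 1), Polynomial.monomial j (coef j)
      have hq : q = 0 := by
        apply Polynomial.funext
        intro c
        have h1 := ih (by omega) m' hdeg (fun j => Y j + c * (Finsupp.single a (1 : ℂ)) j)
        rw [hlin c, add_pow, Finset.sum_mul, map_sum] at h1
        simp only [q, Polynomial.eval_finsetSum, Polynomial.eval_monomial, Polynomial.eval_zero]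
        rw [← h1]
        apply Finset.sum_congr rfl
        intro j _
        have : (C c * B) ^ j * A ^ (k - j) * ((k.choose j : ℕ) : MvPolynomial σ ℂ) * M =
            (c ^ j * (k.choose j : ℂ)) • (B ^ j * A ^ (k - j) * M) := by
          rw [smul_eq_C_mul, mul_pow, C_mul, C_pow]
          simp only [map_natCast]
          ring
        rw [this, map_smul, smul_eq_mul]
        simp only [coef]
        ring
      have h2 : coef 1 = 0 := by
        have := congrArg (fun p => Polynomial.coeff p 1) hq
        simp only [q, Polynomial.finsetSum_coeff, Polynomial.coeff_monomial, Polynomial.coeff_zero]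
          at this
        rw [Finset.sum_ite_eq' ] at this
        simpa [hk1, Nat.lt_succ_of_le hk1] using this
      simp only [coef, Nat.choose_one_right, pow_one] at h2
      have hk0 : (k : ℂ) ≠ 0 := by
        exact_mod_cast (by omega : k ≠ 0)
      have h3 := (mul_eq_zero.1 h2).resolve_left hk0
      have e : n - (t + 1) = k - 1 := by omega
      rw [e, hmm]
      have e2 : (monomial (m' + Finsupp.single a 1) (1 : ℂ) : MvPolynomial σ ℂ) = M * B := by
        simp [hM, hB, X, monomial_mul]
      rw [e2]
      have e3 : A ^ (k - 1) * (M * B) = B * A ^ (k - 1) * M := by ring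
      rw [e3]
      exact h3
  intro m hm
  have := key n le_rfl m hm 0
  simpa using this

lemma exists_le_degree_eq [DecidableEq σ] (m : σ →₀ ℕ) (t : ℕ) (ht : t ≤ Finsupp.degree m) :
    ∃ m₁ : σ →₀ ℕ, m₁ ≤ m ∧ Finsupp.degree m₁ = t := by
  induction t with
  | zero => exact ⟨0, by simp, by simp⟩
  | succ t ih =>
    obtain ⟨m₁, h1, h2⟩ := ih (by omega)
    have : ∃ i, m₁ i < m i := by
      by_contra hcon
      push Not at hcon
      have : m₁ = m := le_antisymm h1 hcon
      subst this
      omega
    obtain ⟨i, hi⟩ := this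
    refine ⟨m₁ + Finsupp.single i 1, ?_, by rw [map_add, Finsupp.degree_single, h2]⟩
    intro j
    by_cases hj : j = i
    · subst hj
      simpa using hi
    · simpa [Finsupp.single_apply, Ne.symm hj] using h1 j

lemma lin_add_mul {T : Type} [CommRing T] (a c : T) (u v : σ → T) :
    lin a (fun j => u j + c * v j) = lin a u + C c * lin 0 v := by
  simp only [lin, map_zero, zero_add, map_add, map_mul, add_mul, Finset.sum_add_distrib,
    Finset.mul_sum, add_assoc, mul_assoc]

lemma pow_decomp {B : Type} [CommRing B] (al : B) (x yy : MvPolynomial σ B) (q : ℕ) (hq : 1 ≤ q)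
    (hx : x.totalDegree ≤ 1) (hyy : yy.totalDegree ≤ 1) :
    ∃ e : MvPolynomial σ B, e.totalDegree ≤ q - 1 ∧
      x ^ q = C ((-al) ^ q) * yy ^ q + (x + C al * yy) * e := by
  set y : MvPolynomial σ B := C (-al) * yy with hy
  refine ⟨∑ i ∈ Finset.range q, x ^ i * y ^ (q - 1 - i), ?_, ?_⟩
  · have hdegy : y.totalDegree ≤ 1 := by
      apply (totalDegree_mul _ _).trans
      simpa using hyy
    apply totalDegree_finsetSum_le
    intro i hi
    have hi' := Finset.mem_range.1 hi
    apply (totalDegree_mul _ _).trans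
    have h1 := totalDegree_pow x i
    have h2 := totalDegree_pow y (q - 1 - i)
    have h3 : i * x.totalDegree ≤ i * 1 := Nat.mul_le_mul_left _ hx
    have h4 : (q - 1 - i) * y.totalDegree ≤ (q - 1 - i) * 1 := Nat.mul_le_mul_left _ hdegy
    omega
  · have hgeom := (Commute.all x y).geom_sum₂_mul q
    have h1 : x - y = x + C al * yy := by
      rw [hy, map_neg]; ring
    rw [h1] at hgeom
    have h2 : y ^ q = C ((-al) ^ q) * yy ^ q := by
      rw [hy, mul_pow, map_pow]
    rw [← h2]
    rw [mul_comm (x + C al * yy), hgeom]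
    ring

/-- The algebra homomorphism setting the formal parameter to zero. -/
noncomputable def atZero (S : Type) [CommRing S] [Algebra ℂ S] : Polynomial S →ₐ[ℂ] S :=
  (Polynomial.aeval (0 : S)).restrictScalars ℂ

@[simp] lemma atZero_C {S : Type} [CommRing S] [Algebra ℂ S] (s : S) :
    atZero S (Polynomial.C s) = s := by
  simp [atZero]

@[simp] lemma atZero_X {S : Type} [CommRing S] [Algebra ℂ S] :
    atZero S (Polynomial.X) = 0 := by
  simp [atZero]

omit [Fintype σ] in
lemma map_atZero_map_C {S : Type} [CommRing S] [Algebra ℂ S] (f : MvPolynomial σ S) :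
    map ((atZero S : Polynomial S →ₐ[ℂ] S) : Polynomial S →+* S)
      (map Polynomial.C f) = f := by
  rw [map_map]
  have : ((atZero S : Polynomial S →ₐ[ℂ] S) : Polynomial S →+* S).comp Polynomial.C =
      RingHom.id S := by
    ext s
    simp
  rw [this, map_id]

/-- The core computation of the structure lemma. -/
theorem Nil.core {D r a q : ℕ} {P : RR σ} (hP : Hm P a) (ha : a ≤ q) (hq : 1 ≤ q)
    (h : Nil D r P) {S : Type} [CommRing S] [Algebra ℂ S] (ε : S) (hε : ε ^ r = 0)
    (U Y : σ → S) (g W : MvPolynomial σ S) (hg : g.totalDegree ≤ D)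
    (hW : W.totalDegree + q ≤ D + 1) :
    grad P (lin ε U * g) ((lin 0 Y) ^ q * W) = 0 := by
  classical
  obtain ⟨ι, hι⟩ : ∃ ι : MvPolynomial σ S →+* MvPolynomial σ (Polynomial S),
      ι = map Polynomial.C := ⟨_, rfl⟩
  obtain ⟨x, hx⟩ : ∃ x : MvPolynomial σ (Polynomial S), x = ι (lin ε U) := ⟨_, rfl⟩
  obtain ⟨yy, hyy⟩ : ∃ yy : MvPolynomial σ (Polynomial S), yy = ι (lin 0 Y) := ⟨_, rfl⟩
  have hdegx : x.totalDegree ≤ 1 := by
    rw [hx, hι]; exact (totalDegree_map_le' _ _).trans (totalDegree_lin_le _ _)
  have hdegyy : yy.totalDegree ≤ 1 := by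
    rw [hyy, hι]; exact (totalDegree_map_le' _ _).trans (totalDegree_lin_le _ _)
  obtain ⟨L, hL⟩ : ∃ L : MvPolynomial σ (Polynomial S), L = x + C Polynomial.X * yy := ⟨_, rfl⟩
  have hL' : L = lin (Polynomial.C ε)
      (fun j => Polynomial.C (U j) + Polynomial.X * Polynomial.C (Y j)) := by
    rw [lin_add_mul, hL, hx, hyy, hι, map_lin, map_lin]
    simp
  obtain ⟨e, he1, he2⟩ := pow_decomp (Polynomial.X : Polynomial S) x yy q hq hdegx hdegyy
  rw [← hL] at he2
  obtain ⟨G, hG⟩ : ∃ G : MvPolynomial σ (Polynomial S), G = L * ι g := ⟨_, rfl⟩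
  have hT : ∀ h' : MvPolynomial σ (Polynomial S), h'.totalDegree ≤ D → grad P G (L * h') = 0 := by
    intro h' hh'
    rw [hG, hL']
    apply h.grad_lin_mul (Polynomial.C ε) _ _ _ _ _ hh'
    · rw [← map_pow, hε, map_zero]
    · rw [hι]; exact (totalDegree_map_le' _ _).trans hg
  have hwdeg : (ι W).totalDegree ≤ W.totalDegree := by
    rw [hι]; exact totalDegree_map_le' _ _
  have hpr : grad P G (x ^ q * ι W) = (- Polynomial.X) ^ q * grad P G (yy ^ q * ι W) := by
    have h1 : x ^ q * ι W = C ((- Polynomial.X) ^ q) * (yy ^ q * ι W) + L * (e * ι W) := by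
      rw [he2]; ring
    rw [h1, grad_add_right, grad_C_mul_right, hT, add_zero]
    apply (totalDegree_mul _ _).trans
    omega
  have hGc : ∀ m, (coeff m G).natDegree ≤ 1 := by
    intro m
    have : G = ι (lin ε U * g) + C Polynomial.X * ι (lin 0 Y * g) := by
      rw [hG, hL, hx, hyy, map_mul, map_mul]
      ring
    rw [this, coeff_add, coeff_C_mul, hι, coeff_map, coeff_map]
    exact natDegree_line_le _ _ m
  have hhc : ∀ m, (coeff m (x ^ q * ι W)).natDegree = 0 := by
    intro m
    have : x ^ q * ι W = ι ((lin ε U) ^ q * W) := by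
      rw [hx, map_mul, map_pow]
    rw [this, hι, coeff_map]
    simp
  have hpdeg : (grad P G (x ^ q * ι W)).natDegree ≤ a - 1 := natDegree_grad_le hP G _ hGc hhc
  have hrr : grad P G (yy ^ q * ι W) = 0 := by
    ext i
    have h1 : (grad P G (x ^ q * ι W)).coeff (i + q) = 0 :=
      Polynomial.coeff_eq_zero_of_natDegree_lt (by omega)
    have h2 : (- Polynomial.X : Polynomial S) ^ q =
        Polynomial.C ((-1) ^ q) * Polynomial.X ^ q := by
      rw [neg_pow]; simp
    rw [hpr, h2, mul_assoc, Polynomial.coeff_C_mul, Polynomial.coeff_X_pow_mul] at h1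
    have hu : IsUnit ((-1 : S) ^ q) := (isUnit_one.neg).pow q
    simpa using (hu.mul_right_eq_zero).1 h1
  have hfinal := congrArg (atZero S) hrr
  rw [grad_map, map_zero] at hfinal
  have e1 : map ((atZero S : Polynomial S →ₐ[ℂ] S) : Polynomial S →+* S) G = lin ε U * g := by
    rw [hG, hL, hx, hyy, hι, map_mul, map_add, map_mul, map_atZero_map_C, map_atZero_map_C,
      map_atZero_map_C, map_C]
    simp
  have e2 : map ((atZero S : Polynomial S →ₐ[ℂ] S) : Polynomial S →+* S) (yy ^ q * ι W) =
      (lin 0 Y) ^ q * W := by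
    rw [hyy, hι, map_mul, map_pow, map_atZero_map_C, map_atZero_map_C]
  rwa [e1, e2] at hfinal

/-- **The structure lemma.** If `P` vanishes on the family then so does each derivative of `P` in
a variable `X_m` with `m` of large degree. -/
theorem Nil.pderiv [DecidableEq σ] {D r a q : ℕ} {P : RR σ} (hP : Hm P a) (ha : a ≤ q) (hq : 1 ≤ q)
    (h : Nil D r P) {m : σ →₀ ℕ} (hm1 : q ≤ Finsupp.degree m) (hm2 : Finsupp.degree m ≤ D + 1) :
    Nil D r (pderiv m P) := by
  intro S _ _ ε hε ℓ g hg
  obtain ⟨m₁, hm₁, hm₁d⟩ := exists_le_degree_eq m q hm1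
  obtain ⟨m₂, hm₂⟩ : ∃ m₂, m = m₁ + m₂ := ⟨m - m₁, (add_tsub_cancel_of_le hm₁).symm⟩
  have hm₂d : Finsupp.degree m₁ + Finsupp.degree m₂ = Finsupp.degree m := by
    rw [hm₂, map_add]
  -- the functional on forms over the complex numbers
  apply (Module.forall_dual_apply_eq_zero_iff ℂ _).1
  intro φ
  let Lam : MvPolynomial σ ℂ →ₗ[ℂ] ℂ :=
    { toFun := fun f => φ (grad P (lin ε ℓ * g)
        (map (algebraMap ℂ S) f * monomial m₂ (1 : S)))
      map_add' := by
        intro f f'
        rw [map_add, add_mul, grad_add_right, map_add]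
      map_smul' := by
        intro c f
        have : map (algebraMap ℂ S) (c • f) * monomial m₂ (1 : S) =
            C (algebraMap ℂ S c) * (map (algebraMap ℂ S) f * monomial m₂ (1 : S)) := by
          rw [smul_eq_C_mul, map_mul, map_C]
          ring
        rw [this, grad_C_mul_right, ← Algebra.smul_def, map_smul]
        rfl }
  have hW : (monomial m₂ (1 : S) : MvPolynomial σ S).totalDegree + q ≤ D + 1 := by
    have := totalDegree_monomial_le (R := S) m₂ (1 : S)
    have h2 : (m₂.sum fun _ => id) = Finsupp.degree m₂ := rfl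
    omega
  have key := polar Lam q (by
    intro Y
    show φ (grad P (lin ε ℓ * g) (map (algebraMap ℂ S) ((lin 0 Y) ^ q) * monomial m₂ (1 : S))) = 0
    rw [map_pow, map_lin, map_zero]
    rw [Nil.core hP ha hq h ε hε ℓ _ g _ hg hW, map_zero]) m₁ hm₁d
  have e : map (algebraMap ℂ S) (monomial m₁ (1 : ℂ)) * monomial m₂ (1 : S) =
      (monomial m (1 : S) : MvPolynomial σ S) := by
    rw [map_monomial, monomial_mul, hm₂]
    simp
  show φ (evF (MvPolynomial.pderiv m P) (lin ε ℓ * g)) = 0
  have : φ (grad P (lin ε ℓ * g) (monomial m (1 : S))) = 0 := by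
    rw [← e]
    exact key
  rwa [grad_monomial, one_mul] at this

end Vale.Agent.Lib.P181
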