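import Vale.Agent.Lib.P181.Inv

/-!
Removal of a factor: the universal polynomial `Th D P`, whose coefficients are the polynomials
`Q_ν`, their properties, and the freeness theorem in low level.
-/

namespace Vale.Agent.Lib.P181

open MvPolynomial

set_option linter.unusedSectionVars false
set_option linter.unusedSimpArgs false

variable {σ : Type}

/-- Combined degree data: all monomials have degree `a`, level `k - s` and parts of degree at
most `N`. -/
def Bi (N a s k : ℕ) (P : RR σ) : Prop :=
  ∀ d, coeff d P ≠ 0 → Finsupp.degree d = a ∧ wt d + s = k ∧ ∀ m ∈ d.support, Finsupp.degree m ≤ N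

lemma exists_of_coeff_mul_ne_zero {τ R : Type} [CommSemiring R] {A B : MvPolynomial τ R}
    {d : τ →₀ ℕ} (h : coeff d (A * B) ≠ 0) :
    ∃ d₁ d₂, d₁ + d₂ = d ∧ coeff d₁ A ≠ 0 ∧ coeff d₂ B ≠ 0 := by
  classical
  rw [coeff_mul] at h
  obtain ⟨x, hx, hx2⟩ := Finset.exists_ne_zero_of_sum_ne_zero h
  refine ⟨x.1, x.2, Finset.HasAntidiagonal.mem_antidiagonal.1 hx, left_ne_zero_of_mul hx2, right_ne_zero_of_mul hx2⟩

lemma support_add_cases [DecidableEq σ] {d₁ d₂ : (σ →₀ ℕ) →₀ ℕ} {m : σ →₀ ℕ}
    (h : m ∈ (d₁ + d₂).support) : m ∈ d₁.support ∨ m ∈ d₂.support := by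
  have := Finsupp.support_add h
  simpa using this

lemma Bi.mul [DecidableEq σ] {N a s k a' s' k' : ℕ} {P Q : RR σ} (hP : Bi N a s k P)
    (hQ : Bi N a' s' k' Q) : Bi N (a + a') (s + s') (k + k') (P * Q) := by
  intro d hd
  obtain ⟨d₁, d₂, rfl, h1, h2⟩ := exists_of_coeff_mul_ne_zero hd
  obtain ⟨a1, a2, a3⟩ := hP d₁ h1
  obtain ⟨b1, b2, b3⟩ := hQ d₂ h2
  refine ⟨by rw [map_add, a1, b1], by rw [wt_add]; omega, ?_⟩
  intro m hm
  rcases support_add_cases hm with h | h
  · exact a3 m h
  · exact b3 m h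

lemma Bi.add {N a s k : ℕ} {P Q : RR σ} (hP : Bi N a s k P) (hQ : Bi N a s k Q) :
    Bi N a s k (P + Q) := by
  intro d hd
  rw [coeff_add] at hd
  by_cases h : coeff d P = 0
  · rw [h, zero_add] at hd
    exact hQ d hd
  · exact hP d h

lemma Bi.sum {ι : Type*} {N a s k : ℕ} (t : Finset ι) (P : ι → RR σ)
    (h : ∀ i ∈ t, Bi N a s k (P i)) : Bi N a s k (∑ i ∈ t, P i) := by
  intro d hd
  rw [coeff_sum] at hd
  obtain ⟨i, hi, hi2⟩ := Finset.exists_ne_zero_of_sum_ne_zero hd
  exact h i hi d hi2

lemma Bi.hm {N a s k : ℕ} {P : RR σ} (h : Bi N a s k P) : Hm P a := fun d hd => (h d hd).1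

lemma Bi.lv {N a k : ℕ} {P : RR σ} (h : Bi N a 0 k P) : Lv P k := fun d hd => by
  simpa using (h d hd).2.1

lemma Bi.vars {N a s k : ℕ} {P : RR σ} (h : Bi N a s k P) {m : σ →₀ ℕ} (hm : m ∈ P.vars) :
    Finsupp.degree m ≤ N := by
  obtain ⟨d, hd, hmd⟩ := (mem_vars_iff_mem_support m).1 hm
  exact (h d (mem_support_iff.1 hd)).2.2 m hmd

lemma bi_monomial [DecidableEq σ] {N : ℕ} (d : (σ →₀ ℕ) →₀ ℕ) (c : ℂ)
    (h : ∀ m ∈ d.support, Finsupp.degree m ≤ N) :
    Bi N (Finsupp.degree d) 0 (wt d) (monomial d c) := by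
  intro d' hd'
  rw [coeff_monomial] at hd'
  have : d = d' := by
    by_contra hne
    simp [hne] at hd'
  subst this
  exact ⟨rfl, by simp, h⟩

section theta

variable [Fintype σ] [DecidableEq σ]

/-- The level contributed by the letters in an exponent vector of `Option σ`. -/
def ylev (ν : Option σ →₀ ℕ) : ℕ := ∑ j, ν (some j)

lemma ylev_add (ν ν' : Option σ →₀ ℕ) : ylev (ν + ν') = ylev ν + ylev ν' := by
  simp [ylev, Finset.sum_add_distrib]

lemma degree_eq_none_add_ylev (ν : Option σ →₀ ℕ) : Finsupp.degree ν = ν none + ylev ν := by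
  rw [Finsupp.degree_eq_sum, Fintype.sum_option]
  rfl

/-- The image of the variable `X_m`. -/
noncomputable def thG (D : ℕ) (m : σ →₀ ℕ) : MvPolynomial (Option σ) (RR σ) :=
  X none * C (if Finsupp.degree m ≤ D then X m else 0) +
    ∑ j, X (some j) * C (if m j ≠ 0 then X (m - Finsupp.single j 1) else 0)

/-- The universal polynomial: `P` evaluated at the coefficients of `(c + Σ Y_j z_j) f`, for a
generic form `f` of degree at most `D`. -/
noncomputable def Th (D : ℕ) : RR σ →ₐ[ℂ] MvPolynomial (Option σ) (RR σ) :=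
  aeval (thG D)

/-- Degree data for the universal polynomial. -/
def BiT (D a k : ℕ) (G : MvPolynomial (Option σ) (RR σ)) : Prop :=
  ∀ ν d, coeff d (coeff ν G) ≠ 0 →
    Finsupp.degree ν = a ∧ Finsupp.degree d = a ∧ wt d + ylev ν = k ∧
      ∀ m ∈ d.support, Finsupp.degree m ≤ D

omit [Fintype σ] [DecidableEq σ] in
lemma coeff_sum_ne {τ R : Type} {ι : Type*} [CommSemiring R] {t : Finset ι}
    {A : ι → MvPolynomial τ R} {d : τ →₀ ℕ} (h : coeff d (∑ i ∈ t, A i) ≠ 0) :
    ∃ i ∈ t, coeff d (A i) ≠ 0 := by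
  rw [coeff_sum] at h
  exact Finset.exists_ne_zero_of_sum_ne_zero h

lemma BiT.mul {D a k a' k' : ℕ} {G G' : MvPolynomial (Option σ) (RR σ)} (h : BiT D a k G)
    (h' : BiT D a' k' G') : BiT D (a + a') (k + k') (G * G') := by
  intro ν d hd
  have hd' : coeff ν (G * G') ≠ 0 := by
    intro h0
    rw [h0] at hd
    simp at hd
  classical
  rw [coeff_mul] at hd
  obtain ⟨x, hx, hx2⟩ := coeff_sum_ne hd
  obtain ⟨d₁, d₂, rfl, h1, h2⟩ := exists_of_coeff_mul_ne_zero hx2
  obtain ⟨a1, a2, a3, a4⟩ := h x.1 d₁ h1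
  obtain ⟨b1, b2, b3, b4⟩ := h' x.2 d₂ h2
  have hν : x.1 + x.2 = ν := Finset.HasAntidiagonal.mem_antidiagonal.1 hx
  refine ⟨by rw [← hν, map_add, a1, b1], by rw [map_add, a2, b2], ?_, ?_⟩
  · rw [wt_add, ← hν, ylev_add]; omega
  · intro m hm
    rcases support_add_cases hm with h | h
    · exact a4 m h
    · exact b4 m h

lemma BiT.add {D a k : ℕ} {G G' : MvPolynomial (Option σ) (RR σ)} (h : BiT D a k G)
    (h' : BiT D a k G') : BiT D a k (G + G') := by
  intro ν d hd
  rw [coeff_add, coeff_add] at hd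
  by_cases h0 : coeff d (coeff ν G) = 0
  · rw [h0, zero_add] at hd
    exact h' ν d hd
  · exact h ν d h0

lemma BiT.sum {ι : Type*} {D a k : ℕ} (t : Finset ι) (G : ι → MvPolynomial (Option σ) (RR σ))
    (h : ∀ i ∈ t, BiT D a k (G i)) : BiT D a k (∑ i ∈ t, G i) := by
  intro ν d hd
  rw [coeff_sum, coeff_sum] at hd
  obtain ⟨i, hi, hi2⟩ := Finset.exists_ne_zero_of_sum_ne_zero hd
  exact h i hi ν d hi2

lemma coeff_X_mul_C {τ R : Type} [CommSemiring R] [DecidableEq τ] (o : τ) (A : R) (ν : τ →₀ ℕ) :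
    coeff ν ((X o : MvPolynomial τ R) * C A) = if Finsupp.single o 1 = ν then A else 0 := by
  rw [X, C_apply, monomial_mul, coeff_monomial]
  simp

lemma biT_X_mul_C {D a k : ℕ} (o : Option σ) (A : RR σ)
    (h : ∀ d, coeff d A ≠ 0 → Finsupp.degree (Finsupp.single o 1 : Option σ →₀ ℕ) = a ∧
      Finsupp.degree d = a ∧ wt d + ylev (Finsupp.single o 1 : Option σ →₀ ℕ) = k ∧
      ∀ m ∈ d.support, Finsupp.degree m ≤ D) :
    BiT D a k ((X o : MvPolynomial (Option σ) (RR σ)) * C A) := by
  intro ν d hd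
  rw [coeff_X_mul_C] at hd
  by_cases he : Finsupp.single o 1 = ν
  · subst he
    simp only [if_true] at hd
    exact h d hd
  · simp [he] at hd

omit [Fintype σ] in
lemma degree_sub_single {m : σ →₀ ℕ} {j : σ} (h : m j ≠ 0) :
    Finsupp.degree (m - Finsupp.single j 1) + 1 = Finsupp.degree m := by
  have h1 : Finsupp.single j 1 ≤ m := by
    rw [Finsupp.single_le_iff]
    exact Nat.one_le_iff_ne_zero.2 h
  have h2 : (m - Finsupp.single j 1) + Finsupp.single j 1 = m := tsub_add_cancel_of_le h1
  have h3 := congrArg Finsupp.degree h2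
  rw [map_add, Finsupp.degree_single] at h3
  exact h3

lemma ylev_single_none : ylev (Finsupp.single (none : Option σ) 1) = 0 := by
  simp [ylev]

lemma ylev_single_some (j : σ) : ylev (Finsupp.single (some j) 1) = 1 := by
  unfold ylev
  rw [Finset.sum_eq_single j]
  · simp
  · intro b _ hb
    simp [Finsupp.single_apply, Option.some_injective _ |>.ne hb.symm]
  · simp

omit [Fintype σ] in
lemma coeff_X_ne {m : σ →₀ ℕ} {d : (σ →₀ ℕ) →₀ ℕ} (h : coeff d (X m : RR σ) ≠ 0) :
    d = Finsupp.single m 1 := by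
  classical
  rw [coeff_X'] at h
  by_contra hne
  simp [Ne.symm hne] at h

lemma biT_thG {D : ℕ} {m : σ →₀ ℕ} (hm : Finsupp.degree m ≤ D + 1) :
    BiT D 1 (Finsupp.degree m) (thG D m) := by
  apply BiT.add
  · apply biT_X_mul_C
    intro d hd
    by_cases hc : Finsupp.degree m ≤ D
    · rw [if_pos hc] at hd
      have := coeff_X_ne hd
      subst this
      refine ⟨by simp, by simp, ?_, ?_⟩
      · rw [wt_single, ylev_single_none]; simp
      · intro m' hm'
        have : m' = m := Finset.mem_singleton.1 (Finsupp.support_single_subset hm')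
        subst this
        exact hc
    · rw [if_neg hc] at hd
      simp at hd
  · apply BiT.sum
    intro j _
    apply biT_X_mul_C
    intro d hd
    by_cases hc : m j ≠ 0
    · rw [if_pos hc] at hd
      have := coeff_X_ne hd
      subst this
      have h1 := degree_sub_single hc
      refine ⟨by simp, by simp, ?_, ?_⟩
      · rw [wt_single, ylev_single_some]; omega
      · intro m' hm'
        have : m' = m - Finsupp.single j 1 := Finset.mem_singleton.1 (Finsupp.support_single_subset hm')
        subst this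
        omega
    · rw [if_neg hc] at hd
      simp at hd

lemma biT_Th_monomial {D : ℕ} (d : (σ →₀ ℕ) →₀ ℕ) (c : ℂ) :
    (∀ m ∈ d.support, Finsupp.degree m ≤ D + 1) →
      BiT D (Finsupp.degree d) (wt d) (Th D (monomial d c : RR σ)) := by
  induction d using mono_induction with
  | h0 =>
    intro _ ν d hd
    have e : Th D (monomial 0 c : RR σ) = C (C c) := by
      simp [Th, algebraMap_eq]
    rw [e, coeff_C] at hd
    by_cases hν : 0 = ν
    · subst hν
      rw [if_pos rfl, coeff_C] at hd
      by_cases hd0 : 0 = d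
      · subst hd0
        simp [ylev]
      · simp [hd0] at hd
    · simp [hν] at hd
  | hs d a ih =>
    intro h
    have hsub : ∀ m ∈ d.support, Finsupp.degree m ≤ D + 1 := by
      intro m hm
      apply h
      rw [Finsupp.mem_support_iff] at hm ⊢
      simp only [Finsupp.coe_add, Pi.add_apply]
      omega
    have ha : Finsupp.degree a ≤ D + 1 := by
      apply h
      rw [Finsupp.mem_support_iff]
      simp
    rw [monomial_succ, map_mul, map_add, wt_add, wt_single, Finsupp.degree_single, one_mul]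
    have hth : Th D (X a : RR σ) = thG D a := by simp [Th]
    rw [hth]
    exact (ih hsub).mul (biT_thG ha)

lemma biT_Th {D a s k : ℕ} {P : RR σ} (hP : Bi (D + 1) a s k P) (hs : s = 0) :
    BiT D a k (Th D P) := by
  subst hs
  rw [eq_sum_monomial P, map_sum]
  apply BiT.sum
  intro d hd
  obtain ⟨h1, h2, h3⟩ := hP d (mem_support_iff.1 hd)
  have := biT_Th_monomial (D := D) d (coeff d P) h3
  rw [h1] at this
  have h2' : wt d = k := by simpa using h2
  rwa [h2'] at this

/-- The polynomial `Q_ν`. -/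
noncomputable def Qn (D : ℕ) (P : RR σ) (ν : Option σ →₀ ℕ) : RR σ := coeff ν (Th D P)

lemma bi_Qn {D a k : ℕ} {P : RR σ} (hP : Bi (D + 1) a 0 k P) (ν : Option σ →₀ ℕ)
    (hne : Qn D P ν ≠ 0) :
    Finsupp.degree ν = a ∧ Bi D a 0 (k - ylev ν) (Qn D P ν) ∧ ylev ν ≤ k := by
  have hT := biT_Th hP rfl
  obtain ⟨d, hd⟩ : ∃ d, coeff d (Qn D P ν) ≠ 0 := by
    by_contra hcon
    push Not at hcon
    exact hne (MvPolynomial.ext _ _ (by simpa using hcon))
  have h0 := hT ν d hd
  refine ⟨h0.1, ?_, by have := h0.2.2.1; omega⟩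
  intro d' hd'
  obtain ⟨_, h2, h3, h4⟩ := hT ν d' hd'
  exact ⟨h2, by simp; omega, h4⟩

/-- The evaluation homomorphism at the data `(ε, ℓ, g)`. -/
noncomputable def phi {S : Type} [CommRing S] [Algebra ℂ S] (ε : S) (ℓ : σ → S)
    (g : MvPolynomial σ S) : MvPolynomial (Option σ) (RR σ) →+* S :=
  eval₂Hom ((aeval (fun m => coeff m g) : RR σ →ₐ[ℂ] S) : RR σ →+* S)
    (fun o => o.elim ε ℓ)

lemma coeff_lin_mul {S : Type} [CommRing S] (ε : S) (ℓ : σ → S) (g : MvPolynomial σ S)
    (m : σ →₀ ℕ) :
    coeff m (lin ε ℓ * g) = ε * coeff m g +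
      ∑ j, ℓ j * (if m j ≠ 0 then coeff (m - Finsupp.single j 1) g else 0) := by
  unfold lin
  rw [add_mul, coeff_add, coeff_C_mul, Finset.sum_mul, coeff_sum]
  congr 1
  apply Finset.sum_congr rfl
  intro j _
  rw [mul_assoc, coeff_C_mul, coeff_X_mul']
  simp only [Finsupp.mem_support_iff]

lemma phi_thG {S : Type} [CommRing S] [Algebra ℂ S] (ε : S) (ℓ : σ → S)
    (g : MvPolynomial σ S) {D : ℕ} (hg : g.totalDegree ≤ D) (m : σ →₀ ℕ) :
    phi ε ℓ g (thG D m) = coeff m (lin ε ℓ * g) := by
  rw [coeff_lin_mul]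
  unfold thG phi
  simp only [map_add, map_mul, map_sum, eval₂Hom_X', eval₂Hom_C, Option.elim]
  congr 1
  · by_cases hc : Finsupp.degree m ≤ D
    · simp [hc]
    · simp only [hc, if_false, RingHom.coe_coe, map_zero, mul_zero]
      have : coeff m g = 0 := by
        apply coeff_eq_zero_of_totalDegree_lt
        have : Finsupp.degree m = ∑ i ∈ m.support, m i := rfl
        omega
      rw [this, mul_zero]
  · apply Finset.sum_congr rfl
    intro j _
    by_cases hc : m j ≠ 0
    · simp [hc]
    · simp [hc]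

lemma phi_Th {S : Type} [CommRing S] [Algebra ℂ S] (ε : S) (ℓ : σ → S)
    (g : MvPolynomial σ S) {D : ℕ} (hg : g.totalDegree ≤ D) (P : RR σ) :
    phi ε ℓ g (Th D P) = evF P (lin ε ℓ * g) := by
  induction P using MvPolynomial.induction_on with
  | C a =>
    have : Th D (C a : RR σ) = C (C a) := by
      simp [Th, algebraMap_eq]
    rw [this]
    simp [phi, evF]
  | add p q hp hq => rw [map_add, map_add, hp, hq, evF_add]
  | mul_X p n hp =>
    have : Th D (X n : RR σ) = thG D n := by simp [Th]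
    rw [map_mul, map_mul, hp, this, phi_thG _ _ _ hg, evF_mul, evF_X]

/-- Vanishing of the `Q_ν` with small exponent of `c` gives membership in the family. -/
theorem nil_of_Qn {D r : ℕ} {P : RR σ} (h : ∀ ν, ν none < r → Qn D P ν = 0) : Nil D r P := by
  intro S _ _ ε hε ℓ g hg
  rw [← phi_Th ε ℓ g hg]
  unfold phi
  rw [coe_eval₂Hom, eval₂_eq']
  apply Finset.sum_eq_zero
  intro ν _
  by_cases hν : ν none < r
  · have : coeff ν (Th D P) = 0 := h ν hν
    rw [this]
    simp
  · apply mul_eq_zero_of_right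
    apply Finset.prod_eq_zero (Finset.mem_univ none)
    simp only [Option.elim]
    exact pow_eq_zero_of_le (by omega) hε

/-- The product of linear factors `1 + ⟨y, z⟩`. -/
noncomputable def prodForm : List (σ → ℂ) → MvPolynomial σ ℂ
  | [] => 1
  | y :: l => lin 1 y * prodForm l

/-- `P` is a relation on `N` points: it vanishes on all products of `N` linear factors with
constant term one. -/
def Rel (N : ℕ) (P : RR σ) : Prop :=
  ∀ l : List (σ → ℂ), l.length = N → evF P (prodForm l) = 0

lemma totalDegree_prodForm_le (l : List (σ → ℂ)) : (prodForm l).totalDegree ≤ l.length := by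
  induction l with
  | nil => simp [prodForm]
  | cons y l ih =>
    simp only [prodForm, List.length_cons]
    have h1 := totalDegree_mul (lin (1 : ℂ) y) (prodForm l)
    have h2 := totalDegree_lin_le (1 : ℂ) y
    omega

lemma coeff_zero_prodForm (l : List (σ → ℂ)) : coeff 0 (prodForm l) = 1 := by
  induction l with
  | nil => simp [prodForm]
  | cons y l ih =>
    simp only [prodForm]
    rw [← constantCoeff_eq, map_mul, constantCoeff_eq, ih, mul_one]
    simp [lin, constantCoeff_eq, coeff_sum, coeff_C_mul]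

lemma lin_eq_C_mul (c : ℂ) (hc : c ≠ 0) (y : σ → ℂ) :
    lin c y = C c * lin 1 (fun j => c⁻¹ * y j) := by
  unfold lin
  rw [mul_add, Finset.mul_sum]
  congr 1
  · simp
  · apply Finset.sum_congr rfl
    intro j _
    rw [← mul_assoc, ← C_mul, ← mul_assoc, mul_inv_cancel₀ hc, one_mul]

/-- The polynomials `Q_ν` of a relation on `D + 1` points are relations on `D` points. -/
theorem rel_Qn {D a : ℕ} {P : RR σ} (hP : Hm P a) (hR : Rel (D + 1) P) (ν : Option σ →₀ ℕ) :
    Rel D (Qn D P ν) := by
  intro l hl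
  set F := prodForm l with hF
  have hdeg : F.totalDegree ≤ D := by
    rw [hF, ← hl]; exact totalDegree_prodForm_le l
  let ev : RR σ →+* ℂ := ((aeval (fun m => coeff m F) : RR σ →ₐ[ℂ] ℂ) : RR σ →+* ℂ)
  have key : (X none : MvPolynomial (Option σ) ℂ) * map ev (Th D P) = 0 := by
    apply MvPolynomial.funext
    intro x
    rw [map_mul, eval_X, map_zero, eval_map]
    by_cases hc : x none = 0
    · rw [hc, zero_mul]
    · have h1 : eval₂ ev x (Th D P) = phi (x none) (fun j => x (some j)) F (Th D P) := by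
        unfold phi
        rw [coe_eval₂Hom]
        congr 1
        funext o
        cases o <;> rfl
      rw [h1, phi_Th _ _ _ hdeg, lin_eq_C_mul _ hc, mul_assoc, evF_C_mul hP]
      have h2 := hR ((fun j => (x none)⁻¹ * x (some j)) :: l) (by simp [hl])
      simp only [prodForm] at h2
      rw [h2, mul_zero, mul_zero]
  have h2 := (mul_eq_zero.1 key).resolve_left (X_ne_zero _)
  have h3 := congrArg (coeff ν) h2
  rw [coeff_map, coeff_zero] at h3
  exact h3

/-- A relation of level zero is zero. -/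
lemma eq_zero_of_level_zero {M e : ℕ} {E : RR σ} (hE : Bi M e 0 0 E) (hR : Rel M E) : E = 0 := by
  have hd : ∀ d, coeff d E ≠ 0 → d = Finsupp.single 0 e := by
    intro d hd
    obtain ⟨h1, h2, _⟩ := hE d hd
    have hz : ∀ m ∈ d.support, m = 0 := by
      intro m hm
      have h3 := degree_le_wt d m hm
      have h4 : Finsupp.degree m = 0 := by simp at h2; omega
      exact (Finsupp.degree_eq_zero_iff m).1 h4
    have hs : d = Finsupp.single 0 (d 0) := by
      ext m
      by_cases hm : m = 0
      · subst hm; simp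
      · have : d m = 0 := by
          by_contra hne
          exact hm (hz m (Finsupp.mem_support_iff.2 hne))
        simp [this, Finsupp.single_apply, Ne.symm hm]
    have he : d 0 = e := by
      rw [hs, Finsupp.degree_single] at h1
      simpa using h1
    rw [hs, he]
  have hform : E = monomial (Finsupp.single 0 e) (coeff (Finsupp.single 0 e) E) := by
    ext d
    rw [coeff_monomial]
    by_cases hd' : Finsupp.single 0 e = d
    · rw [if_pos hd', hd']
    · rw [if_neg hd']
      by_contra hne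
      exact hd' (hd d hne).symm
  have h1 := hR (List.replicate M 0) (by simp)
  rw [hform] at h1
  have h2 : evF (monomial (Finsupp.single 0 e) (coeff (Finsupp.single 0 e) E) : RR σ)
      (prodForm (List.replicate M 0)) = coeff (Finsupp.single 0 e) E := by
    unfold evF
    rw [aeval_monomial, Finsupp.prod_single_index (by simp), coeff_zero_prodForm]
    simp
  rw [h2] at h1
  rw [hform, h1]
  simp

/-- **Freeness in low level.** A relation on `M` points of level at most `M` is zero. -/
theorem claim0 : ∀ (M u e : ℕ) (E : RR σ), Bi M e 0 u E → u ≤ M → Rel M E → E = 0 := by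
  intro M
  induction M with
  | zero =>
    intro u e E hE hu hR
    have : u = 0 := by omega
    subst this
    exact eq_zero_of_level_zero hE hR
  | succ M ih =>
    intro u e E hE hu hR
    by_cases hu0 : u = 0
    · subst hu0
      exact eq_zero_of_level_zero hE hR
    · have hQ : ∀ ν : Option σ →₀ ℕ, ν none < e → Qn M E ν = 0 := by
        intro ν hν
        by_contra hne
        obtain ⟨h1, h2, _⟩ := bi_Qn hE ν hne
        have h3 := degree_eq_none_add_ylev ν
        exact hne (ih (u - ylev ν) e _ h2 (by omega) (rel_Qn hE.hm hR ν))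
      have hN : Nil M e E := nil_of_Qn hQ
      exact inv_eq_zero hE.lv (by omega) hu
        (fun y f hf => hN.inv hE.hm le_rfl y f (by omega))

end theta

end Vale.Agent.Lib.P181
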