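import Vale.Agent.Lib.P181.Word

/-!
Transfer: the kernel of the Foulkes-Howe map gives relations in the sense of the core theorem.
-/

namespace Vale.Agent.Lib.P181

open MvPolynomial

set_option linter.unusedSectionVars false
set_option linter.unusedSimpArgs false

section level

variable {σ : Type} [Fintype σ] [DecidableEq σ]

/-- The list of points scaled by `s`. -/
def scaleL (s : ℂ) (l : List (σ → ℂ)) : List (σ → ℂ) := l.map (fun y j => s * y j)

lemma coeff_prodForm_scale (s : ℂ) (l : List (σ → ℂ)) (m : σ →₀ ℕ) :
    coeff m (prodForm (scaleL s l)) = s ^ (Finsupp.degree m) * coeff m (prodForm l) := by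
  induction l generalizing m with
  | nil =>
    simp only [scaleL, List.map_nil, prodForm, coeff_one]
    by_cases hm : 0 = m
    · subst hm; simp
    · simp [hm]
  | cons y l ih =>
    have e : scaleL s (y :: l) = (fun j => s * y j) :: scaleL s l := rfl
    rw [e]
    simp only [prodForm, coeff_lin_mul, one_mul, ih]
    rw [mul_add, Finset.mul_sum]
    congr 1
    apply Finset.sum_congr rfl
    intro j _
    by_cases hj : m j ≠ 0
    · simp only [hj, if_true, ne_eq, not_false_eq_true]
      have := degree_sub_single hj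
      rw [← this, pow_succ]
      ring
    · simp [hj]

/-- The polynomial in the scale parameter. -/
noncomputable def rho (F : MvPolynomial σ ℂ) : RR σ →ₐ[ℂ] Polynomial ℂ :=
  aeval (fun m => Polynomial.C (coeff m F) * Polynomial.X ^ (Finsupp.degree m))

lemma rho_eval (l : List (σ → ℂ)) (s : ℂ) (P : RR σ) :
    (rho (prodForm l) P).eval s = evF P (prodForm (scaleL s l)) := by
  induction P using MvPolynomial.induction_on with
  | C a => simp [rho, Polynomial.algebraMap_apply]
  | add p q hp hq => simp [hp, hq]
  | mul_X p n hp =>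
    have h : rho (prodForm l) (X n) =
        Polynomial.C (coeff n (prodForm l)) * Polynomial.X ^ (Finsupp.degree n) := by simp [rho]
    rw [map_mul, Polynomial.eval_mul, hp, h, evF_mul, evF_X, coeff_prodForm_scale]
    simp only [Polynomial.eval_mul, Polynomial.eval_C, Polynomial.eval_pow, Polynomial.eval_X]
    ring

lemma rho_monomial (F : MvPolynomial σ ℂ) (d : (σ →₀ ℕ) →₀ ℕ) (c : ℂ) :
    rho F (monomial d c) = Polynomial.C (evF (monomial d c : RR σ) F) * Polynomial.X ^ (wt d) := by
  induction d using mono_induction with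
  | h0 =>
    simp [rho, Polynomial.algebraMap_apply]
  | hs d a ih =>
    rw [monomial_succ, map_mul, ih, evF_mul, evF_X, wt_add, wt_single]
    simp [rho]
    ring

lemma coeff_rho (F : MvPolynomial σ ℂ) (P : RR σ) (k : ℕ) :
    (rho F P).coeff k =
      evF (weightedHomogeneousComponent (fun m : σ →₀ ℕ => Finsupp.degree m) k P) F := by
  classical
  rw [weightedHomogeneousComponent_apply]
  conv_lhs => rw [eq_sum_monomial P, map_sum, Polynomial.finsetSum_coeff]
  have hs : ∀ t : Finset ((σ →₀ ℕ) →₀ ℕ), evF (∑ d ∈ t, monomial d (coeff d P) : RR σ) F =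
      ∑ d ∈ t, evF (monomial d (coeff d P) : RR σ) F := by
    intro t
    simp [evF]
  rw [hs, Finset.sum_filter]
  apply Finset.sum_congr rfl
  intro d _
  rw [rho_monomial, Polynomial.coeff_C_mul, Polynomial.coeff_X_pow]
  by_cases h : k = wt d
  · have h' : (Finsupp.weight (fun m : σ →₀ ℕ => Finsupp.degree m)) d = k := h.symm
    simp [h, h']
  · have h' : ¬ (Finsupp.weight (fun m : σ →₀ ℕ => Finsupp.degree m)) d = k := fun e => h e.symm
    simp [h, h']

/-- The level components of a relation are relations. -/
theorem rel_component {N : ℕ} {P : RR σ} (hR : Rel N P) (k : ℕ) :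
    Rel N (weightedHomogeneousComponent (fun m : σ →₀ ℕ => Finsupp.degree m) k P) := by
  intro l hl
  rw [← coeff_rho]
  have : rho (prodForm l) P = 0 := by
    apply Polynomial.funext
    intro s
    rw [rho_eval, Polynomial.eval_zero]
    apply hR
    simp [scaleL, hl]
  rw [this]
  simp

/-- The core theorem without the assumption of a fixed level. -/
theorem eq_zero_of_rel {A N : ℕ} (hA : 1 ≤ A) (hN : 2 ^ (A - 1) * (A * (A - 1)) ≤ N) {P : RR σ}
    (hH : ∀ d, coeff d P ≠ 0 → Finsupp.degree d = A ∧ ∀ m ∈ d.support, Finsupp.degree m ≤ N)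
    (hR : Rel N P) : P = 0 := by
  ext d
  rw [coeff_zero]
  by_contra hd
  have h0 := noRel_all (σ := σ) hA hN A (wt d)
    (weightedHomogeneousComponent (fun m : σ →₀ ℕ => Finsupp.degree m) (wt d) P) le_rfl
    (by
      intro d' hd'
      rw [coeff_weightedHomogeneousComponent] at hd'
      by_cases h : (Finsupp.weight (fun m : σ →₀ ℕ => Finsupp.degree m)) d' = wt d
      · rw [if_pos h] at hd'
        obtain ⟨h1, h2⟩ := hH d' hd'
        exact ⟨h1, by simpa [wt] using h, h2⟩
      · rw [if_neg h] at hd'
        exact absurd rfl hd')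
    (rel_component hR _)
  have h1 := congrArg (coeff d) h0
  have hw : (Finsupp.weight (fun m : σ →₀ ℕ => Finsupp.degree m)) d = wt d := rfl
  rw [coeff_weightedHomogeneousComponent, if_pos hw, coeff_zero] at h1
  exact hd h1

end level

section words

variable {d a b : ℕ}

/-- The exponent vector of a letter, with the letter `0` dehomogenized. -/
noncomputable def eL (x : Fin (d + 1)) : Fin d →₀ ℕ :=
  Fin.cases 0 (fun j => Finsupp.single j 1) x

/-- The exponent vector of a word. -/
noncomputable def monoW (w : Fin b → Fin (d + 1)) : Fin d →₀ ℕ := ∑ k, eL (w k)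

/-- The exponent vector of a basis element of `Sym ^ b`. -/
noncomputable def mbar (s : Sym (Fin (d + 1)) b) : Fin d →₀ ℕ := (s.1.map eL).sum

lemma mbar_symOf (w : Fin b → Fin (d + 1)) : mbar (symOf w) = monoW w := by
  simp only [mbar, symOf, monoW, Multiset.map_map, Function.comp_def]
  rfl

lemma monoW_comp_perm (w : Fin b → Fin (d + 1)) (τ : Equiv.Perm (Fin b)) :
    monoW (w ∘ τ) = monoW w := by
  simp only [monoW, Function.comp]
  exact Equiv.sum_comp τ (fun k => eL (w k))

lemma eL_apply (x : Fin (d + 1)) (j : Fin d) : eL x j = if x = j.succ then 1 else 0 := by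
  induction x using Fin.cases with
  | zero => simp [eL, (Fin.succ_ne_zero j).symm]
  | succ i =>
    simp only [eL, Fin.cases_succ, Fin.succ_inj]
    by_cases h : i = j
    · subst h; simp
    · simp [h, Finsupp.single_apply]

lemma monoW_apply (w : Fin b → Fin (d + 1)) (j : Fin d) :
    monoW w j = Fintype.card {k // w k = j.succ} := by
  unfold monoW
  rw [Finsupp.finsetSum_apply, Fintype.card_subtype]
  simp only [eL_apply]
  rw [Finset.card_eq_sum_ones, Finset.sum_filter]

lemma sum_card_fiber (w : Fin b → Fin (d + 1)) :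
    ∑ x, Fintype.card {k // w k = x} = b := by
  have := Finset.card_eq_sum_card_fiberwise (f := w) (s := Finset.univ) (t := Finset.univ)
    (fun _ _ => Finset.mem_univ _)
  simp only [Finset.card_univ, Fintype.card_fin] at this
  conv_rhs => rw [this]
  apply Finset.sum_congr rfl
  intro x _
  rw [Fintype.card_subtype]

lemma card_fiber_of_monoW_eq {w w' : Fin b → Fin (d + 1)} (h : monoW w = monoW w') (x : Fin (d + 1)) :
    Fintype.card {k // w k = x} = Fintype.card {k // w' k = x} := by
  have hs : ∀ j : Fin d, Fintype.card {k // w k = j.succ} = Fintype.card {k // w' k = j.succ} := by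
    intro j
    rw [← monoW_apply, ← monoW_apply, h]
  induction x using Fin.cases with
  | zero =>
    have h1 := sum_card_fiber w
    have h2 := sum_card_fiber w'
    rw [Fin.sum_univ_succ] at h1 h2
    have h3 : ∑ i : Fin d, Fintype.card {k // w k = i.succ} =
        ∑ i : Fin d, Fintype.card {k // w' k = i.succ} := Finset.sum_congr rfl (fun j _ => hs j)
    omega
  | succ i => exact hs i

lemma exists_perm_of_monoW_eq {w w' : Fin b → Fin (d + 1)} (h : monoW w = monoW w') :
    ∃ τ : Equiv.Perm (Fin b), w = w' ∘ τ :=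
  exists_perm_of_card_fiber w w' (card_fiber_of_monoW_eq h)

lemma mbar_injective : Function.Injective (mbar : Sym (Fin (d + 1)) b → Fin d →₀ ℕ) := by
  intro s s' h
  obtain ⟨w, rfl⟩ := exists_word s
  obtain ⟨w', rfl⟩ := exists_word s'
  rw [mbar_symOf, mbar_symOf] at h
  exact (symOf_eq_iff _ _).2 (exists_perm_of_monoW_eq h)

lemma degree_eL_le (x : Fin (d + 1)) : Finsupp.degree (eL x) ≤ 1 := by
  induction x using Fin.cases with
  | zero => simp [eL]
  | succ i => simp [eL]

lemma degree_mbar_le (s : Sym (Fin (d + 1)) b) : Finsupp.degree (mbar s) ≤ b := by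
  obtain ⟨w, rfl⟩ := exists_word s
  rw [mbar_symOf]
  unfold monoW
  rw [map_sum]
  calc ∑ k, Finsupp.degree (eL (w k)) ≤ ∑ _k : Fin b, 1 :=
        Finset.sum_le_sum (fun k _ => degree_eL_le _)
    _ = b := by simp

/-- The size of the stabilizer of a word. -/
noncomputable def thetaS (s : Sym (Fin (d + 1)) b) : ℕ :=
  ∏ x, (Multiset.count x s.1).factorial

lemma thetaS_ne_zero (s : Sym (Fin (d + 1)) b) : (thetaS s : ℂ) ≠ 0 := by
  have : thetaS s ≠ 0 := Finset.prod_ne_zero_iff.2 (fun x _ => Nat.factorial_ne_zero _)
  exact_mod_cast this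

lemma card_stab (w : Fin b → Fin (d + 1)) :
    Fintype.card {g : Equiv.Perm (Fin b) // w ∘ g = w} = thetaS (symOf w) := by
  rw [DomMulAct.stabilizer_card]
  apply Finset.prod_congr rfl
  intro x _
  rw [card_fiber_eq_count]
  rfl

lemma card_perm_fiber (w π : Fin b → Fin (d + 1)) :
    (Finset.univ.filter (fun τ : Equiv.Perm (Fin b) => w ∘ τ = π)).card =
      if monoW π = monoW w then thetaS (symOf w) else 0 := by
  by_cases h : monoW π = monoW w
  · rw [if_pos h]
    obtain ⟨τ₀, rfl⟩ := exists_perm_of_monoW_eq h
    rw [← card_stab, ← Fintype.card_subtype]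
    apply Fintype.card_congr
    apply Equiv.subtypeEquiv (Equiv.mulRight τ₀⁻¹)
    intro τ
    simp only [Equiv.coe_mulRight]
    constructor
    · intro hτ
      funext k
      have := congrFun hτ (τ₀⁻¹ k)
      simpa using this
    · intro hτ
      funext k
      have := congrFun hτ (τ₀ k)
      simpa using this
  · rw [if_neg h, Finset.card_eq_zero, Finset.filter_eq_empty_iff]
    intro τ _ hτ
    apply h
    rw [← hτ, monoW_comp_perm]

end words

end Vale.Agent.Lib.P181
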