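import Vale.Agent.Lib.P181.Defs
import Vale.Agent.Lib.P181.Step

/-!
Combinatorics of words: fibers, permutations, and the well-definedness of the Foulkes-Howe map.
-/

namespace Vale.Agent.Lib.P181

open MvPolynomial

set_option linter.unusedSectionVars false
set_option linter.unusedSimpArgs false

section perm

variable {α : Type} [DecidableEq α]

/-- Two functions with the same fiber sizes differ by a permutation. -/
lemma exists_perm_of_card_fiber {k : ℕ} (f g : Fin k → α)
    (h : ∀ x, Fintype.card {i // f i = x} = Fintype.card {i // g i = x}) :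
    ∃ τ : Equiv.Perm (Fin k), f = g ∘ τ := by
  let e : ∀ c, {a // f a = c} ≃ {b // g b = c} := fun c => Fintype.equivOfCardEq (h c)
  refine ⟨Equiv.ofFiberEquiv e, ?_⟩
  funext i
  exact (Equiv.ofFiberEquiv_map e i).symm

lemma card_fiber_eq_count {k : ℕ} (f : Fin k → α) (x : α) :
    Fintype.card {i // f i = x} = Multiset.count x (Finset.univ.val.map f) := by
  rw [Multiset.count_map, Fintype.card_subtype]
  simp only [eq_comm]
  rfl

lemma exists_fun_of_multiset (M : Multiset α) {k : ℕ} (hM : Multiset.card M = k) :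
    ∃ f : Fin k → α, Finset.univ.val.map f = M := by
  induction M using Multiset.induction_on generalizing k with
  | empty =>
    simp only [Multiset.card_zero] at hM
    subst hM
    exact ⟨Fin.elim0, by simp⟩
  | cons a M ih =>
    simp only [Multiset.card_cons] at hM
    subst hM
    obtain ⟨f, hf⟩ := ih rfl
    refine ⟨Fin.cons a f, ?_⟩
    have : (Finset.univ : Finset (Fin (Multiset.card M + 1))).val.map (Fin.cons a f : _ → α) =
        a ::ₘ (Finset.univ : Finset (Fin (Multiset.card M))).val.map f := by
      simp only [Fin.univ_val_map, List.ofFn_succ, Fin.cons_zero, Fin.cons_succ]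
      rfl
    rw [this, hf]

end perm

section sym

variable {n a b : ℕ}

lemma symOf_comp_perm (w : Fin b → Fin n) (τ : Equiv.Perm (Fin b)) :
    symOf (w ∘ τ) = symOf w := by
  apply Subtype.ext
  show Finset.univ.val.map (w ∘ τ) = Finset.univ.val.map w
  rw [← Multiset.map_map]
  congr 1
  have := Finset.map_univ_equiv τ
  have h2 := congrArg Finset.val this
  simpa using h2

lemma symOf_eq_iff (w w' : Fin b → Fin n) :
    symOf w = symOf w' ↔ ∃ τ : Equiv.Perm (Fin b), w = w' ∘ τ := by
  constructor
  · intro h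
    apply exists_perm_of_card_fiber
    intro x
    rw [card_fiber_eq_count, card_fiber_eq_count]
    have := congrArg Subtype.val h
    simp only [symOf] at this
    rw [this]
  · rintro ⟨τ, rfl⟩
    exact symOf_comp_perm w' τ

lemma exists_word (s : Sym (Fin n) b) : ∃ w : Fin b → Fin n, symOf w = s := by
  obtain ⟨f, hf⟩ := exists_fun_of_multiset s.1 s.2
  exact ⟨f, Subtype.ext hf⟩

/-- The exponent vector of a monomial in the variables, from a function. -/
noncomputable def rowExp {τ : Type} [DecidableEq τ] {k : ℕ} (f : Fin k → τ) : τ →₀ ℕ :=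
  ∑ i, Finsupp.single (f i) 1

lemma rowExp_apply {τ : Type} [DecidableEq τ] {k : ℕ} (f : Fin k → τ) (x : τ) :
    rowExp f x = Fintype.card {i // f i = x} := by
  unfold rowExp
  rw [Finsupp.finsetSum_apply, Fintype.card_subtype]
  simp only [Finsupp.single_apply]
  rw [Finset.card_eq_sum_ones, Finset.sum_filter]

lemma prod_X_eq_monomial {τ : Type} [DecidableEq τ] {k : ℕ} (f : Fin k → τ) :
    (∏ i, X (f i) : MvPolynomial τ ℂ) = monomial (rowExp f) 1 := by
  unfold rowExp
  rw [monomial_sum_index]
  simp [X]

lemma exists_prod_X {τ : Type} [DecidableEq τ] (e : τ →₀ ℕ) :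
    ∀ k, Finsupp.degree e = k → ∃ f : Fin k → τ, (∏ i, X (f i) : MvPolynomial τ ℂ) = monomial e 1 := by
  induction e using mono_induction with
  | h0 =>
    intro k hk
    simp only [map_zero] at hk
    subst hk
    exact ⟨Fin.elim0, by simp⟩
  | hs d x ih =>
    intro k hk
    have hd : k = Finsupp.degree d + 1 := by
      rw [← hk]; simp
    subst hd
    obtain ⟨f, hf⟩ := ih _ rfl
    refine ⟨Fin.cons x f, ?_⟩
    rw [Fin.prod_univ_succ]
    simp only [Fin.cons_zero, Fin.cons_succ]
    rw [hf, X, monomial_mul]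
    simp [add_comm]

end sym

section colSum

variable {n a b : ℕ}

lemma colSum_comp_rows (v : Fin a → Fin b → Fin n) (τ : Fin a → Equiv.Perm (Fin b)) :
    colSum (fun i => v i ∘ τ i) = colSum v := by
  apply Subtype.ext
  show (∑ s : Fin a → Equiv.Perm (Fin b), ∏ j, X (symOf (fun i => (v i ∘ τ i) (s i j))) :
      MvPolynomial (Sym (Fin n) a) ℂ) =
    ∑ s : Fin a → Equiv.Perm (Fin b), ∏ j, X (symOf (fun i => v i (s i j)))
  apply Fintype.sum_equiv (Equiv.piCongrRight (fun i => Equiv.mulLeft (τ i)))
  intro s
  simp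

lemma colSum_perm_rows (v : Fin a → Fin b → Fin n) (ρ : Equiv.Perm (Fin a)) :
    colSum (fun i => v (ρ i)) = colSum v := by
  apply Subtype.ext
  show (∑ s : Fin a → Equiv.Perm (Fin b), ∏ j, X (symOf (fun i => v (ρ i) (s i j))) :
      MvPolynomial (Sym (Fin n) a) ℂ) =
    ∑ s : Fin a → Equiv.Perm (Fin b), ∏ j, X (symOf (fun i => v i (s i j)))
  apply Fintype.sum_equiv (Equiv.arrowCongr ρ (Equiv.refl _))
  intro s
  apply Finset.prod_congr rfl
  intro j _
  congr 1
  have : (fun i => v (ρ i) (s i j)) = (fun i => v i ((Equiv.arrowCongr ρ (Equiv.refl _) s) i j)) ∘ ρ := by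
    funext i
    simp [Equiv.arrowCongr]
  rw [this, symOf_comp_perm]

/-- The right side of the formula depends only on the left side. -/
lemma colSum_eq_of_rowProd_eq (v v' : Fin a → Fin b → Fin n)
    (h : (rowProd v : MvPolynomial (Sym (Fin n) b) ℂ) = rowProd v') : colSum v = colSum v' := by
  have h1 : rowExp (fun i => symOf (v i)) = rowExp (fun i => symOf (v' i)) := by
    have : (monomial (rowExp (fun i => symOf (v i))) (1 : ℂ) : MvPolynomial (Sym (Fin n) b) ℂ) =
        monomial (rowExp (fun i => symOf (v' i))) 1 := by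
      rw [← prod_X_eq_monomial, ← prod_X_eq_monomial]
      exact h
    exact (monomial_left_injective (one_ne_zero)) this
  obtain ⟨ρ, hρ⟩ := exists_perm_of_card_fiber (fun i => symOf (v i)) (fun i => symOf (v' i)) (by
    intro x
    rw [← rowExp_apply, ← rowExp_apply, h1])
  have h2 : ∀ i, ∃ τ : Equiv.Perm (Fin b), v i = v' (ρ i) ∘ τ := by
    intro i
    have := congrFun hρ i
    exact (symOf_eq_iff _ _).1 this
  choose τ hτ using h2
  have h3 : v = fun i => (fun i' => v' (ρ i')) i ∘ τ i := funext hτ
  rw [h3, colSum_comp_rows, colSum_perm_rows]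

end colSum

end Vale.Agent.Lib.P181
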